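import Vale.Agent.P244A.Basic

/-! The product of two spheres with four charts.
Hints. `exists_invHomeo`: `OnePoint.continuous_iff`, `OnePoint.nhds_infty_eq`, `coclosedCompact_eq_cocompact`,
`tendsto_norm_cocompact_atTop`, `Metric.cobounded_eq_cocompact`; an involution gives the `Homeomorph`.
`exists_atlas`: `M = OnePoint (E (q + 1)) × OnePoint (E 2)`, `c = (OnePoint.isOpenEmbedding_coe.toOpenPartialHomeomorph _).symm`,
charts ` ((J^a).toOpenPartialHomeomorph ≫ₕ c).prod (…)` followed by `EuclideanSpace.finAddEquivProd.symm`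
(`q + 3` is `q + 1 + 2` by `rfl`; `uu q y`, `zz q y` are the squared norms of the two components,
`Fin.sum_univ_add`, `Fin.addCases`).  It may be easier to give each chart as
`IsOpenEmbedding.toOpenPartialHomeomorph (ψ a b)` reversed, `ψ a b y = (J^a y₁, J^b y₂)`. -/

open Set Filter Topology
open scoped ContDiff

noncomputable section

namespace Vale.Agent.P244A

open Vale.Agent.P244

/-- inversion in the unit sphere -/
def atlasInv {m : ℕ} (v : E m) : E m := (‖v‖ ^ 2)⁻¹ • v

theorem atlas_norm_inv {m : ℕ} (v : E m) : ‖atlasInv v‖ = ‖v‖⁻¹ := by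
  rw [atlasInv, norm_smul, norm_inv, norm_pow, norm_norm]
  rcases eq_or_ne ‖v‖ 0 with h | h
  · simp [h]
  · field_simp

theorem atlas_inv_ne {m : ℕ} {v : E m} (hv : v ≠ 0) : atlasInv v ≠ 0 := by
  rw [← norm_ne_zero_iff, atlas_norm_inv]
  exact inv_ne_zero (norm_ne_zero_iff.2 hv)

theorem atlas_inv_inv {m : ℕ} {v : E m} (hv : v ≠ 0) : atlasInv (atlasInv v) = v := by
  have h := norm_ne_zero_iff.2 hv
  rw [atlasInv, atlas_norm_inv, atlasInv, smul_smul, inv_pow, inv_inv,
    mul_inv_cancel₀ (pow_ne_zero 2 h), one_smul]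

open Classical in
/-- inversion on the one point compactification -/
def atlasJ {m : ℕ} (x : OnePoint (E m)) : OnePoint (E m) :=
  x.elim ((0 : E m) : OnePoint (E m)) fun v =>
    if v = 0 then OnePoint.infty else ((atlasInv v : E m) : OnePoint (E m))

theorem atlasJ_zero {m : ℕ} : atlasJ ((0 : E m) : OnePoint (E m)) = OnePoint.infty := by
  simp [atlasJ]

theorem atlasJ_coe {m : ℕ} {v : E m} (hv : v ≠ 0) :
    atlasJ (v : OnePoint (E m)) = ((atlasInv v : E m) : OnePoint (E m)) := by
  simp [atlasJ, hv]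

theorem atlasJ_invol {m : ℕ} : Function.Involutive (atlasJ (m := m)) := by
  intro x
  induction x using OnePoint.rec with
  | infty => exact atlasJ_zero
  | coe v =>
    rcases eq_or_ne v 0 with rfl | hv
    · rw [atlasJ_zero]
      rfl
    · rw [atlasJ_coe hv, atlasJ_coe (atlas_inv_ne hv), atlas_inv_inv hv]

theorem atlasJ_cont {m : ℕ} : Continuous (atlasJ (m := m)) := by
  rw [OnePoint.continuous_iff, coclosedCompact_eq_cocompact]
  constructor
  · have h1 : Tendsto norm (cocompact (E m)) atTop := tendsto_norm_cocompact_atTop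
    have h2 : Tendsto (fun v : E m => atlasInv v) (cocompact (E m)) (𝓝 0) := by
      rw [tendsto_zero_iff_norm_tendsto_zero]
      simp only [atlas_norm_inv]
      exact tendsto_inv_atTop_zero.comp h1
    refine ((OnePoint.continuous_coe.tendsto 0).comp h2).congr' ?_
    filter_upwards [h1.eventually_gt_atTop 0] with v hv
    exact (atlasJ_coe (norm_pos_iff.1 hv)).symm
  · refine continuous_iff_continuousAt.2 fun v => ?_
    rcases eq_or_ne v 0 with rfl | hv
    · rw [continuousAt_iff_punctured_nhds, atlasJ_zero]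
      have h2 : Tendsto (fun v : E m => atlasInv v) (𝓝[≠] 0) (coclosedCompact (E m)) := by
        rw [coclosedCompact_eq_cocompact, ← Metric.cobounded_eq_cocompact,
          ← tendsto_norm_atTop_iff_cobounded]
        simp only [atlas_norm_inv]
        exact tendsto_inv_nhdsGT_zero.comp tendsto_norm_nhdsNE_zero
      refine (OnePoint.tendsto_coe_infty.comp h2).congr' ?_
      filter_upwards [self_mem_nhdsWithin] with v hv
      exact (atlasJ_coe hv).symm
    · have h1 : ContinuousAt (fun v : E m => atlasInv v) v :=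
        ((continuous_norm.pow 2).continuousAt.inv₀
          (pow_ne_zero 2 (norm_ne_zero_iff.2 hv))).smul continuousAt_id
      refine (OnePoint.continuous_coe.continuousAt.comp h1).congr ?_
      filter_upwards [isOpen_ne.mem_nhds hv] with w hw
      exact (atlasJ_coe hw).symm

theorem exists_invHomeo (m : ℕ) : ∃ J : OnePoint (E m) ≃ₜ OnePoint (E m),
    (∀ x, J (J x) = x) ∧ J ((0 : E m) : OnePoint (E m)) = OnePoint.infty ∧
      ∀ v : E m, v ≠ 0 → J (v : OnePoint (E m)) = (((‖v‖ ^ 2)⁻¹ • v : E m) : OnePoint (E m)) :=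
  ⟨⟨atlasJ_invol.toPerm _, atlasJ_cont, atlasJ_cont⟩, atlasJ_invol, atlasJ_zero,
    fun _ hv => atlasJ_coe hv⟩

/-- the two parametrisations of one sphere -/
def atlasP {m : ℕ} : Bool → E m → OnePoint (E m)
  | false => fun v => v
  | true => fun v => atlasJ v

theorem atlasP_emb {m : ℕ} (a : Bool) : IsOpenEmbedding (atlasP (m := m) a) := by
  cases a
  · exact OnePoint.isOpenEmbedding_coe
  · exact (Homeomorph.mk (atlasJ_invol.toPerm _) atlasJ_cont atlasJ_cont).isOpenEmbedding.comp
      OnePoint.isOpenEmbedding_coe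

theorem atlasP_cover {m : ℕ} (x : OnePoint (E m)) : ∃ a v, atlasP a v = x := by
  induction x using OnePoint.rec with
  | infty => exact ⟨true, 0, atlasJ_zero⟩
  | coe v => exact ⟨false, v, rfl⟩

theorem atlasP_cases {m : ℕ} {a a' : Bool} {v v' : E m} (h : atlasP a' v' = atlasP a v) :
    a' = a ∨ (v ≠ 0 ∧ ∀ w : E m, w ≠ 0 → atlasP a' (atlasInv w) = atlasP a w) := by
  cases a <;> cases a'
  · exact Or.inl rfl
  · refine Or.inr ⟨?_, fun w hw => ?_⟩
    · rintro rfl
      have h1 : atlasJ (atlasJ (v' : OnePoint (E m))) = atlasJ ((0 : E m) : OnePoint (E m)) :=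
        congrArg atlasJ h
      rw [atlasJ_invol, atlasJ_zero] at h1
      exact OnePoint.coe_ne_infty _ h1
    · show atlasJ _ = _
      rw [atlasJ_coe (atlas_inv_ne hw), atlas_inv_inv hw]
      rfl
  · refine Or.inr ⟨?_, fun w hw => (atlasJ_coe hw).symm⟩
    rintro rfl
    exact OnePoint.coe_ne_infty _ (h.trans atlasJ_zero)
  · exact Or.inl rfl

variable {q : ℕ}

/-- splitting of the coordinates -/
def atlasS (q : ℕ) : E (q + 3) ≃L[ℝ] E (q + 1) × E 2 :=
  EuclideanSpace.finAddEquivProd (n := q + 1) (m := 2)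

theorem atlasS_fst (y : E (q + 3)) (i : Fin (q + 1)) : (atlasS q y).1 i = y (Fin.castAdd 2 i) := rfl

theorem atlasS_snd (y : E (q + 3)) (i : Fin 2) : (atlasS q y).2 i = y (Fin.natAdd (q + 1) i) := rfl

theorem atlas_al1 (i : Fin (q + 1)) : al q (Fin.castAdd 2 i) = 1 := if_pos i.2

theorem atlas_al2 (i : Fin 2) : al q (Fin.natAdd (q + 1) i) = 0 :=
  if_neg (not_lt.2 (Nat.le_add_right _ _))

theorem atlas_uu (y : E (q + 3)) : uu q y = ‖(atlasS q y).1‖ ^ 2 := by
  rw [EuclideanSpace.real_norm_sq_eq, uu]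
  refine (Fin.sum_univ_add (a := q + 1) (b := 2) _).trans ?_
  simp [ca, atlas_al1, atlas_al2, atlasS_fst]

theorem atlas_zz (y : E (q + 3)) : zz q y = ‖(atlasS q y).2‖ ^ 2 := by
  rw [EuclideanSpace.real_norm_sq_eq, zz]
  refine (Fin.sum_univ_add (a := q + 1) (b := 2) _).trans ?_
  simp only [cb, be, atlas_al1, atlas_al2, atlasS_snd]
  simp

theorem atlas_I1 (y : E (q + 3)) :
    atlasS q (I1 q y) = (atlasInv (atlasS q y).1, (atlasS q y).2) := by
  ext i
  · simp [atlasS_fst, I1, ca, cb, be, atlas_al1, atlasInv, atlas_uu, div_eq_inv_mul]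
  · simp [atlasS_snd, I1, ca, cb, be, atlas_al2]

theorem atlas_I2 (y : E (q + 3)) :
    atlasS q (I2 q y) = ((atlasS q y).1, atlasInv (atlasS q y).2) := by
  ext i
  · simp [atlasS_fst, I2, ca, cb, be, atlas_al1]
  · simp [atlasS_snd, I2, ca, cb, be, atlas_al2, atlasInv, atlas_zz, div_eq_inv_mul]

/-- the four parametrisations -/
def atlasPsi (q : ℕ) (a : Bool × Bool) (y : E (q + 3)) : OnePoint (E (q + 1)) × OnePoint (E 2) :=
  (atlasP a.1 (atlasS q y).1, atlasP a.2 (atlasS q y).2)

theorem atlasPsi_emb (a : Bool × Bool) : IsOpenEmbedding (atlasPsi q a) :=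
  ((atlasP_emb a.1).prodMap (atlasP_emb a.2)).comp (atlasS q).toHomeomorph.isOpenEmbedding

/-- the four charts -/
def atlasE (q : ℕ) (a : Bool × Bool) :
    OpenPartialHomeomorph (OnePoint (E (q + 1)) × OnePoint (E 2)) (E (q + 3)) :=
  ((atlasPsi_emb a).toOpenPartialHomeomorph (atlasPsi q a)).symm

theorem atlasE_source (a : Bool × Bool) : (atlasE q a).source = range (atlasPsi q a) :=
  (atlasPsi_emb a).toOpenPartialHomeomorph_target

theorem atlasE_cover (x : OnePoint (E (q + 1)) × OnePoint (E 2)) :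
    ∃ a, x ∈ (atlasE q a).source := by
  obtain ⟨a, v, hv⟩ := atlasP_cover x.1
  obtain ⟨b, w, hw⟩ := atlasP_cover x.2
  refine ⟨(a, b), ?_⟩
  rw [atlasE_source]
  exact ⟨(atlasS q).symm (v, w), by simp [atlasPsi, hv, hw]⟩

theorem atlasE_ev {a a' : Bool × Bool} {y : E (q + 3)} {g : E (q + 3) → E (q + 3)}
    (h : ∀ᶠ z in 𝓝 y, atlasPsi q a' (g z) = atlasPsi q a z) :
    atlasE q a' ∘ (atlasE q a).symm =ᶠ[𝓝 y] g := by
  filter_upwards [h] with z hz
  show atlasE q a' (atlasPsi q a z) = g z
  rw [← hz]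
  exact (atlasE q a').right_inv (mem_univ _)

theorem atlas_t2 (X : Type) [MetricSpace X] [ProperSpace X] : T2Space (OnePoint X) := by
  have : T4Space (OnePoint X) := {}
  infer_instance

theorem atlas_conn (m : ℕ) : ConnectedSpace (OnePoint (E (m + 1))) := by
  have h0 : Nontrivial (E (m + 1)) := inferInstance
  have h1 : NoncompactSpace (E (m + 1)) := NormedSpace.noncompactSpace ℝ _
  have h2 : PreconnectedSpace (E (m + 1)) := inferInstance
  exact OnePoint.instConnectedSpaceOfPreconnectedSpaceOfNoncompactSpace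

theorem exists_atlas (q : ℕ) : ∃ (M : Type) (_ : TopologicalSpace M) (_ : T2Space M)
    (_ : CompactSpace M) (_ : ConnectedSpace M) (_ : ChartedSpace (E (q + 3)) M),
    (∀ e ∈ atlas (E (q + 3)) M, e.target = univ) ∧
    ∀ e ∈ atlas (E (q + 3)) M, ∀ e' ∈ atlas (E (q + 3)) M, ∀ y, e.symm y ∈ e'.source →
      Trans q (e' ∘ e.symm) y := by
  choose c hc using atlasE_cover (q := q)
  have t1 := atlas_t2 (E (q + 1))
  have t2 := atlas_t2 (E 2)
  have n1 := atlas_conn q
  have n2 : ConnectedSpace (OnePoint (E 2)) := atlas_conn 1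
  refine ⟨OnePoint (E (q + 1)) × OnePoint (E 2), inferInstance, Prod.t2Space, inferInstance,
    instConnectedSpaceProd, ⟨range (atlasE q), fun x => atlasE q (c x), hc, fun x => mem_range_self _⟩,
    ?_, ?_⟩
  · rintro e ⟨a, rfl⟩
    rfl
  · rintro e ⟨⟨a, b⟩, rfl⟩ e' ⟨⟨a', b'⟩, rfl⟩ y hy
    rw [atlasE_source] at hy
    obtain ⟨y', hy'⟩ := hy
    have c1 : Continuous fun z => (atlasS q z).1 := (atlasS q).continuous.fst
    have c2 : Continuous fun z => (atlasS q z).2 := (atlasS q).continuous.snd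
    rcases atlasP_cases (congrArg Prod.fst hy') with h1 | ⟨h1, g1⟩ <;>
      rcases atlasP_cases (congrArg Prod.snd hy') with h2 | ⟨h2, g2⟩
    · obtain rfl : a' = a := h1
      obtain rfl : b' = b := h2
      exact Or.inl (atlasE_ev (Eventually.of_forall fun _ => rfl))
    · obtain rfl : a' = a := h1
      refine Or.inr (Or.inr (Or.inl ⟨?_, atlasE_ev ?_⟩))
      · rw [atlas_zz]
        exact pow_pos (norm_pos_iff.2 h2) 2
      · filter_upwards [c2.continuousAt.eventually_ne h2] with z hz
        rw [atlasPsi, atlas_I2, g2 _ hz]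
        rfl
    · obtain rfl : b' = b := h2
      refine Or.inr (Or.inl ⟨?_, atlasE_ev ?_⟩)
      · rw [atlas_uu]
        exact pow_pos (norm_pos_iff.2 h1) 2
      · filter_upwards [c1.continuousAt.eventually_ne h1] with z hz
        rw [atlasPsi, atlas_I1, g1 _ hz]
        rfl
    · refine Or.inr (Or.inr (Or.inr ⟨?_, ?_, atlasE_ev ?_⟩))
      · rw [atlas_uu]
        exact pow_pos (norm_pos_iff.2 h1) 2
      · rw [atlas_zz]
        exact pow_pos (norm_pos_iff.2 h2) 2
      · filter_upwards [c1.continuousAt.eventually_ne h1, c2.continuousAt.eventually_ne h2]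
          with z hz1 hz2
        rw [atlasPsi, Function.comp_apply, atlas_I1, atlas_I2, g1 _ hz1, g2 _ hz2]
        rfl

end Vale.Agent.P244A
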