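import Vale.Agent.P244A.Defs

/-! Elementary facts on the block coordinates. -/

open Set Filter Topology
open scoped ContDiff

noncomputable section

namespace Vale.Agent.P244A

open Vale.Agent.P244

variable {q : ℕ}

theorem al_cases (i : Fin (q + 3)) :
    (al q i = 1 ∧ be q i = 0) ∨ (al q i = 0 ∧ be q i = 1) := by
  unfold be al
  split_ifs <;> simp

theorem al_mul_al (i : Fin (q + 3)) : al q i * al q i = al q i := by
  rcases al_cases i with h | h <;> simp [h.1]
theorem be_mul_be (i : Fin (q + 3)) : be q i * be q i = be q i := by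
  rcases al_cases i with h | h <;> simp [h.2]
theorem al_mul_be (i : Fin (q + 3)) : al q i * be q i = 0 := by
  rcases al_cases i with h | h <;> simp [h.1, h.2]
theorem al_mul_ca (y : E (q + 3)) (i : Fin (q + 3)) : al q i * ca q y i = ca q y i := by
  rw [ca, ← mul_assoc, al_mul_al]
theorem be_mul_ca (y : E (q + 3)) (i : Fin (q + 3)) : be q i * ca q y i = 0 := by
  rw [ca, ← mul_assoc, mul_comm (be q i), al_mul_be, zero_mul]
theorem al_mul_cb (y : E (q + 3)) (i : Fin (q + 3)) : al q i * cb q y i = 0 := by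
  rw [cb, ← mul_assoc, al_mul_be, zero_mul]
theorem be_mul_cb (y : E (q + 3)) (i : Fin (q + 3)) : be q i * cb q y i = cb q y i := by
  rw [cb, ← mul_assoc, be_mul_be]
theorem ca_mul_cb (y : E (q + 3)) (i : Fin (q + 3)) : ca q y i * cb q y i = 0 := by
  rcases al_cases i with h | h <;> simp [ca, cb, h.1, h.2]
theorem ca_add_cb (y : E (q + 3)) (i : Fin (q + 3)) : ca q y i + cb q y i = y i := by
  rw [ca, cb, be]; ring

theorem sum_al : ∑ i, al q i = (q : ℝ) + 1 := by
  have h : ∀ i : Fin (q + 1), al q i.castSucc.castSucc = 1 := fun i => by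
    have := i.2
    simp [al]; omega
  rw [Fin.sum_univ_castSucc, Fin.sum_univ_castSucc]
  simp only [h]
  simp [al]
theorem sum_be : ∑ i, be q i = 2 := by
  simp only [be, Finset.sum_sub_distrib, sum_al]
  simp
  ring

theorem uu_nonneg (y : E (q + 3)) : 0 ≤ uu q y := Finset.sum_nonneg fun _ _ => sq_nonneg _
theorem zz_nonneg (y : E (q + 3)) : 0 ≤ zz q y := Finset.sum_nonneg fun _ _ => sq_nonneg _
theorem lam_pos {z : ℝ} (hz : 0 ≤ z) : 0 < lam z := by unfold lam; positivity

theorem de_comm {n : ℕ} (i j : Fin n) : de i j = de j i := by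
  unfold de; simp only [eq_comm]
theorem de_self {n : ℕ} (i : Fin n) : de i i = 1 := by simp [de]
theorem sum_de_left {n : ℕ} (i : Fin n) (f : Fin n → ℝ) : ∑ k, de i k * f k = f i := by
  simp [de]
theorem sum_de_right {n : ℕ} (i : Fin n) (f : Fin n → ℝ) : ∑ k, de k i * f k = f i := by
  simp [de]
theorem de_mul_congr {n : ℕ} (i j : Fin n) (f : Fin n → ℝ) : de i j * f i = de i j * f j := by
  unfold de; split_ifs with h <;> simp [*]

theorem contDiff_coord {n : ℕ} (i : Fin n) : ContDiff ℝ ∞ fun y : E n => y i :=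
  (EuclideanSpace.proj (𝕜 := ℝ) i : E n →L[ℝ] ℝ).contDiff
theorem contDiff_ca (i : Fin (q + 3)) : ContDiff ℝ ∞ fun y => ca q y i :=
  contDiff_const.mul (contDiff_coord i)
theorem contDiff_cb (i : Fin (q + 3)) : ContDiff ℝ ∞ fun y => cb q y i :=
  contDiff_const.mul (contDiff_coord i)
theorem contDiff_uu : ContDiff ℝ ∞ (uu q) :=
  ContDiff.sum fun i _ => (contDiff_ca i).pow 2
theorem contDiff_zz : ContDiff ℝ ∞ (zz q) :=
  ContDiff.sum fun i _ => (contDiff_cb i).pow 2
theorem contDiff_lam : ContDiff ℝ ∞ fun y => lam (zz q y) :=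
  contDiff_const.div ((contDiff_const.add contDiff_zz).pow 2) fun y => by
    have := zz_nonneg y
    positivity

/-! ### a calculus for `pd`: `HP k f y v` says that `f` is differentiable at `y`, `pd k f y = v` -/

def HP {n : ℕ} (k : Fin n) (f : E n → ℝ) (y : E n) (v : ℝ) : Prop :=
  DifferentiableAt ℝ f y ∧ pd k f y = v

namespace HP

variable {n : ℕ} {k : Fin n} {f g : E n → ℝ} {y : E n} {v w : ℝ}

theorem congr (h : HP k f y v) (e : v = w) : HP k f y w := e ▸ h
theorem of_ev (h : HP k f y v) (e : g =ᶠ[𝓝 y] f) : HP k g y v :=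
  ⟨h.1.congr_of_eventuallyEq e, by rw [pd, e.fderiv_eq]; exact h.2⟩
theorem const (c : ℝ) : HP k (fun _ => c) y 0 := ⟨differentiableAt_const c, by simp [pd]⟩
theorem coord (i : Fin n) : HP k (fun y => y i) y (de i k) := by
  have h := (EuclideanSpace.proj (𝕜 := ℝ) i : E n →L[ℝ] ℝ).hasFDerivAt (x := y)
  refine ⟨h.differentiableAt, ?_⟩
  have e : fderiv ℝ (fun y : E n => y i) y = _ := h.fderiv
  rw [pd, e]
  simp [de]
theorem add (hf : HP k f y v) (hg : HP k g y w) : HP k (fun x => f x + g x) y (v + w) :=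
  ⟨hf.1.add hg.1, by rw [pd, fderiv_fun_add hf.1 hg.1, ← hf.2, ← hg.2]; rfl⟩
theorem sub (hf : HP k f y v) (hg : HP k g y w) : HP k (fun x => f x - g x) y (v - w) :=
  ⟨hf.1.sub hg.1, by rw [pd, fderiv_fun_sub hf.1 hg.1, ← hf.2, ← hg.2]; rfl⟩
theorem mul (hf : HP k f y v) (hg : HP k g y w) :
    HP k (fun x => f x * g x) y (v * g y + f y * w) :=
  ⟨hf.1.mul hg.1, by
    rw [pd, fderiv_fun_mul hf.1 hg.1, ← hf.2, ← hg.2]
    simp [pd]; ring⟩
theorem const_mul (c : ℝ) (hf : HP k f y v) : HP k (fun x => c * f x) y (c * v) :=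
  ((const c).mul hf).congr (by ring)
theorem mul_const (c : ℝ) (hf : HP k f y v) : HP k (fun x => f x * c) y (v * c) :=
  (hf.mul (const c)).congr (by ring)
theorem comp {φ : ℝ → ℝ} {d : ℝ} (hφ : HasDerivAt φ d (f y)) (hf : HP k f y v) :
    HP k (fun x => φ (f x)) y (d * v) := by
  have h := hφ.comp_hasFDerivAt y hf.1.hasFDerivAt
  refine ⟨h.differentiableAt, ?_⟩
  have e : fderiv ℝ (fun x => φ (f x)) y = _ := h.fderiv
  rw [pd, e, ← hf.2]
  simp [pd]
theorem sum {ι : Type} (s : Finset ι) {F : ι → E n → ℝ} {V : ι → ℝ}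
    (h : ∀ i ∈ s, HP k (F i) y (V i)) : HP k (fun x => ∑ i ∈ s, F i x) y (∑ i ∈ s, V i) := by
  classical
  induction s using Finset.induction_on with
  | empty => simpa using const 0
  | insert a s ha ih =>
    simp only [Finset.sum_insert ha]
    exact (h a (Finset.mem_insert_self a s)).add
      (ih fun i hi => h i (Finset.mem_insert_of_mem hi))

end HP

theorem hp_ca (k i : Fin (q + 3)) (y : E (q + 3)) :
    HP k (fun x => ca q x i) y (al q i * de i k) := (HP.coord i).const_mul _
theorem hp_cb (k i : Fin (q + 3)) (y : E (q + 3)) :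
    HP k (fun x => cb q x i) y (be q i * de i k) := (HP.coord i).const_mul _
theorem hp_uu (k : Fin (q + 3)) (y : E (q + 3)) : HP k (uu q) y (2 * ca q y k) := by
  have h := HP.sum (k := k) (y := y) Finset.univ
    (fun i _ => (hp_ca k i y).mul (hp_ca k i y))
  have e : uu q = fun x => ∑ i, ca q x i * ca q x i := by
    funext x; simp only [uu, sq]
  rw [e]
  refine h.congr ?_
  rw [← sum_de_right k fun i => 2 * ca q y i]
  refine Finset.sum_congr rfl fun i _ => ?_
  linear_combination (2 * de i k) * al_mul_ca y i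
theorem hp_zz (k : Fin (q + 3)) (y : E (q + 3)) : HP k (zz q) y (2 * cb q y k) := by
  have h := HP.sum (k := k) (y := y) Finset.univ
    (fun i _ => (hp_cb k i y).mul (hp_cb k i y))
  have e : zz q = fun x => ∑ i, cb q x i * cb q x i := by
    funext x; simp only [zz, sq]
  rw [e]
  refine h.congr ?_
  rw [← sum_de_right k fun i => 2 * cb q y i]
  refine Finset.sum_congr rfl fun i _ => ?_
  linear_combination (2 * de i k) * be_mul_cb y i
theorem hasDerivAt_lam {z : ℝ} (hz : 0 ≤ z) : HasDerivAt lam (mm z * lam z) z := by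
  have h1 : (1 + z) ≠ 0 := by positivity
  have h := (hasDerivAt_const z (4 : ℝ)).div (((hasDerivAt_id z).const_add 1).pow 2)
    (pow_ne_zero 2 h1)
  refine HasDerivAt.congr_deriv (f := lam) h ?_
  simp only [mm, lam, id, Pi.pow_apply]
  field_simp
  ring
theorem hasDerivAt_mm {z : ℝ} (hz : 0 ≤ z) : HasDerivAt mm (2 / (1 + z) ^ 2) z := by
  have h1 : (1 + z) ≠ 0 := by positivity
  have h := (hasDerivAt_const z (-2 : ℝ)).div ((hasDerivAt_id z).const_add 1) h1
  refine HasDerivAt.congr_deriv (f := mm) h ?_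
  simp

end Vale.Agent.P244A
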