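import Vale.Agent.P244A.Psi

/-! The change of variable `x = xu u` and the Ricci curvature in the variable `u`.
Hints. `bridge`: with `K u = k (t, xu u)`, `φ * xu' = φ / ((1 + u) √u)`, `P = 4 φ² / (1 + u)²`:
`L.D k (t, xu u) = (1 + u) √u K' u / φ (t, xu u)` for all `u > 0` (as functions of `u`); differentiate once
more (`L.D k` is smooth on `Om T`) to get `L.D (L.D k) (t, xu u) = dd P K u`, and
`L.D k * L.D l = gr P K L u`; `1 / h² = exp (-2 G)`. -/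

open Set Filter Topology
open scoped ContDiff

noncomputable section

namespace Vale.Agent.P244A

open Vale.Agent.P244

theorem Bridge_lt {u : ℝ} (hu : 0 < u) : -1 < (1 - u) / (1 + u) ∧ (1 - u) / (1 + u) < 1 := by
  have h : 0 < 1 + u := by linarith
  rw [lt_div_iff₀ h, div_lt_one h]
  constructor <;> linarith

theorem Bridge_sq {u : ℝ} (hu : 0 ≤ u) : 1 - ((1 - u) / (1 + u)) ^ 2 = 4 * u / (1 + u) ^ 2 := by
  have h : 1 + u ≠ 0 := by linarith
  field_simp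
  ring

theorem xu_mem {u : ℝ} (hu : 0 < u) : xu u ∈ Ioo 0 Real.pi :=
  ⟨Real.arccos_pos.2 (Bridge_lt hu).2, Real.arccos_lt_pi.2 (Bridge_lt hu).1⟩
theorem xu_arg {u : ℝ} (hu : 0 ≤ u) : (1 - u) / (1 + u) ∈ Icc (-1 : ℝ) 1 := by
  have h : 0 < 1 + u := by linarith
  rw [mem_Icc, le_div_iff₀ h, div_le_one h]
  constructor <;> linarith
theorem xu_zero : xu 0 = 0 := by simp [xu]
theorem sin_sq_xu {u : ℝ} (hu : 0 ≤ u) : Real.sin (xu u) ^ 2 = 4 * u / (1 + u) ^ 2 := by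
  rw [xu, Real.sin_arccos, Bridge_sq hu, Real.sq_sqrt (by positivity)]
theorem xu_inv {u : ℝ} (hu : 0 < u) : xu u⁻¹ = Real.pi - xu u := by
  rw [xu, xu, ← Real.arccos_neg]
  refine congrArg Real.arccos ?_
  have h : 1 + u ≠ 0 := by linarith
  have h' : u + 1 ≠ 0 := by linarith
  field_simp
  ring
theorem hasDerivAt_xu {u : ℝ} (hu : 0 < u) : HasDerivAt xu (1 / ((1 + u) * √u)) u := by
  have h : 1 + u ≠ 0 := by linarith
  have h1 : HasDerivAt (fun u : ℝ => (1 - u) / (1 + u))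
      ((-1 * (1 + u) - (1 - u) * 1) / (1 + u) ^ 2) u :=
    ((hasDerivAt_id' u).const_sub 1).div ((hasDerivAt_id' u).const_add 1) h
  have h2 := (Real.hasDerivAt_arccos (Bridge_lt hu).1.ne' (Bridge_lt hu).2.ne).comp u h1
  have hs : 0 < √u := Real.sqrt_pos.2 hu
  have e : √(1 - ((1 - u) / (1 + u)) ^ 2) = 2 * √u / (1 + u) := by
    rw [Bridge_sq hu.le, Real.sqrt_eq_iff_mul_self_eq (by positivity) (by positivity)]
    have := Real.mul_self_sqrt hu.le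
    field_simp
    nlinarith
  rw [e] at h2
  refine h2.congr_deriv ?_
  field_simp
  ring
theorem contDiffAt_xu {u : ℝ} (hu : 0 < u) : ContDiffAt ℝ ∞ xu u := by
  have h : 1 + u ≠ 0 := by linarith
  have h1 : ContDiffAt ℝ ∞ (fun u : ℝ => (1 - u) / (1 + u)) u :=
    (contDiffAt_const.sub contDiffAt_id).div (contDiffAt_const.add contDiffAt_id) h
  exact (Real.contDiffAt_arccos (Bridge_lt hu).1.ne' (Bridge_lt hu).2.ne).comp u h1
theorem xu_surj {x : ℝ} (h0 : 0 < x) (h1 : x ≤ Real.pi / 2) : ∃ u, 0 < u ∧ u ≤ 1 ∧ xu u = x := by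
  have hp := Real.pi_pos
  have c0 : 0 ≤ Real.cos x := Real.cos_nonneg_of_mem_Icc ⟨by linarith, h1⟩
  have c1 : Real.cos x < 1 := by
    rw [← Real.cos_zero]
    exact Real.cos_lt_cos_of_nonneg_of_le_pi le_rfl (by linarith) h0
  have h : 0 < 1 + Real.cos x := by linarith
  refine ⟨(1 - Real.cos x) / (1 + Real.cos x), div_pos (by linarith) h,
    (div_le_one h).2 (by linarith), ?_⟩
  have e : (1 - (1 - Real.cos x) / (1 + Real.cos x)) / (1 + (1 - Real.cos x) / (1 + Real.cos x))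
      = Real.cos x := by
    field_simp
    ring
  rw [xu, e, Real.arccos_cos h0.le (by linarith)]

variable {q : ℕ} {T : ℝ} {L : Lg}

theorem Bridge_slice {f : ℝ × ℝ → ℝ} (hf : ContDiffOn ℝ ∞ f (Ioo 0 T ×ˢ univ)) {t : ℝ}
    (ht : t ∈ Ioo 0 T) (x : ℝ) : ContDiffAt ℝ ∞ (fun x => f (t, x)) x :=
  (hf.contDiffAt ((isOpen_Ioo.prod isOpen_univ).mem_nhds ⟨ht, mem_univ x⟩)).comp x
    (contDiffAt_const.prodMk contDiffAt_id)

theorem Bridge_G (hL : IsLag q T L) {t : ℝ} (ht : t ∈ Ioo 0 T) {x : ℝ} (hx : x ∈ Ioo 0 Real.pi) :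
    ContDiffAt ℝ ∞ (fun x => L.G (t, x)) x :=
  (Bridge_slice hL.smh ht x).log (hL.posh (t, x) ⟨ht, hx⟩).ne'

theorem IsLag.smPu (hL : IsLag q T L) {t : ℝ} (ht : t ∈ Ioo 0 T) :
    ContDiffOn ℝ ∞ (L.Pu t) (Ioi 0) := fun u hu => by
  have hu' : 0 < u := hu
  have h : (1 + u) ^ 2 ≠ 0 := by positivity
  exact ((contDiffAt_const.mul (((Bridge_slice hL.smφ ht _).comp u (contDiffAt_xu hu')).pow 2)).div
    ((contDiffAt_const.add contDiffAt_id).pow 2) h).contDiffWithinAt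
theorem IsLag.smfu (hL : IsLag q T L) {t : ℝ} (ht : t ∈ Ioo 0 T) :
    ContDiffOn ℝ ∞ (L.fu t) (Ioi 0) := fun u hu =>
  ((Bridge_slice hL.smF ht _).comp u (contDiffAt_xu hu)).contDiffWithinAt
theorem IsLag.smgu (hL : IsLag q T L) {t : ℝ} (ht : t ∈ Ioo 0 T) :
    ContDiffOn ℝ ∞ (L.gu t) (Ioi 0) := fun u hu =>
  ((Bridge_G hL ht (xu_mem hu)).comp u (contDiffAt_xu hu)).contDiffWithinAt
theorem IsLag.posPu (hL : IsLag q T L) {t : ℝ} (ht : t ∈ Ioo 0 T) {u : ℝ} (hu : 0 ≤ u) :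
    0 < L.Pu t u := by
  have := hL.posφ t ht (xu u)
  unfold Lg.Pu
  positivity

theorem Bridge_one {k : ℝ → ℝ} {u : ℝ} (hu : 0 < u) (hk : DifferentiableAt ℝ k (xu u)) :
    deriv k (xu u) = (1 + u) * √u * deriv (fun v => k (xu v)) u := by
  have h : deriv (fun v => k (xu v)) u = _ := (hk.hasDerivAt.comp u (hasDerivAt_xu hu)).deriv
  have hs : 0 < √u := Real.sqrt_pos.2 hu
  rw [h]
  field_simp

theorem Bridge_gr {φ k l : ℝ → ℝ} {u : ℝ} (hu : 0 < u) (hφ : 0 < φ (xu u))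
    (hk : DifferentiableAt ℝ k (xu u)) (hl : DifferentiableAt ℝ l (xu u)) :
    deriv k (xu u) / φ (xu u) * (deriv l (xu u) / φ (xu u)) =
      gr (fun v => 4 * φ (xu v) ^ 2 / (1 + v) ^ 2) (fun v => k (xu v)) (fun v => l (xu v)) u := by
  rw [Bridge_one hu hk, Bridge_one hu hl, gr]
  obtain ⟨s, hs, rfl⟩ : ∃ s : ℝ, 0 < s ∧ u = s ^ 2 :=
    ⟨√u, Real.sqrt_pos.2 hu, (Real.sq_sqrt hu.le).symm⟩
  rw [Real.sqrt_sq hs.le]
  field_simp

theorem Bridge_dd {φ k : ℝ → ℝ} {u : ℝ} (hu : 0 < u) (hφ : 0 < φ (xu u))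
    (sφ : ContDiffAt ℝ ∞ φ (xu u)) (sk : ∀ x ∈ Ioo 0 Real.pi, ContDiffAt ℝ ∞ k x) :
    deriv (fun x => deriv k x / φ x) (xu u) / φ (xu u) =
      dd (fun v => 4 * φ (xu v) ^ 2 / (1 + v) ^ 2) (fun v => k (xu v)) u := by
  have dφ : DifferentiableAt ℝ φ (xu u) := sφ.differentiableAt (by simp)
  have dk : DifferentiableAt ℝ (deriv k) (xu u) :=
    ((sk _ (xu_mem hu)).derivWithin (m := ∞) le_rfl).differentiableAt (by simp)
  have dK : DifferentiableAt ℝ (deriv fun v => k (xu v)) u :=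
    (((sk _ (xu_mem hu)).comp u (contDiffAt_xu hu)).derivWithin (m := ∞)
      le_rfl).differentiableAt (by simp)
  have dΦ : HasDerivAt (fun v => φ (xu v)) (deriv (fun v => φ (xu v)) u) u :=
    (dφ.comp u (hasDerivAt_xu hu).differentiableAt).hasDerivAt
  have e1 : (fun v => deriv k (xu v) / φ (xu v)) =ᶠ[𝓝 u]
      fun v => (1 + v) * √v * deriv (fun v => k (xu v)) v / φ (xu v) := by
    filter_upwards [Ioi_mem_nhds hu] with v hv
    rw [Bridge_one hv ((sk _ (xu_mem hv)).differentiableAt (by simp))]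
  have h1 : 1 + u ≠ 0 := by linarith
  have d1 := ((((hasDerivAt_id' u).const_add 1).mul (Real.hasDerivAt_sqrt hu.ne')).mul
    dK.hasDerivAt).div dΦ hφ.ne'
  have d2 := ((dΦ.pow 2).const_mul 4).div (((hasDerivAt_id' u).const_add 1).pow 2)
    (pow_ne_zero 2 h1)
  have e2 : deriv (fun v => (1 + v) * √v * deriv (fun v => k (xu v)) v / φ (xu v)) u = _ :=
    d1.deriv
  have e3 : deriv (fun v => 4 * φ (xu v) ^ 2 / (1 + v) ^ 2) u = _ := d2.deriv
  rw [Bridge_one hu (k := fun x => deriv k x / φ x) (dk.div dφ hφ.ne'), e1.deriv_eq, e2, dd, e3]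
  simp only [Pi.mul_apply, Pi.pow_apply]
  generalize deriv (fun v => k (xu v)) = K
  generalize deriv (fun v => φ (xu v)) u = b
  generalize φ (xu u) = a at hφ
  generalize deriv K u = c
  generalize K u = d
  obtain ⟨s, hs, rfl⟩ : ∃ s : ℝ, 0 < s ∧ u = s ^ 2 :=
    ⟨√u, Real.sqrt_pos.2 hu, (Real.sq_sqrt hu.le).symm⟩
  rw [Real.sqrt_sq hs.le]
  field_simp
  ring

theorem bridge (hL : IsLag q T L) {t : ℝ} (ht : t ∈ Ioo 0 T) {u : ℝ} (hu : 0 < u) :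
    L.ρ0 q (t, xu u) = r0 q (L.Pu t) (L.fu t) (L.gu t) u ∧
    L.ρ1 q (t, xu u) = r1 q (L.Pu t) (L.fu t) (L.gu t) u ∧
    L.ρ2 q (t, xu u) = r2 q (L.Pu t) (L.fu t) (L.gu t) u := by
  have hφ := hL.posφ t ht (xu u)
  have sφ := Bridge_slice hL.smφ ht (xu u)
  have dF : DifferentiableAt ℝ (fun x => L.F (t, x)) (xu u) :=
    (Bridge_slice hL.smF ht (xu u)).differentiableAt (by simp)
  have dG : DifferentiableAt ℝ (fun x => L.G (t, x)) (xu u) :=
    (Bridge_G hL ht (xu_mem hu)).differentiableAt (by simp)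
  have a1 : L.D L.X (t, xu u) = dd (L.Pu t) (L.fu t) u :=
    Bridge_dd (φ := fun x => L.φ (t, x)) hu hφ sφ fun x _ => Bridge_slice hL.smF ht x
  have a2 : L.D L.Y (t, xu u) = dd (L.Pu t) (L.gu t) u :=
    Bridge_dd (φ := fun x => L.φ (t, x)) hu hφ sφ fun x hx => Bridge_G hL ht hx
  have b1 : L.X (t, xu u) * L.X (t, xu u) = gr (L.Pu t) (L.fu t) (L.fu t) u :=
    Bridge_gr (φ := fun x => L.φ (t, x)) hu hφ dF dF
  have b2 : L.Y (t, xu u) * L.X (t, xu u) = gr (L.Pu t) (L.gu t) (L.fu t) u :=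
    Bridge_gr (φ := fun x => L.φ (t, x)) hu hφ dG dF
  have b3 : L.X (t, xu u) * L.Y (t, xu u) = gr (L.Pu t) (L.fu t) (L.gu t) u :=
    Bridge_gr (φ := fun x => L.φ (t, x)) hu hφ dF dG
  have b4 : L.Y (t, xu u) * L.Y (t, xu u) = gr (L.Pu t) (L.gu t) (L.gu t) u :=
    Bridge_gr (φ := fun x => L.φ (t, x)) hu hφ dG dG
  have hh := hL.posh (t, xu u) ⟨ht, xu_mem hu⟩
  have c : Real.exp (-2 * L.gu t u) = (L.h (t, xu u) ^ 2)⁻¹ := by
    have e : -2 * L.gu t u = -((2 : ℕ) * Real.log (L.h (t, xu u))) := by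
      simp only [Lg.gu, Lg.G]
      push_cast
      ring
    rw [e, Real.exp_neg, Real.exp_nat_mul, Real.exp_log hh]
  have l1 : L.lap q L.F (t, xu u) = L.D L.X (t, xu u)
      + (2 * L.X (t, xu u) + q * L.Y (t, xu u)) * L.X (t, xu u) := rfl
  have l2 : L.lap q L.G (t, xu u) = L.D L.Y (t, xu u)
      + (2 * L.X (t, xu u) + q * L.Y (t, xu u)) * L.Y (t, xu u) := rfl
  refine ⟨?_, ?_, ?_⟩
  · rw [Lg.ρ0, r0, a1, a2, ← b1, ← b4]
    ring
  · rw [Lg.ρ1, r1, l1, a1, ← b1, ← b2]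
    simp only [Lg.fu]
    ring
  · rw [Lg.ρ2, r2, l2, a2, ← b3, ← b4, c]
    ring

end Vale.Agent.P244A
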