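import Vale.Agent.P244A.Basic

/-! Inverse, positivity and Christoffel symbols of `Gm`.
Hints. `inv_Gm`: `Matrix.inv_eq_right_inv`.  `posDef_Gm`: `x G x = A ∑ (al x)² + C λ ∑ (be x)² + B (ca · x)²` and
Cauchy-Schwarz ` (ca · x)² ≤ u ∑ (al x)²` when `B < 0`.  `chris_Gm`: `HP` calculus of `Basic.lean`;
`Γ_(l,ij) = de j l * W j i + de i l * W i j - de i j * W i l + B' ca i ca j ca l + B * al i * de i j * ca l` with
`W k i = al k * A' * ca i + be k * (C' λ ca i + C (mm λ) cb i)`. -/

open Set Filter Topology
open scoped ContDiff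

noncomputable section

namespace Vale.Agent.P244A

open Vale.Agent.P244

variable {q : ℕ} {A B C : ℝ → ℝ} {y : E (q + 3)}

theorem Chris_sum_ca (y : E (q + 3)) : ∑ k, ca q y k * ca q y k = uu q y := by
  simp only [uu, sq]

theorem inv_Gm (hA : 0 < A (uu q y)) (hP : 0 < A (uu q y) + B (uu q y) * uu q y)
    (hC : 0 < C (uu q y)) (k l : Fin (q + 3)) :
    (Gm q A B C y)⁻¹ k l = de k l * (al q k / A (uu q y) + be q k / (C (uu q y) * lam (zz q y)))
      - B (uu q y) / (A (uu q y) * (A (uu q y) + B (uu q y) * uu q y)) * (ca q y k * ca q y l) := by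
  have hl : 0 < lam (zz q y) := lam_pos (zz_nonneg y)
  have key : Gm q A B C y * (Matrix.of fun k l =>
      de k l * (al q k / A (uu q y) + be q k / (C (uu q y) * lam (zz q y)))
      - B (uu q y) / (A (uu q y) * (A (uu q y) + B (uu q y) * uu q y)) * (ca q y k * ca q y l))
      = 1 := by
    ext i l
    rw [Matrix.mul_apply]
    simp only [Gm, Matrix.of_apply]
    have hs := Chris_sum_ca y
    generalize A (uu q y) = a at *
    generalize B (uu q y) = b at *
    generalize C (uu q y) = c at *
    generalize lam (zz q y) = m at *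
    generalize uu q y = u at *
    have e : ∀ k, (de i k * (a * al q i + c * m * be q i) + b * (ca q y i * ca q y k)) *
        (de k l * (al q k / a + be q k / (c * m)) - b / (a * (a + b * u)) * (ca q y k * ca q y l))
        = de i k * ((a * al q i + c * m * be q i) *
          (de k l * (al q k / a + be q k / (c * m)) - b / (a * (a + b * u)) * (ca q y k * ca q y l)))
          + de k l * (b * (ca q y i * ca q y k) * (al q k / a + be q k / (c * m)))
          - (b * ca q y i * (b / (a * (a + b * u))) * ca q y l) * (ca q y k * ca q y k) := by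
      intro k; ring
    simp only [e]
    rw [Finset.sum_sub_distrib, Finset.sum_add_distrib, sum_de_left, sum_de_right,
      ← Finset.mul_sum, hs]
    have h1 : (1 : Matrix (Fin (q + 3)) (Fin (q + 3)) ℝ) i l = de i l := by
      simp [de, Matrix.one_apply]
    rw [h1]
    have h2 : (a * al q i + c * m * be q i) * (al q i / a + be q i / (c * m)) = 1 := by
      rcases al_cases i with h | h <;> rw [h.1, h.2] <;> field_simp <;> ring
    have h3 : (a * al q i + c * m * be q i) * ca q y i = a * ca q y i := by
      linear_combination a * al_mul_ca y i + c * m * be_mul_ca y i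
    have h4 : ca q y l * (al q l / a + be q l / (c * m)) = ca q y l / a := by
      linear_combination (1 / a) * al_mul_ca y l + (1 / (c * m)) * be_mul_ca y l
    have h5 : b / a - b / (a * (a + b * u)) * (a + b * u) = 0 := by
      field_simp
      ring
    linear_combination de i l * h2 - b / (a * (a + b * u)) * ca q y l * h3
      + b * ca q y i * h4 + ca q y i * ca q y l * h5
  rw [Matrix.inv_eq_right_inv key, Matrix.of_apply]

theorem posDef_Gm (hA : 0 < A (uu q y)) (hP : 0 < A (uu q y) + B (uu q y) * uu q y)
    (hC : 0 < C (uu q y)) : (Gm q A B C y).PosDef := by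
  have hl : 0 < lam (zz q y) := lam_pos (zz_nonneg y)
  refine Matrix.PosDef.of_dotProduct_mulVec_pos ?_ fun x hx => ?_
  · ext i j
    simp only [Matrix.conjTranspose_apply, Gm, Matrix.of_apply, star_trivial]
    have h := de_mul_congr i j fun m => A (uu q y) * al q m + C (uu q y) * lam (zz q y) * be q m
    rw [de_comm j i]
    linear_combination -h
  · have hu := uu_nonneg y
    have hcs : (∑ i, ca q y i * x i) ^ 2 ≤ uu q y * ∑ i, (al q i * x i) ^ 2 := by
      have h := Finset.sum_mul_sq_le_sq_mul_sq Finset.univ (fun i => ca q y i)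
        (fun i => al q i * x i)
      have e : ∑ i, ca q y i * x i = ∑ i, ca q y i * (al q i * x i) :=
        Finset.sum_congr rfl fun i _ => by linear_combination (-x i) * al_mul_ca y i
      rw [e]
      exact h
    have e : star x ⬝ᵥ (Gm q A B C y).mulVec x = A (uu q y) * ∑ i, (al q i * x i) ^ 2
        + C (uu q y) * lam (zz q y) * ∑ i, (be q i * x i) ^ 2
        + B (uu q y) * (∑ i, ca q y i * x i) ^ 2 := by
      simp only [star_trivial, dotProduct, Matrix.mulVec, Gm, Matrix.of_apply]
      have e1 : ∀ i, ∑ j, (de i j * (A (uu q y) * al q i + C (uu q y) * lam (zz q y) * be q i)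
          + B (uu q y) * (ca q y i * ca q y j)) * x j
          = (A (uu q y) * al q i + C (uu q y) * lam (zz q y) * be q i) * x i
            + B (uu q y) * ca q y i * ∑ j, ca q y j * x j := by
        intro i
        rw [← sum_de_left i fun j =>
          (A (uu q y) * al q i + C (uu q y) * lam (zz q y) * be q i) * x j, Finset.mul_sum,
          ← Finset.sum_add_distrib]
        exact Finset.sum_congr rfl fun j _ => by ring
      simp only [e1]
      have e2 : B (uu q y) * (∑ i, ca q y i * x i) ^ 2
          = ∑ i, B (uu q y) * (ca q y i * x i) * ∑ j, ca q y j * x j := by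
        rw [← Finset.sum_mul, ← Finset.mul_sum]; ring
      rw [e2, Finset.mul_sum, Finset.mul_sum, ← Finset.sum_add_distrib, ← Finset.sum_add_distrib]
      refine Finset.sum_congr rfl fun i _ => ?_
      linear_combination (-A (uu q y) * x i ^ 2) * al_mul_al i
        - (C (uu q y) * lam (zz q y) * x i ^ 2) * be_mul_be i
    rw [e]
    have hS : 0 ≤ ∑ i, (al q i * x i) ^ 2 := Finset.sum_nonneg fun _ _ => sq_nonneg _
    have hT : 0 ≤ ∑ i, (be q i * x i) ^ 2 := Finset.sum_nonneg fun _ _ => sq_nonneg _
    have hST : 0 < ∑ i, (al q i * x i) ^ 2 + ∑ i, (be q i * x i) ^ 2 := by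
      rw [← Finset.sum_add_distrib]
      obtain ⟨i, hi⟩ := Function.ne_iff.mp hx
      refine Finset.sum_pos' (fun _ _ => by positivity) ⟨i, Finset.mem_univ _, ?_⟩
      have hi' : x i ≠ 0 := hi
      rcases al_cases i with h | h <;> rw [h.1, h.2] <;> simp <;> positivity
    have hCl : 0 < C (uu q y) * lam (zz q y) := mul_pos hC hl
    generalize ∑ i, (al q i * x i) ^ 2 = S at *
    generalize ∑ i, (be q i * x i) ^ 2 = T at *
    generalize C (uu q y) * lam (zz q y) = c at *
    have hR : 0 ≤ (∑ i, ca q y i * x i) ^ 2 := sq_nonneg _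
    generalize (∑ i, ca q y i * x i) ^ 2 = R at *
    generalize A (uu q y) = a at *
    generalize B (uu q y) = b at *
    generalize uu q y = u at *
    have h1 : min a (a + b * u) * S ≤ a * S + b * R := by
      rcases le_total 0 b with hb | hb
      · have := mul_le_mul_of_nonneg_right (min_le_left a (a + b * u)) hS
        nlinarith [mul_nonneg hb hR]
      · have := mul_le_mul_of_nonneg_right (min_le_right a (a + b * u)) hS
        nlinarith [mul_le_mul_of_nonpos_left hcs hb]
    have hm : 0 < min a (a + b * u) := lt_min hA hP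
    rcases hS.eq_or_lt with h0 | h0
    · have hT' : 0 < T := by linarith
      nlinarith [mul_pos hCl hT', mul_nonneg hm.le hS]
    · nlinarith [mul_pos hm h0, mul_nonneg hCl.le hT]

/-- half of the derivative of the diagonal part of `Gm` -/
def ChrisW (q : ℕ) (A' C0 C' : ℝ) (y : E (q + 3)) (k i : Fin (q + 3)) : ℝ :=
  al q k * A' * ca q y i
    + be q k * (C' * lam (zz q y) * ca q y i + C0 * (mm (zz q y) * lam (zz q y)) * cb q y i)

theorem Chris_pd {A' B' C' : ℝ} (dA : HasDerivAt A A' (uu q y))
    (dB : HasDerivAt B B' (uu q y)) (dC : HasDerivAt C C' (uu q y)) (l i j : Fin (q + 3)) :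
    pd l (fun w => Gm q A B C w i j) y = 2 * de i j * ChrisW q A' (C (uu q y)) C' y i l
      + 2 * B' * ca q y l * ca q y i * ca q y j
      + B (uu q y) * (al q i * de i l * ca q y j + ca q y i * (al q j * de j l)) := by
  have hA := HP.comp dA (hp_uu l y)
  have hB := HP.comp dB (hp_uu l y)
  have hC := HP.comp dC (hp_uu l y)
  have hl := HP.comp (hasDerivAt_lam (zz_nonneg y)) (hp_zz l y)
  have h := (((hA.mul_const (al q i)).add ((hC.mul hl).mul_const (be q i))).const_mul
    (de i j)).add (hB.mul ((hp_ca l i y).mul (hp_ca l j y)))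
  refine (h.congr ?_).2
  unfold ChrisW
  ring

theorem chris_Gm {A' B' C' : ℝ} {p c s t r : ℝ → ℝ} (dA : HasDerivAt A A' (uu q y))
    (dB : HasDerivAt B B' (uu q y)) (dC : HasDerivAt C C' (uu q y))
    (hA : 0 < A (uu q y)) (hP : 0 < A (uu q y) + B (uu q y) * uu q y) (hC : 0 < C (uu q y))
    (hp : p (uu q y) = A' / A (uu q y)) (hc : c (uu q y) = C' / C (uu q y))
    (hs : s (uu q y) = (A (uu q y) * B' - 2 * A' * B (uu q y)) /
      (A (uu q y) * (A (uu q y) + B (uu q y) * uu q y)))
    (ht : t (uu q y) = (B (uu q y) - A') / (A (uu q y) + B (uu q y) * uu q y))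
    (hr : r (uu q y) = C' / (A (uu q y) + B (uu q y) * uu q y)) (k i j : Fin (q + 3)) :
    chris (Gm q A B C) k i j y = Gam q p c s t r k i j y := by
  have hl : 0 < lam (zz q y) := lam_pos (zz_nonneg y)
  obtain ⟨W, hW⟩ : ∃ W, W = ChrisW q A' (C (uu q y)) C' y := ⟨_, rfl⟩
  obtain ⟨Γ, hΓ⟩ : ∃ Γ : Fin (q + 3) → ℝ, Γ = fun l => de j l * W l i + de i l * W l j
      - de i j * W i l + B' * ca q y i * ca q y j * ca q y l
      + B (uu q y) * al q i * de i j * ca q y l := ⟨_, rfl⟩
  have h1 : ∀ l, pd i (fun w => Gm q A B C w j l) y + pd j (fun w => Gm q A B C w i l) y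
      - pd l (fun w => Gm q A B C w i j) y = 2 * Γ l := by
    intro l
    rw [Chris_pd dA dB dC, Chris_pd dA dB dC, Chris_pd dA dB dC, ← hW, hΓ]
    have e1 := de_mul_congr j l fun m => W m i
    have e2 := de_mul_congr i l fun m => W m j
    have e3 := de_mul_congr i j (al q)
    have e4 := de_mul_congr i l (al q)
    have e5 := de_mul_congr j l (al q)
    simp only [de_comm j i, de_comm l i, de_comm l j]
    linear_combination 2 * e1 + 2 * e2 - B (uu q y) * ca q y l * e3
      - B (uu q y) * ca q y j * e4 - B (uu q y) * ca q y i * e5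
  have h2 : ∑ l, ca q y l * Γ l = 2 * A' * ca q y i * ca q y j
      + (B' * ca q y i * ca q y j + B (uu q y) * al q i * de i j
        - de i j * (al q i * A' + be q i * C' * lam (zz q y))) * uu q y := by
    have e : ∀ l, ca q y l * Γ l = de j l * (A' * ca q y l * ca q y i)
        + de i l * (A' * ca q y l * ca q y j)
        + (B' * ca q y i * ca q y j + B (uu q y) * al q i * de i j
        - de i j * (al q i * A' + be q i * C' * lam (zz q y))) * (ca q y l * ca q y l) := by
      intro l
      rw [hΓ, hW]
      simp only [ChrisW]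
      linear_combination (de j l * A' * ca q y i + de i l * A' * ca q y j) * al_mul_ca y l
        + (de j l * (C' * lam (zz q y) * ca q y i
            + C (uu q y) * (mm (zz q y) * lam (zz q y)) * cb q y i)
          + de i l * (C' * lam (zz q y) * ca q y j
            + C (uu q y) * (mm (zz q y) * lam (zz q y)) * cb q y j)) * be_mul_ca y l
        - de i j * be q i * (C (uu q y) * (mm (zz q y) * lam (zz q y))) * ca_mul_cb y l
    simp only [e]
    rw [Finset.sum_add_distrib, Finset.sum_add_distrib, sum_de_left, sum_de_left,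
      ← Finset.mul_sum, Chris_sum_ca]
    ring
  have h3 : chris (Gm q A B C) k i j y
      = (al q k / A (uu q y) + be q k / (C (uu q y) * lam (zz q y))) * Γ k
        - B (uu q y) / (A (uu q y) * (A (uu q y) + B (uu q y) * uu q y)) * ca q y k
          * ∑ l, ca q y l * Γ l := by
    unfold chris
    simp only [h1, inv_Gm hA hP hC]
    rw [← sum_de_left k fun l =>
      (al q k / A (uu q y) + be q k / (C (uu q y) * lam (zz q y))) * Γ l, Finset.mul_sum,
      Finset.mul_sum, ← Finset.sum_sub_distrib]
    exact Finset.sum_congr rfl fun l _ => by ring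
  rw [h3, h2, hΓ, hW]
  simp only [ChrisW, Gam, hp, hc, hs, ht, hr]
  rcases al_cases k with h | h
  · have h0 : cb q y k = 0 := by rw [cb, h.2, zero_mul]
    rw [h.1, h.2, h0]
    field_simp
    ring
  · have h0 : ca q y k = 0 := by rw [ca, h.1, zero_mul]
    rw [h.1, h.2, h0]
    field_simp
    ring

end Vale.Agent.P244A
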