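import Vale.Agent.P244A.Whitney
import Vale.Agent.P244A.Bridge

/-! The coefficients of the metric in the stereographic chart.
Hints. `h = sin x * η` (`div_sin`; `h` vanishes at all zeros of the sine: it is odd and `h (π - x) = h x`, so
`h (x + π) = -h x`), `η` is even with `η (π - x) = η x` (`sin_cancel`), `η (t, 0) = dx h (t, 0) = φ (t, 0) > 0`.
`δ = φ² - η²` is even, `π`-periodic and vanishes at `0`; `δ = sin * δ₁`, `δ₁` is odd and `δ₁ (x + π) = -δ₁ x`, so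
`δ₁ = sin * μ`, `μ` even and periodic.  `A = 4 η² / (1 + u)²`, `B = 16 μ / (1 + u)⁴`, `C = exp (2 F) / (q - 1)` at
`x = xu u`; smooth by `whitney_cos` composed with ` (t, u) ↦ (t, (1 - u) / (1 + u))`. -/

open Set Filter Topology
open scoped ContDiff

noncomputable section

namespace Vale.Agent.P244A

open Vale.Agent.P244

namespace CoefAux

theorem slice {U : Set ℝ} {v : ℝ × ℝ → ℝ} (hv : ContDiffOn ℝ ∞ v (U ×ˢ univ)) {z : ℝ}
    (hz : z ∈ U) : ContDiff ℝ ∞ fun x => v (z, x) :=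
  hv.comp_contDiff (contDiff_const.prodMk contDiff_id) fun _ => ⟨hz, mem_univ _⟩

theorem zero_of_shift {g : ℝ → ℝ} (hs : ∀ x, g (x + Real.pi) ^ 2 = g x ^ 2) (h0 : g 0 = 0)
    {x : ℝ} (hx : Real.sin x = 0) : g x = 0 := by
  obtain ⟨n, rfl⟩ := Real.sin_eq_zero_iff.1 hx
  have hp : Function.Periodic (fun x => g x ^ 2) Real.pi := hs
  have h := hp.int_mul_eq n
  simp only [h0] at h
  simpa using h

theorem div_odd {U : Set ℝ} (hU : IsOpen U) {u : ℝ × ℝ → ℝ}
    (hu : ContDiffOn ℝ ∞ u (U ×ˢ univ)) (ho : ∀ z ∈ U, ∀ x, u (z, -x) = -u (z, x))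
    (hp : ∀ z ∈ U, ∀ x, u (z, x + Real.pi) = -u (z, x)) :
    ∃ v : ℝ × ℝ → ℝ, ContDiffOn ℝ ∞ v (U ×ˢ univ) ∧
      (∀ z ∈ U, ∀ x, u (z, x) = Real.sin x * v (z, x)) ∧
      (∀ z ∈ U, ∀ x, v (z, -x) = v (z, x)) ∧ ∀ z ∈ U, ∀ x, v (z, x + Real.pi) = v (z, x) := by
  obtain ⟨v, hv, huv⟩ := div_sin hU hu fun z hz x hx =>
    zero_of_shift (g := fun x => u (z, x)) (fun y => by simp only [hp z hz y]; ring)
      (by have := ho z hz 0; simp only [neg_zero] at this; linarith) hx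
  refine ⟨v, hv, huv, fun z hz x => ?_, fun z hz x => ?_⟩
  · have hc := (slice hv hz).continuous
    refine sub_eq_zero.1 (sin_cancel (f := fun x => v (z, -x) - v (z, x))
      ((hc.comp continuous_neg).sub hc) (fun y => ?_) x)
    have h1 := huv z hz (-y)
    have h2 := huv z hz y
    rw [ho z hz y, Real.sin_neg] at h1
    linarith
  · have hc := (slice hv hz).continuous
    refine sub_eq_zero.1 (sin_cancel (f := fun x => v (z, x + Real.pi) - v (z, x))
      ((hc.comp (continuous_id.add continuous_const)).sub hc) (fun y => ?_) x)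
    have h1 := huv z hz (y + Real.pi)
    have h2 := huv z hz y
    rw [hp z hz y, Real.sin_add_pi] at h1
    linarith

theorem div_even {U : Set ℝ} (hU : IsOpen U) {u : ℝ × ℝ → ℝ}
    (hu : ContDiffOn ℝ ∞ u (U ×ˢ univ)) (he : ∀ z ∈ U, ∀ x, u (z, -x) = u (z, x))
    (hp : ∀ z ∈ U, ∀ x, u (z, x + Real.pi) = u (z, x)) (h0 : ∀ z ∈ U, u (z, 0) = 0) :
    ∃ v : ℝ × ℝ → ℝ, ContDiffOn ℝ ∞ v (U ×ˢ univ) ∧
      (∀ z ∈ U, ∀ x, u (z, x) = Real.sin x * v (z, x)) ∧
      (∀ z ∈ U, ∀ x, v (z, -x) = -v (z, x)) ∧ ∀ z ∈ U, ∀ x, v (z, x + Real.pi) = -v (z, x) := by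
  obtain ⟨v, hv, huv⟩ := div_sin hU hu fun z hz x hx =>
    zero_of_shift (g := fun x => u (z, x)) (fun y => by simp only [hp z hz y]) (h0 z hz) hx
  refine ⟨v, hv, huv, fun z hz x => ?_, fun z hz x => ?_⟩
  · have hc := (slice hv hz).continuous
    refine eq_neg_of_add_eq_zero_left (sin_cancel (f := fun x => v (z, -x) + v (z, x))
      ((hc.comp continuous_neg).add hc) (fun y => ?_) x)
    have h1 := huv z hz (-y)
    have h2 := huv z hz y
    rw [he z hz y, Real.sin_neg] at h1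
    linarith
  · have hc := (slice hv hz).continuous
    refine eq_neg_of_add_eq_zero_left (sin_cancel (f := fun x => v (z, x + Real.pi) + v (z, x))
      ((hc.comp (continuous_id.add continuous_const)).add hc) (fun y => ?_) x)
    have h1 := huv z hz (y + Real.pi)
    have h2 := huv z hz y
    rw [hp z hz y, Real.sin_add_pi] at h1
    linarith

theorem ratio_mem {u : ℝ} (hu : 0 ≤ u) : (1 - u) / (1 + u) ∈ Icc (-1 : ℝ) 1 := by
  have h : 0 < 1 + u := by linarith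
  constructor
  · rw [le_div_iff₀ h]; linarith
  · rw [div_le_iff₀ h]; linarith

theorem sin_xu_sq {u : ℝ} (hu : 0 ≤ u) : Real.sin (xu u) ^ 2 = 4 * u / (1 + u) ^ 2 := by
  have h : 0 < 1 + u := by linarith
  have hm := ratio_mem hu
  rw [Real.sin_sq, xu, Real.cos_arccos hm.1 hm.2]
  field_simp
  ring

theorem xu_mem {u : ℝ} (hu : 0 < u) : xu u ∈ Ioo 0 Real.pi := by
  have h : 0 < 1 + u := by linarith
  constructor
  · rw [xu, Real.arccos_pos, div_lt_iff₀ h]; linarith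
  · rw [xu, Real.arccos_lt_pi, lt_div_iff₀ h]; linarith

theorem xu_zero : xu 0 = 0 := by simp [xu]

theorem smooth_xu {U : Set ℝ} (hU : IsOpen U) {v : ℝ × ℝ → ℝ}
    (hv : ContDiffOn ℝ ∞ v (U ×ˢ univ)) (he : ∀ z ∈ U, ∀ x, v (z, -x) = v (z, x))
    (hp : ∀ z ∈ U, ∀ x, v (z, x + Real.pi) = v (z, x)) :
    ContDiffOn ℝ ∞ (fun p : ℝ × ℝ => v (p.1, xu p.2)) (U ×ˢ Ici 0) := by
  have h := whitney_cos hU hv he fun z hz x => by
    rw [two_mul, ← add_assoc, hp z hz, hp z hz]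
  have hm : ContDiffOn ℝ ∞ (fun p : ℝ × ℝ => ((p.1, (1 - p.2) / (1 + p.2)) : ℝ × ℝ))
      (U ×ˢ Ici 0) := by
    refine contDiff_fst.contDiffOn.prodMk (ContDiffOn.div
      (contDiff_const.sub contDiff_snd).contDiffOn (contDiff_const.add contDiff_snd).contDiffOn ?_)
    intro p hp
    have : 0 ≤ p.2 := hp.2
    linarith
  exact h.comp hm fun p hp => ⟨hp.1, ratio_mem hp.2⟩

end CoefAux

open CoefAux in
theorem exists_coef {q : ℕ} {T : ℝ} {L : Lg} (hL : IsLag q T L) :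
    ∃ A B C : ℝ × ℝ → ℝ, IsCo q T L A B C := by
  have hU : IsOpen (Ioo 0 T) := isOpen_Ioo
  have sh : ∀ x : ℝ, x + Real.pi = Real.pi - -x := fun x => by ring
  have hπ : ∀ t ∈ Ioo 0 T, ∀ x, L.h (t, x + Real.pi) = -L.h (t, x) := fun t ht x => by
    rw [sh, hL.reflh t ht, hL.oddh t ht]
  have φπ : ∀ t ∈ Ioo 0 T, ∀ x, L.φ (t, x + Real.pi) = L.φ (t, x) := fun t ht x => by
    rw [sh, hL.reflφ t ht, hL.evenφ t ht]
  have Fπ : ∀ t ∈ Ioo 0 T, ∀ x, L.F (t, x + Real.pi) = L.F (t, x) := fun t ht x => by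
    rw [sh, hL.reflF t ht, hL.evenF t ht]
  obtain ⟨η, sη, hη, eη, pη⟩ := div_odd hU hL.smh hL.oddh hπ
  have η0 : ∀ t ∈ Ioo 0 T, η (t, 0) = L.φ (t, 0) := by
    intro t ht
    rw [← hL.pole t ht]
    have hd : HasDerivAt (fun x => η (t, x)) (deriv (fun x => η (t, x)) 0) 0 :=
      ((slice sη ht).differentiable (by simp) 0).hasDerivAt
    have h1 := (Real.hasDerivAt_sin 0).mul hd
    have e : (fun x => L.h (t, x)) = Real.sin * fun x => η (t, x) := by
      funext x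
      exact hη t ht x
    show η (t, 0) = deriv (fun x => L.h (t, x)) 0
    rw [e, h1.deriv]
    simp
  obtain ⟨δ, sδ, hδ, oδ, pδ⟩ := div_even (u := fun p => L.φ p ^ 2 - η p ^ 2) hU
    ((hL.smφ.pow 2).sub (sη.pow 2))
    (fun t ht x => by simp only [hL.evenφ t ht, eη t ht])
    (fun t ht x => by simp only [φπ t ht, pη t ht])
    (fun t ht => by simp only [η0 t ht, sub_self])
  obtain ⟨μ, sμ, hμ, eμ, pμ⟩ := div_odd hU sδ oδ pδ
  have hden : ∀ n : ℕ, ContDiffOn ℝ ∞ (fun p : ℝ × ℝ => (1 + p.2) ^ n) (Ioo 0 T ×ˢ Ici 0) :=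
    fun n => ((contDiff_const.add contDiff_snd).pow n).contDiffOn
  have hne : ∀ n : ℕ, ∀ p ∈ Ioo 0 T ×ˢ Ici (0 : ℝ), (1 + p.2) ^ n ≠ 0 := by
    intro n p hp
    have : 0 ≤ p.2 := hp.2
    positivity
  refine ⟨fun p => 4 * η (p.1, xu p.2) ^ 2 / (1 + p.2) ^ 2,
    fun p => 16 * μ (p.1, xu p.2) / (1 + p.2) ^ 4,
    fun p => Real.exp (2 * L.F (p.1, xu p.2)) / (q - 1), ?_, ?_, ?_, ?_, ?_, ?_, ?_⟩
  · exact (contDiffOn_const.mul ((smooth_xu hU sη eη pη).pow 2)).div (hden 2) (hne 2)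
  · exact (contDiffOn_const.mul (smooth_xu hU sμ eμ pμ)).div (hden 4) (hne 4)
  · exact (contDiffOn_const.mul (smooth_xu hU hL.smF hL.evenF Fπ)).exp.div_const _
  · intro t ht u hu
    have h1 : η (t, xu u) ≠ 0 := by
      rcases hu.eq_or_lt with h | h
      · rw [← h, xu_zero, η0 t ht]
        exact (hL.posφ t ht 0).ne'
      · intro h0
        have h2 := hL.posh (t, xu u) ⟨ht, xu_mem h⟩
        rw [hη t ht, h0, mul_zero] at h2
        exact lt_irrefl _ h2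
    have h2 : 0 < 1 + u := by linarith
    positivity
  · intro t ht u hu
    have h2 : 0 < 1 + u := by linarith
    simp only
    rw [hη t ht, mul_pow, sin_xu_sq hu.le]
    field_simp
  · intro t ht u hu
    have h2 : 0 < 1 + u := by linarith
    have h3 := hδ t ht (xu u)
    rw [hμ t ht, ← mul_assoc, ← sq, sin_xu_sq hu] at h3
    have h4 : L.φ (t, xu u) ^ 2 = η (t, xu u) ^ 2 + 4 * u / (1 + u) ^ 2 * μ (t, xu u) := by
      linarith
    simp only [Lg.Pu]
    rw [h4]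
    field_simp
    ring
  · intro t _ u _
    rfl

end Vale.Agent.P244A
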