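import Vale.Agent.P244A.Basic

/-! Continuity of the curvature, and passage from a dense set to all points. -/

open Set Filter Topology
open scoped ContDiff

noncomputable section

namespace Vale.Agent.P244A

open Vale.Agent.P244

variable {n : ℕ}

theorem cont_det {A : E n → Matrix (Fin n) (Fin n) ℝ}
    (hs : ∀ i j, ContDiff ℝ ∞ fun y => A y i j) : ContDiff ℝ ∞ fun y => (A y).det := by
  simp only [Matrix.det_apply']
  refine ContDiff.sum fun σ _ => contDiff_const.mul ?_
  exact contDiff_prod fun i _ => hs _ _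

theorem cont_inv {G : Tensor n} (hs : ∀ i j, ContDiff ℝ ∞ fun y => G y i j)
    (hp : ∀ y, (G y).PosDef) (i j : Fin n) : ContDiff ℝ ∞ fun y => (G y)⁻¹ i j := by
  have e : (fun y => (G y)⁻¹ i j) = fun y => ((G y).det)⁻¹ *
      ((G y).updateRow j (Pi.single i 1)).det := by
    funext y
    rw [Matrix.inv_def, Ring.inverse_eq_inv', Matrix.smul_apply, Matrix.adjugate_apply,
      smul_eq_mul]
  rw [e]
  refine ((cont_det hs).inv fun y => (hp y).det_pos.ne').mul (cont_det fun a b => ?_)
  by_cases h : a = j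
  · subst h
    simp only [Matrix.updateRow_self]
    exact contDiff_const
  · simp only [Matrix.updateRow_ne h]
    exact hs a b

theorem cont_pd {f : E n → ℝ} (hf : ContDiff ℝ ∞ f) (i : Fin n) : ContDiff ℝ ∞ (pd i f) := by
  have h1 : ContDiff ℝ ∞ (fderiv ℝ f) := hf.fderiv_right (m := ∞) le_rfl
  exact h1.clm_apply contDiff_const

theorem cont_chris {G : Tensor n} (hs : ∀ i j, ContDiff ℝ ∞ fun y => G y i j)
    (hp : ∀ y, (G y).PosDef) (k i j : Fin n) : ContDiff ℝ ∞ (chris G k i j) := by
  unfold chris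
  refine contDiff_const.mul (ContDiff.sum fun l _ => (cont_inv hs hp k l).mul ?_)
  exact ((cont_pd (hs j l) i).add (cont_pd (hs i l) j)).sub (cont_pd (hs i j) l)

theorem continuous_ricci {G : Tensor n} (hs : ∀ i j, ContDiff ℝ ∞ fun y => G y i j)
    (hp : ∀ y, (G y).PosDef) (i j : Fin n) : Continuous (ricci G i j) := by
  unfold ricci
  have hc := cont_chris hs hp
  refine continuous_finset_sum _ fun k _ => Continuous.add ?_ ?_
  · exact (cont_pd (hc k i j) k).continuous.sub (cont_pd (hc k i k) j).continuous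
  · refine continuous_finset_sum _ fun l _ => ?_
    exact ((hc k k l).continuous.mul (hc l i j).continuous).sub
      ((hc k j l).continuous.mul (hc l i k).continuous)

theorem continuous_scal {G : Tensor n} (hs : ∀ i j, ContDiff ℝ ∞ fun y => G y i j)
    (hp : ∀ y, (G y).PosDef) : Continuous (scal G) := by
  unfold scal
  refine continuous_finset_sum _ fun i _ => continuous_finset_sum _ fun j _ => ?_
  exact (cont_inv hs hp i j).continuous.mul (continuous_ricci hs hp i j)

theorem flow_of_dense {G : ℝ → Tensor n} {J : Set ℝ} (hJ : IsOpen J)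
    (hs : ∀ i j, ContDiffOn ℝ ∞ (fun p : ℝ × E n => G p.1 p.2 i j) (J ×ˢ univ))
    (hp : ∀ t ∈ J, ∀ y, (G t y).PosDef) {D : Set (E n)} (hD : Dense D)
    (he : ∀ t ∈ J, ∀ y ∈ D, ∀ i j,
      HasDerivAt (fun s => G s y i j) (-2 * ricci (G t) i j y) t) :
    ∀ t ∈ J, ∀ y i j, HasDerivAt (fun s => G s y i j) (-2 * ricci (G t) i j y) t := by
  intro t ht y i j
  have hO : IsOpen (J ×ˢ (univ : Set (E n))) := hJ.prod isOpen_univ
  have hat : ∀ a b (w : E n), ContDiffAt ℝ ∞ (fun p : ℝ × E n => G p.1 p.2 a b) (t, w) :=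
    fun a b w => (hs a b).contDiffAt (hO.mem_nhds ⟨ht, mem_univ _⟩)
  have hst : ∀ a b, ContDiff ℝ ∞ fun w => G t w a b := by
    intro a b
    rw [contDiff_iff_contDiffAt]
    intro w
    exact (hat a b w).comp w (contDiffAt_const.prodMk contDiffAt_id)
  set F : ℝ × E n → ℝ := fun p => G p.1 p.2 i j with hF
  have hd : ∀ w : E n, HasDerivAt (fun s => G s w i j) (fderiv ℝ F (t, w) (1, 0)) t := by
    intro w
    have h1 : HasFDerivAt F (fderiv ℝ F (t, w)) (t, w) :=
      ((hat i j w).differentiableAt (by simp)).hasFDerivAt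
    have h2 : HasDerivAt (fun s : ℝ => (s, w)) ((1 : ℝ), (0 : E n)) t :=
      (hasDerivAt_id t).prodMk (hasDerivAt_const t w)
    exact h1.comp_hasDerivAt t h2
  have hc1 : Continuous fun w : E n => fderiv ℝ F (t, w) (1, 0) := by
    have h1 : ContinuousOn (fderiv ℝ F) (J ×ˢ univ) :=
      (hs i j).continuousOn_fderiv_of_isOpen hO (by simp)
    have h2 : Continuous fun w : E n => fderiv ℝ F (t, w) :=
      h1.comp_continuous (continuous_const.prodMk continuous_id) fun w => ⟨ht, mem_univ _⟩
    exact h2.clm_apply continuous_const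
  have hc2 : Continuous fun w : E n => -2 * ricci (G t) i j w :=
    continuous_const.mul (continuous_ricci hst (hp t ht) i j)
  have e := Continuous.ext_on hD hc1 hc2 fun w hw => (hd w).unique (he t ht w hw i j)
  have e' : fderiv ℝ F (t, y) (1, 0) = -2 * ricci (G t) i j y := congrFun e y
  rw [← e']
  exact hd y

theorem scal_of_dense {G : Tensor n} (hs : ∀ i j, ContDiff ℝ ∞ fun y => G y i j)
    (hp : ∀ y, (G y).PosDef) {D : Set (E n)} (hD : Dense D) {C : ℝ}
    (hb : ∀ y ∈ D, |scal G y| ≤ C) (y : E n) : |scal G y| ≤ C := by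
  have hcl : IsClosed {w : E n | |scal G w| ≤ C} :=
    isClosed_le (continuous_scal hs hp).abs continuous_const
  have h1 : closure D ⊆ {w : E n | |scal G w| ≤ C} := hcl.closure_subset_iff.2 hb
  exact h1 (hD y)

theorem dense_uu (q : ℕ) : Dense {y : E (q + 3) | 0 < uu q y} := by
  intro y
  by_cases hy : 0 < uu q y
  · exact subset_closure hy
  have h0 : al q 0 = 1 := by simp [al]
  have hle : ∀ w : E (q + 3), (w 0) ^ 2 ≤ uu q w := by
    intro w
    have h1 := Finset.single_le_sum (f := fun i => ca q w i ^ 2) (s := Finset.univ)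
      (fun i _ => sq_nonneg _) (Finset.mem_univ 0)
    have h2 : ca q w 0 = w 0 := by simp only [ca, h0, one_mul]
    simp only [h2] at h1
    exact h1
  have hy0 : y 0 = 0 := by
    have h1 := hle y
    have h2 : (y 0) ^ 2 = 0 := le_antisymm (h1.trans (not_lt.1 hy)) (sq_nonneg _)
    exact pow_eq_zero_iff (two_ne_zero) |>.1 h2
  set c : ℝ → E (q + 3) := fun ε => y + ε • EuclideanSpace.single 0 1 with hc
  have hcc : Continuous c := continuous_const.add (continuous_id.smul continuous_const)
  have ht : Tendsto c (𝓝[≠] 0) (𝓝 y) := by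
    have h1 := hcc.tendsto 0
    have h2 : c 0 = y := by simp [hc]
    rw [h2] at h1
    exact h1.mono_left nhdsWithin_le_nhds
  refine mem_closure_of_tendsto ht ?_
  filter_upwards [self_mem_nhdsWithin] with ε hε
  have h1 : c ε 0 = ε := by simp [hc, hy0]
  have h2 := hle (c ε)
  rw [h1] at h2
  have h3 : ε ≠ 0 := hε
  exact lt_of_lt_of_le (by positivity) h2

end Vale.Agent.P244A
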