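import Vale.Agent.P244.Sol

/-! Definitions for step A: the block radial metric in stereographic coordinates and the reduced
flow without drift. -/

open Set Filter Topology
open scoped ContDiff

noncomputable section

namespace Vale.Agent.P244A

open Vale.Agent.P244

/-! ### coordinates -/

/-- indicator of the first block of indices -/
def al (q : ℕ) (i : Fin (q + 3)) : ℝ := if (i : ℕ) < q + 1 then 1 else 0
/-- indicator of the second block (the last two indices) -/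
def be (q : ℕ) (i : Fin (q + 3)) : ℝ := 1 - al q i
def ca (q : ℕ) (y : E (q + 3)) (i : Fin (q + 3)) : ℝ := al q i * y i
def cb (q : ℕ) (y : E (q + 3)) (i : Fin (q + 3)) : ℝ := be q i * y i
/-- squared length of the first block -/
def uu (q : ℕ) (y : E (q + 3)) : ℝ := ∑ i, ca q y i ^ 2
/-- squared length of the second block -/
def zz (q : ℕ) (y : E (q + 3)) : ℝ := ∑ i, cb q y i ^ 2
/-- conformal factor of the round two-sphere -/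
def lam (z : ℝ) : ℝ := 4 / (1 + z) ^ 2
/-- logarithmic derivative of `lam` -/
def mm (z : ℝ) : ℝ := -2 / (1 + z)
/-- Kronecker symbol -/
def de {n : ℕ} (i j : Fin n) : ℝ := if i = j then 1 else 0

/-- the block radial metric -/
def Gm (q : ℕ) (A B C : ℝ → ℝ) : Tensor (q + 3) := fun y => Matrix.of fun i j =>
  de i j * (A (uu q y) * al q i + C (uu q y) * lam (zz q y) * be q i)
    + B (uu q y) * (ca q y i * ca q y j)

/-- inversion in the first block -/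
def I1 (q : ℕ) (y : E (q + 3)) : E (q + 3) :=
  WithLp.toLp 2 fun i => ca q y i / uu q y + cb q y i
/-- inversion in the second block -/
def I2 (q : ℕ) (y : E (q + 3)) : E (q + 3) :=
  WithLp.toLp 2 fun i => ca q y i + cb q y i / zz q y

/-- `G` is invariant under `I` at the point `y` -/
def InvBy {n : ℕ} (G : Tensor n) (I : E n → E n) (y : E n) : Prop :=
  ∀ i j, G y i j = ∑ k, ∑ l, G (I y) k l * (fderiv ℝ I y (EuclideanSpace.single i 1) k *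
    fderiv ℝ I y (EuclideanSpace.single j 1) l)

/-- the four possible transition maps -/
def Trans (q : ℕ) (f : E (q + 3) → E (q + 3)) (y : E (q + 3)) : Prop :=
  f =ᶠ[𝓝 y] id ∨ (0 < uu q y ∧ f =ᶠ[𝓝 y] I1 q) ∨ (0 < zz q y ∧ f =ᶠ[𝓝 y] I2 q) ∨
    (0 < uu q y ∧ 0 < zz q y ∧ f =ᶠ[𝓝 y] I1 q ∘ I2 q)

/-- shape of the Christoffel symbols of `Gm` -/
def Gam (q : ℕ) (p c s t r : ℝ → ℝ) (k i j : Fin (q + 3)) (y : E (q + 3)) : ℝ :=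
  de j k * ((p (uu q y) * al q k + c (uu q y) * be q k) * ca q y i
      + mm (zz q y) * be q k * cb q y i)
    + de i k * ((p (uu q y) * al q k + c (uu q y) * be q k) * ca q y j
      + mm (zz q y) * be q k * cb q y j)
    - de i j * be q i * mm (zz q y) * cb q y k
    + ca q y k * (s (uu q y) * ca q y i * ca q y j
      + de i j * (t (uu q y) * al q i - r (uu q y) * lam (zz q y) * be q i))

/-! ### Ricci curvature in the variable `u`; `h = exp g`, `ds² = P dr²`, `u = r²` -/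

/-- second arclength derivative -/
def dd (P K : ℝ → ℝ) (u : ℝ) : ℝ :=
  2 * (deriv K u / P u + 2 * u * deriv (deriv K) u / P u - u * deriv K u * deriv P u / P u ^ 2)
/-- product of arclength derivatives -/
def gr (P K L : ℝ → ℝ) (u : ℝ) : ℝ := 4 * u * deriv K u * deriv L u / P u
def r0 (q : ℕ) (P f g : ℝ → ℝ) (u : ℝ) : ℝ :=
  -2 * (dd P f u + gr P f f u) - q * (dd P g u + gr P g g u)
def r1 (q : ℕ) (P f g : ℝ → ℝ) (u : ℝ) : ℝ :=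
  (q - 1) * Real.exp (-2 * f u) - (dd P f u + 2 * gr P f f u + q * gr P g f u)
def r2 (q : ℕ) (P f g : ℝ → ℝ) (u : ℝ) : ℝ :=
  (q - 1) * Real.exp (-2 * g u) - (dd P g u + 2 * gr P f g u + q * gr P g g u)

/-- polar angle as a function of the squared stereographic radius -/
def xu (u : ℝ) : ℝ := Real.arccos ((1 - u) / (1 + u))

/-! ### the reduced flow without drift: `φ² dx² + h² g_(S^q) + exp (2 F) g_(S²) / (q - 1)` -/

structure Lg where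
  φ : ℝ × ℝ → ℝ
  h : ℝ × ℝ → ℝ
  F : ℝ × ℝ → ℝ

namespace Lg

variable (L : Lg)

def D (u : ℝ × ℝ → ℝ) (p : ℝ × ℝ) : ℝ := dx u p / L.φ p
def G (p : ℝ × ℝ) : ℝ := Real.log (L.h p)
def X : ℝ × ℝ → ℝ := L.D L.F
def Y : ℝ × ℝ → ℝ := L.D L.G
def lap (q : ℕ) (u : ℝ × ℝ → ℝ) (p : ℝ × ℝ) : ℝ :=
  L.D (L.D u) p + (2 * L.X p + q * L.Y p) * L.D u p
def ρ0 (q : ℕ) (p : ℝ × ℝ) : ℝ :=
  -2 * (L.D L.X p + L.X p ^ 2) - q * (L.D L.Y p + L.Y p ^ 2)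
def ρ1 (q : ℕ) (p : ℝ × ℝ) : ℝ := (q - 1) * Real.exp (-2 * L.F p) - L.lap q L.F p
def ρ2 (q : ℕ) (p : ℝ × ℝ) : ℝ := (q - 1) / L.h p ^ 2 - L.lap q L.G p
def R (q : ℕ) (p : ℝ × ℝ) : ℝ := L.ρ0 q p + 2 * L.ρ1 q p + q * L.ρ2 q p
/-- the radial coefficient, `F` and `G` as functions of `u` at time `t` -/
def Pu (t u : ℝ) : ℝ := 4 * L.φ (t, xu u) ^ 2 / (1 + u) ^ 2
def fu (t u : ℝ) : ℝ := L.F (t, xu u)
def gu (t u : ℝ) : ℝ := L.G (t, xu u)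

end Lg

structure IsLag (q : ℕ) (T : ℝ) (L : Lg) : Prop where
  smφ : ContDiffOn ℝ ∞ L.φ (Ioo 0 T ×ˢ univ)
  smh : ContDiffOn ℝ ∞ L.h (Ioo 0 T ×ˢ univ)
  smF : ContDiffOn ℝ ∞ L.F (Ioo 0 T ×ˢ univ)
  posφ : ∀ t ∈ Ioo 0 T, ∀ x, 0 < L.φ (t, x)
  posh : ∀ p ∈ Om T, 0 < L.h p
  pole : ∀ t ∈ Ioo 0 T, dx L.h (t, 0) = L.φ (t, 0)
  evenφ : ∀ t ∈ Ioo 0 T, ∀ x, L.φ (t, -x) = L.φ (t, x)
  oddh : ∀ t ∈ Ioo 0 T, ∀ x, L.h (t, -x) = -L.h (t, x)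
  evenF : ∀ t ∈ Ioo 0 T, ∀ x, L.F (t, -x) = L.F (t, x)
  reflφ : ∀ t ∈ Ioo 0 T, ∀ x, L.φ (t, Real.pi - x) = L.φ (t, x)
  reflh : ∀ t ∈ Ioo 0 T, ∀ x, L.h (t, Real.pi - x) = L.h (t, x)
  reflF : ∀ t ∈ Ioo 0 T, ∀ x, L.F (t, Real.pi - x) = L.F (t, x)
  eqφ : ∀ p ∈ Om T, dt L.φ p = -L.ρ0 q p * L.φ p
  eqF : ∀ p ∈ Om T, dt L.F p = -L.ρ1 q p
  eqG : ∀ p ∈ Om T, dt L.G p = -L.ρ2 q p

/-- the diffeomorphisms which remove the drift `ξ` -/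
structure IsPsi (T : ℝ) (ξ Ψ : ℝ × ℝ → ℝ) : Prop where
  sm : ContDiffOn ℝ ∞ Ψ (Ioo 0 T ×ˢ univ)
  ode : ∀ t ∈ Ioo 0 T, ∀ x, HasDerivAt (fun s => Ψ (s, x)) (-ξ (t, Ψ (t, x))) t
  odd : ∀ t ∈ Ioo 0 T, ∀ x, Ψ (t, -x) = -Ψ (t, x)
  refl : ∀ t ∈ Ioo 0 T, ∀ x, Ψ (t, Real.pi - x) = Real.pi - Ψ (t, x)
  pos : ∀ t ∈ Ioo 0 T, ∀ x, 0 < dx Ψ (t, x)
  var : ∀ t ∈ Ioo 0 T, ∀ x,
    HasDerivAt (fun s => dx Ψ (s, x)) (-dx ξ (t, Ψ (t, x)) * dx Ψ (t, x)) t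

/-- the coefficient functions of time and `u` -/
structure IsCo (q : ℕ) (T : ℝ) (L : Lg) (A B C : ℝ × ℝ → ℝ) : Prop where
  smA : ContDiffOn ℝ ∞ A (Ioo 0 T ×ˢ Ici 0)
  smB : ContDiffOn ℝ ∞ B (Ioo 0 T ×ˢ Ici 0)
  smC : ContDiffOn ℝ ∞ C (Ioo 0 T ×ˢ Ici 0)
  posA : ∀ t ∈ Ioo 0 T, ∀ u, 0 ≤ u → 0 < A (t, u)
  eqA : ∀ t ∈ Ioo 0 T, ∀ u, 0 < u → A (t, u) * u = L.h (t, xu u) ^ 2
  eqP : ∀ t ∈ Ioo 0 T, ∀ u, 0 ≤ u → A (t, u) + B (t, u) * u = L.Pu t u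
  eqC : ∀ t ∈ Ioo 0 T, ∀ u, 0 ≤ u → C (t, u) = Real.exp (2 * L.fu t u) / (q - 1)

end Vale.Agent.P244A
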