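import Vale.Agent.P244.Sol
import Vale.Agent.P265.Flow

/-! Smooth flow of a time dependent periodic vector field on the line.
Hints. `flow_unique`: the set of times where the curves agree is clopen in `Ioo a b`
(`ODE_solution_unique_of_eventually`, `ContDiffAt.exists_lipschitzOnWith`), or use a global Lipschitz
bound on compact time intervals.  `exists_flow1`: for `[a', b'] ⊆ (a, b)` around `t0` let `L` bound `v` on a
slightly larger compact time interval (periodicity); for `R` take bumps `χ (t)`, `κ (x)` (`ContDiffBump`,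
or `exists_contDiff_tsupport_subset`) equal to one on `[a', b']` resp. on `|x| ≤ R + L (b - a) + 1`; the
field `W (t, x) = χ κ • (1, v)` is smooth with compact support, `Vale.Agent.P265.exists_flow` gives `Φ`, and
`|d/ds Φ.2| ≤ L |d/ds Φ.1|`, `0 ≤ d/ds Φ.1 ≤ 1`; so ` (Φ (t - t0, (t0, x))).2` solves the equation on `[a', b']`
for `|x| ≤ R`.  (Alternatively cut off in time only and use `P265.flow_sol` for existence.)  Glue by
uniqueness: define `Ψ (t, x)` by choice of a solution on ` (a, b)`. -/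

open Set Filter Topology
open scoped ContDiff

noncomputable section

namespace Vale.Agent.P244A

open Vale.Agent.P244

theorem flow_unique {a b : ℝ} {v : ℝ × ℝ → ℝ} (hv : ContDiffOn ℝ ∞ v (Ioo a b ×ˢ univ))
    (hper : ∀ t x, v (t, x + 2 * Real.pi) = v (t, x)) {γ₁ γ₂ : ℝ → ℝ}
    (h₁ : ∀ t ∈ Ioo a b, HasDerivAt γ₁ (v (t, γ₁ t)) t)
    (h₂ : ∀ t ∈ Ioo a b, HasDerivAt γ₂ (v (t, γ₂ t)) t) {t₁ : ℝ} (ht₁ : t₁ ∈ Ioo a b)
    (he : γ₁ t₁ = γ₂ t₁) : ∀ t ∈ Ioo a b, γ₁ t = γ₂ t := by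
  have _h := hper
  intro t ht
  obtain ⟨a', ha, ha'⟩ := exists_between (lt_min ht.1 ht₁.1)
  obtain ⟨b', hb', hb⟩ := exists_between (max_lt ht.2 ht₁.2)
  rw [lt_min_iff] at ha'
  rw [max_lt_iff] at hb'
  have hsub : Icc a' b' ⊆ Ioo a b := Icc_subset_Ioo ha hb
  obtain ⟨M₁, hM₁⟩ := (isCompact_Icc (a := a') (b := b')).exists_bound_of_continuousOn
    (f := γ₁) fun s hs => (h₁ s (hsub hs)).continuousAt.continuousWithinAt
  obtain ⟨M₂, hM₂⟩ := (isCompact_Icc (a := a') (b := b')).exists_bound_of_continuousOn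
    (f := γ₂) fun s hs => (h₂ s (hsub hs)).continuousAt.continuousWithinAt
  obtain ⟨K, hK⟩ := (hv.mono (prod_mono hsub (subset_univ (Icc (-max M₁ M₂) (max M₁ M₂))))
    ).exists_lipschitzOnWith (by simp) ((convex_Icc _ _).prod (convex_Icc _ _))
    (isCompact_Icc.prod isCompact_Icc)
  refine ODE_solution_unique_of_mem_Ioo (v := fun t x => v (t, x))
    (s := fun _ => Icc (-max M₁ M₂) (max M₁ M₂)) (K := K) (a := a') (b := b') (fun s hs => ?_)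
    ⟨ha'.2, hb'.2⟩ (fun s hs => ⟨h₁ s (hsub (Ioo_subset_Icc_self hs)), ?_⟩)
    (fun s hs => ⟨h₂ s (hsub (Ioo_subset_Icc_self hs)), ?_⟩) he ⟨ha'.1, hb'.1⟩
  · intro x hx y hy
    have := hK (x := (s, x)) ⟨Ioo_subset_Icc_self hs, hx⟩ (y := (s, y))
      ⟨Ioo_subset_Icc_self hs, hy⟩
    simpa [Prod.edist_eq] using this
  · exact abs_le.1 ((hM₁ s (Ioo_subset_Icc_self hs)).trans (le_max_left _ _))
  · exact abs_le.1 ((hM₂ s (Ioo_subset_Icc_self hs)).trans (le_max_right _ _))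

theorem flow_bound {a b a' b' : ℝ} {v : ℝ × ℝ → ℝ} (hv : ContDiffOn ℝ ∞ v (Ioo a b ×ˢ univ))
    (hper : ∀ t x, v (t, x + 2 * Real.pi) = v (t, x)) (ha : a < a') (hb : b' < b) :
    ∃ L, 0 ≤ L ∧ ∀ t ∈ Icc a' b', ∀ x, |v (t, x)| ≤ L := by
  obtain ⟨L, hL⟩ := ((isCompact_Icc (a := a') (b := b')).prod
    (isCompact_Icc (a := (0 : ℝ)) (b := 2 * Real.pi))).exists_bound_of_continuousOn
    (hv.continuousOn.mono (prod_mono (Icc_subset_Ioo ha hb) (subset_univ _)))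
  refine ⟨max L 0, le_max_right _ _, fun t ht x => ?_⟩
  obtain ⟨y, hy, e⟩ := Function.Periodic.exists_mem_Ico₀ (f := fun x => v (t, x)) (hper t)
    Real.two_pi_pos x
  rw [e]
  exact (hL (t, y) ⟨ht, Ico_subset_Icc_self hy⟩).trans (le_max_left _ _)

theorem flow_local {a b a' b' t₀ : ℝ} {v : ℝ × ℝ → ℝ} (hv : ContDiffOn ℝ ∞ v (Ioo a b ×ˢ univ))
    (hper : ∀ t x, v (t, x + 2 * Real.pi) = v (t, x)) (ha : a < a') (hb : b' < b)
    (ht₀ : t₀ ∈ Ioo a' b') (R : ℝ) :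
    ∃ Φ : ℝ × ℝ → ℝ, ContDiff ℝ ∞ Φ ∧ (∀ x, Φ (t₀, x) = x) ∧
      ∀ x, |x| < R → ∀ t ∈ Ioo a' b', HasDerivAt (fun s => Φ (s, x)) (v (t, Φ (t, x))) t := by
  obtain ⟨a'', ha1, ha2⟩ := exists_between ha
  obtain ⟨b'', hb2, hb1⟩ := exists_between hb
  obtain ⟨L, hL0, hL⟩ := flow_bound hv hper ha1 hb1
  set M := R + L * (b' - a') with hM
  obtain ⟨W, hW, hWc, hWt⟩ := P265.exists_field (A := ℝ × ℝ) (F := ℝ × ℝ)
    (t := fun p => {w | 0 ≤ w.1 ∧ w.1 ≤ 1 ∧ -L ≤ w.2 ∧ w.2 ≤ L ∧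
      (p ∈ Icc a' b' ×ˢ Icc (-M) M → w = (1, v p))})
    (K := Icc a' b' ×ˢ Icc (-M) M) (fun p x hx y hy r s hr hs hrs => by
      obtain ⟨x1, x2, x3, x4, x5⟩ := hx
      obtain ⟨y1, y2, y3, y4, y5⟩ := hy
      simp only [mem_ofPred_eq, Prod.fst_add, Prod.snd_add, Prod.smul_fst, Prod.smul_snd,
        smul_eq_mul]
      refine ⟨by positivity, by nlinarith, by nlinarith, by nlinarith, fun h => ?_⟩
      rw [x5 h, y5 h, ← add_smul, hrs, one_smul])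
    (isCompact_Icc.prod isCompact_Icc)
    (fun p hp => ⟨Ioo a'' b'' ×ˢ univ, isOpen_Ioo.prod isOpen_univ,
      ⟨⟨ha2.trans_le hp.1.1, hp.1.2.trans_lt hb2⟩, trivial⟩, fun y => (1, v y),
      contDiffOn_const.prodMk (hv.mono (prod_mono (Ioo_subset_Ioo ha1.le hb1.le) le_rfl)),
      fun y hy => by
        have := abs_le.1 (hL y.1 (Ioo_subset_Icc_self hy.1) y.2)
        exact ⟨zero_le_one, le_rfl, this.1, this.2, fun _ => rfl⟩⟩)
    (fun p hp => ⟨le_rfl, zero_le_one, by simpa using hL0, hL0, fun h => absurd h hp⟩)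
  obtain ⟨Φ, hΦ⟩ := P265.exists_flow hW hWc
  refine ⟨fun p => (Φ (p.1 - t₀, (t₀, p.2))).2, ?_, fun x => by simp [hΦ.zero], fun x hx => ?_⟩
  · exact (hΦ.smooth.comp ((contDiff_fst.sub contDiff_const).prodMk
      (contDiff_const.prodMk contDiff_snd))).snd
  have d1 : ∀ s, HasDerivAt (fun s => (Φ (s, (t₀, x))).1) (W (Φ (s, (t₀, x)))).1 s := fun s =>
    (hΦ.deriv s (t₀, x)).fst
  have d2 : ∀ s, HasDerivAt (fun s => (Φ (s, (t₀, x))).2) (W (Φ (s, (t₀, x)))).2 s := fun s =>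
    (hΦ.deriv s (t₀, x)).snd
  have d3 : ∀ s, HasDerivAt (fun s => s - (Φ (s, (t₀, x))).1) (1 - (W (Φ (s, (t₀, x)))).1) s :=
    fun s => (hasDerivAt_id s).sub (d1 s)
  have m1 : Monotone fun s => (Φ (s, (t₀, x))).1 :=
    monotone_of_hasDerivAt_nonneg d1 fun s => (hWt _).1
  have m3 : Monotone fun s => s - (Φ (s, (t₀, x))).1 :=
    monotone_of_hasDerivAt_nonneg d3 fun s => sub_nonneg.2 (hWt _).2.1
  have z : Φ (0, (t₀, x)) = (t₀, x) := hΦ.zero _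
  have hK : ∀ s ∈ Ioo (a' - t₀) (b' - t₀), Φ (s, (t₀, x)) ∈ Icc a' b' ×ˢ Icc (-M) M := by
    intro s hs
    refine ⟨?_, ?_⟩
    · rcases le_total 0 s with h | h
      · have e1 := m1 h
        have e3 := m3 h
        simp only [z] at e1 e3
        exact ⟨by linarith [ht₀.1], by linarith [hs.2]⟩
      · have e1 := m1 h
        have e3 := m3 h
        simp only [z] at e1 e3
        exact ⟨by linarith [hs.1], by linarith [ht₀.2]⟩
    · have e := Convex.norm_image_sub_le_of_norm_hasDerivWithin_le (C := L) (s := univ)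
        (fun s _ => (d2 s).hasDerivWithinAt)
        (fun s _ => abs_le.2 ⟨(hWt _).2.2.1, (hWt _).2.2.2.1⟩) convex_univ (mem_univ 0) (mem_univ s)
      simp only [z, sub_zero, Real.norm_eq_abs] at e
      have e2 : |s| ≤ b' - a' := abs_le.2 ⟨by linarith [hs.1, ht₀.2], by linarith [hs.2, ht₀.1]⟩
      have e3 := abs_le.1 (e.trans (mul_le_mul_of_nonneg_left e2 hL0))
      have e4 := abs_lt.1 hx
      exact ⟨by linarith [e3.1], by linarith [e3.2]⟩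
  have hT : ∀ s ∈ Ioo (a' - t₀) (b' - t₀), (Φ (s, (t₀, x))).1 = s + t₀ := by
    intro s hs
    have e := Convex.norm_image_sub_le_of_norm_hasDerivWithin_le (C := 0)
      (s := Ioo (a' - t₀) (b' - t₀)) (fun s _ => (d3 s).hasDerivWithinAt)
      (fun s hs => by rw [(hWt _).2.2.2.2 (hK s hs)]; simp) (convex_Ioo _ _)
      (show (0 : ℝ) ∈ Ioo (a' - t₀) (b' - t₀) from ⟨by linarith [ht₀.1], by linarith [ht₀.2]⟩) hs
    simp only [z, zero_mul, norm_le_zero_iff] at e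
    linarith
  intro t ht
  have hs : t - t₀ ∈ Ioo (a' - t₀) (b' - t₀) := ⟨by linarith [ht.1], by linarith [ht.2]⟩
  refine ((d2 (t - t₀)).comp_sub_const t t₀).congr_deriv ?_
  rw [(hWt _).2.2.2.2 (hK _ hs)]
  show v (Φ (t - t₀, (t₀, x))) = _
  congr 1
  exact Prod.ext (by rw [hT _ hs]; simp) rfl

theorem exists_flow1 {a b t₀ : ℝ} (ht₀ : t₀ ∈ Ioo a b) {v : ℝ × ℝ → ℝ}
    (hv : ContDiffOn ℝ ∞ v (Ioo a b ×ˢ univ))
    (hper : ∀ t x, v (t, x + 2 * Real.pi) = v (t, x)) :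
    ∃ Ψ : ℝ × ℝ → ℝ, ContDiffOn ℝ ∞ Ψ (Ioo a b ×ˢ univ) ∧ (∀ x, Ψ (t₀, x) = x) ∧
      ∀ t ∈ Ioo a b, ∀ x, HasDerivAt (fun s => Ψ (s, x)) (v (t, Ψ (t, x))) t := by
  have loc : ∀ p : ℝ × ℝ, ∃ (a' b' : ℝ) (Φ : ℝ × ℝ → ℝ), p.1 ∈ Ioo a b →
      a < a' ∧ b' < b ∧ t₀ ∈ Ioo a' b' ∧ p.1 ∈ Ioo a' b' ∧ ContDiff ℝ ∞ Φ ∧
      (∀ x, Φ (t₀, x) = x) ∧ ∀ x, |x| < |p.2| + 1 → ∀ t ∈ Ioo a' b',
        HasDerivAt (fun s => Φ (s, x)) (v (t, Φ (t, x))) t := by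
    intro p
    by_cases hp : p.1 ∈ Ioo a b
    · obtain ⟨a', ha, ha'⟩ := exists_between (lt_min hp.1 ht₀.1)
      obtain ⟨b', hb', hb⟩ := exists_between (max_lt hp.2 ht₀.2)
      rw [lt_min_iff] at ha'
      rw [max_lt_iff] at hb'
      obtain ⟨Φ, h⟩ := flow_local hv hper ha hb ⟨ha'.2, hb'.2⟩ (|p.2| + 1)
      exact ⟨a', b', Φ, fun _ => ⟨ha, hb, ⟨ha'.2, hb'.2⟩, ⟨ha'.1, hb'.1⟩, h⟩⟩
    · exact ⟨0, 0, 0, fun h => absurd h hp⟩
  choose A B Φ h using loc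
  have key : ∀ p : ℝ × ℝ, p.1 ∈ Ioo a b → (fun q => Φ q q) =ᶠ[𝓝 p] Φ p := by
    intro p hp
    obtain ⟨p1, p2, p3, p4, -, p6, p7⟩ := h p hp
    have o1 : ∀ᶠ q : ℝ × ℝ in 𝓝 p, q.1 ∈ Ioo (A p) (B p) :=
      continuous_fst.continuousAt.eventually (isOpen_Ioo.mem_nhds p4)
    have o2 : ∀ᶠ q : ℝ × ℝ in 𝓝 p, |q.2| < |p.2| + 1 :=
      (continuous_snd.abs.tendsto p).eventually (gt_mem_nhds (lt_add_one _))
    filter_upwards [o1, o2] with q hq1 hq2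
    obtain ⟨q1, q2, q3, q4, -, q6, q7⟩ := h q ⟨p1.trans hq1.1, hq1.2.trans p2⟩
    have s1 : Ioo (max (A p) (A q)) (min (B p) (B q)) ⊆ Ioo (A p) (B p) :=
      Ioo_subset_Ioo (le_max_left _ _) (min_le_left _ _)
    have s2 : Ioo (max (A p) (A q)) (min (B p) (B q)) ⊆ Ioo (A q) (B q) :=
      Ioo_subset_Ioo (le_max_right _ _) (min_le_right _ _)
    exact flow_unique (a := max (A p) (A q)) (b := min (B p) (B q))
      (hv.mono (prod_mono (s1.trans (Ioo_subset_Ioo p1.le p2.le)) le_rfl)) hper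
      (γ₁ := fun s => Φ q (s, q.2)) (γ₂ := fun s => Φ p (s, q.2))
      (fun t ht => q7 _ (lt_add_one _) t (s2 ht)) (fun t ht => p7 _ hq2 t (s1 ht))
      (t₁ := t₀) ⟨max_lt p3.1 q3.1, lt_min p3.2 q3.2⟩ (by simp only [p6, q6]) q.1
      ⟨max_lt hq1.1 q4.1, lt_min hq1.2 q4.2⟩
  refine ⟨fun q => Φ q q, fun p hp => ?_, fun x => (h (t₀, x) ht₀).2.2.2.2.2.1 x,
    fun t ht x => ?_⟩
  · exact ((h p hp.1).2.2.2.2.1.contDiffAt.congr_of_eventuallyEq (key p hp.1)).contDiffWithinAt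
  · obtain ⟨-, -, -, p4, -, -, p7⟩ := h (t, x) ht
    refine (p7 x (lt_add_one _) t p4).congr_of_eventuallyEq ?_
    exact (Continuous.prodMk_left x).continuousAt.eventually (key (t, x) ht)

end Vale.Agent.P244A
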