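import Vale.Agent.P244A.Basic

/-! Gluing an invariant tensor to a field of bilinear forms. -/

open Set Filter Topology
open scoped ContDiff

noncomputable section

namespace Vale.Agent.P244A

open Vale.Agent.P244

open scoped Manifold

variable {q : ℕ}

theorem contDiffAt_I1 {y : E (q + 3)} (hy : 0 < uu q y) : ContDiffAt ℝ ∞ (I1 q) y :=
  contDiffAt_euclidean.2 fun i =>
    ((contDiff_ca i).contDiffAt.div contDiff_uu.contDiffAt hy.ne').add (contDiff_cb i).contDiffAt
theorem contDiffAt_I2 {y : E (q + 3)} (hy : 0 < zz q y) : ContDiffAt ℝ ∞ (I2 q) y :=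
  contDiffAt_euclidean.2 fun i =>
    (contDiff_ca i).contDiffAt.add ((contDiff_cb i).contDiffAt.div contDiff_zz.contDiffAt hy.ne')
theorem uu_I2 (y : E (q + 3)) : uu q (I2 q y) = uu q y := by
  refine Finset.sum_congr rfl fun i _ => ?_
  have e : ca q (I2 q y) i = al q i * (ca q y i + cb q y i / zz q y) := rfl
  rw [e, mul_add, al_mul_ca, ← mul_div_assoc, al_mul_cb, zero_div, add_zero]
theorem Trans.contDiffAt {f : E (q + 3) → E (q + 3)} {y : E (q + 3)} (h : Trans q f y) :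
    ContDiffAt ℝ ∞ f y := by
  rcases h with h | ⟨h1, h⟩ | ⟨h1, h⟩ | ⟨h1, h2, h⟩
  · exact contDiffAt_id.congr_of_eventuallyEq h
  · exact (contDiffAt_I1 h1).congr_of_eventuallyEq h
  · exact (contDiffAt_I2 h1).congr_of_eventuallyEq h
  · exact ((contDiffAt_I1 (by rwa [uu_I2])).comp y (contDiffAt_I2 h2)).congr_of_eventuallyEq h

/-- the bilinear form of a matrix -/
def glueBil {n : ℕ} (A : Matrix (Fin n) (Fin n) ℝ) : E n →L[ℝ] E n →L[ℝ] ℝ :=
  ∑ k, ∑ l, A k l • (EuclideanSpace.proj k : E n →L[ℝ] ℝ).smulRight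
    (EuclideanSpace.proj l : E n →L[ℝ] ℝ)

theorem glueBil_apply {n : ℕ} (A : Matrix (Fin n) (Fin n) ℝ) (v w : E n) :
    glueBil A v w = ∑ k, ∑ l, A k l * (v k * w l) := by
  simp [glueBil]

theorem glue_expand {n : ℕ} (B : E n →L[ℝ] E n →L[ℝ] ℝ) (v w : E n) :
    B v w = ∑ k, ∑ l,
      B (EuclideanSpace.single k 1) (EuclideanSpace.single l 1) * (v k * w l) := by
  conv_lhs => rw [← (EuclideanSpace.basisFun (Fin n) ℝ).sum_repr v,
    ← (EuclideanSpace.basisFun (Fin n) ℝ).sum_repr w]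
  simp only [map_sum, map_smul, sum_apply, smul_apply,
    EuclideanSpace.basisFun_repr, EuclideanSpace.basisFun_apply, smul_eq_mul, Finset.mul_sum]
  rw [Finset.sum_comm]
  refine Finset.sum_congr rfl fun k _ => Finset.sum_congr rfl fun l _ => ?_
  ring

theorem InvBy.glue_bil {n : ℕ} {G : Tensor n} {f : E n → E n} {y : E n} (h : InvBy G f y)
    (v w : E n) : glueBil (G y) v w = glueBil (G (f y)) (fderiv ℝ f y v) (fderiv ℝ f y w) := by
  have h1 := glue_expand ((glueBil (G (f y))).bilinearComp (fderiv ℝ f y) (fderiv ℝ f y)) v w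
  simp only [ContinuousLinearMap.bilinearComp_apply] at h1
  rw [h1, glueBil_apply]
  refine Finset.sum_congr rfl fun k _ => Finset.sum_congr rfl fun l _ => ?_
  rw [h k l, glueBil_apply]

theorem InvBy.glue_congr {n : ℕ} {G : Tensor n} {f g : E n → E n} {y : E n} (h : InvBy G g y)
    (e : f =ᶠ[𝓝 y] g) : InvBy G f y := by
  intro i j
  rw [e.eq_of_nhds, e.fderiv_eq]
  exact h i j

theorem InvBy.glue_comp {n : ℕ} {G : Tensor n} {f g : E n → E n} {y : E n}
    (hf : InvBy G f (g y)) (hg : InvBy G g y) (df : DifferentiableAt ℝ f (g y))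
    (dg : DifferentiableAt ℝ g y) : InvBy G (f ∘ g) y := by
  intro i j
  rw [hg i j, ← glueBil_apply, hf.glue_bil, glueBil_apply, fderiv_comp y df dg]
  rfl

theorem Trans.invBy {f : E (q + 3) → E (q + 3)} {y : E (q + 3)} (h : Trans q f y)
    {G : Tensor (q + 3)} (h1 : ∀ y, 0 < uu q y → InvBy G (I1 q) y)
    (h2 : ∀ y, 0 < zz q y → InvBy G (I2 q) y) : InvBy G f y := by
  rcases h with h | ⟨a, h⟩ | ⟨a, h⟩ | ⟨a, b, h⟩
  · refine InvBy.glue_congr (fun i j => ?_) h
    simp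
  · exact (h1 y a).glue_congr h
  · exact (h2 y a).glue_congr h
  · have a' : 0 < uu q (I2 q y) := by rwa [uu_I2]
    exact ((h1 _ a').glue_comp (h2 y b) ((contDiffAt_I1 a').differentiableAt (by simp))
      ((contDiffAt_I2 b).differentiableAt (by simp))).glue_congr h

theorem isManifold_of_trans {n : ℕ} {M : Type} [TopologicalSpace M] [ChartedSpace (E n) M]
    (h : ∀ e ∈ atlas (E n) M, ∀ e' ∈ atlas (E n) M, ∀ y ∈ e.target, e.symm y ∈ e'.source →
      ContDiffAt ℝ ∞ (e' ∘ e.symm) y) : IsManifold (𝓡 n) ∞ M := by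
  refine isManifold_of_contDiffOn _ _ _ fun e e' he he' => ?_
  intro y hy
  simp only [mfld_simps] at hy ⊢
  exact (h e he e' he' y hy.1 hy.2).contDiffWithinAt

theorem exists_form {n : ℕ} {M : Type} [TopologicalSpace M] [ChartedSpace (E n) M]
    [IsManifold (𝓡 n) ∞ M] (G : Tensor n)
    (h : ∀ e ∈ atlas (E n) M, ∀ e' ∈ atlas (E n) M, ∀ y ∈ e.target, e.symm y ∈ e'.source →
      InvBy G (e' ∘ e.symm) y) :
    ∃ g : Form n M, ∀ e ∈ atlas (E n) M, ∀ y ∈ e.target, coeff g e y = G y := by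
  refine ⟨fun x => glueBil (G (chartAt (E n) x x)), fun e he y hy => ?_⟩
  have hd : mfderiv (𝓡 n) (𝓡 n) e.symm y =
      fderiv ℝ (chartAt (E n) (e.symm y) ∘ e.symm) y := by
    have h1 : MDifferentiableAt (𝓡 n) (𝓡 n) e.symm y := mdifferentiableAt_atlas_symm he hy
    rw [h1.mfderiv]
    simp only [mfld_simps, fderivWithin_univ]
    rfl
  ext i j
  rw [h e he _ (chart_mem_atlas (E n) (e.symm y)) y hy (mem_chart_source (E n) _) i j,
    ← glueBil_apply, ← hd]
  rfl

end Vale.Agent.P244A
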