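import Vale.Agent.P244A.Glue

/-! Invariance of `Gm` under the two inversions.
Hints. ` (fderiv (I1 q) y (single i 1)) k = pd i (fun y => I1 q y k) y
= de k i * (al k / u + be k) - 2 * ca k * ca i / u²` (use the `HP` calculus of `Basic.lean` and
`contDiffAt_I1`); `uu (I1 y) = u⁻¹`, `zz (I1 y) = zz y`, `ca (I1 y) k = ca y k / u`; likewise for `I2`, where
`lam z⁻¹ = z² lam z`.  Collapse the sums with `sum_de_left`, `sum_de_right`, `∑ ca² = u`. -/

open Set Filter Topology
open scoped ContDiff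

noncomputable section

namespace Vale.Agent.P244A

open Vale.Agent.P244

variable {q : ℕ} {A B C : ℝ → ℝ}

theorem Inv_fderiv {n : ℕ} {f : E n → E n} {y : E n} (hf : DifferentiableAt ℝ f y) (i k : Fin n) :
    fderiv ℝ f y (EuclideanSpace.single i 1) k = pd i (fun x => f x k) y := by
  have h := (EuclideanSpace.proj (𝕜 := ℝ) k : E n →L[ℝ] ℝ).hasFDerivAt.comp y hf.hasFDerivAt
  have e : fderiv ℝ (fun x => f x k) y = _ := h.fderiv
  rw [pd, e]
  rfl

theorem Inv_sum {n : ℕ} (D c Ji Jj : Fin n → ℝ) (b : ℝ) :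
    ∑ k, ∑ l, (de k l * D k + b * (c k * c l)) * (Ji k * Jj l)
      = ∑ k, D k * (Ji k * Jj k) + b * ((∑ k, c k * Ji k) * ∑ l, c l * Jj l) := by
  rw [Finset.sum_mul, Finset.mul_sum, ← Finset.sum_add_distrib]
  refine Finset.sum_congr rfl fun k _ => ?_
  rw [← sum_de_left k fun l => D k * (Ji k * Jj l), Finset.mul_sum, Finset.mul_sum,
    ← Finset.sum_add_distrib]
  exact Finset.sum_congr rfl fun l _ => by ring

theorem Inv_ca1 (y : E (q + 3)) (k : Fin (q + 3)) : ca q (I1 q y) k = ca q y k / uu q y := by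
  have e : I1 q y k = ca q y k / uu q y + cb q y k := rfl
  rw [ca, e]
  linear_combination (1 / uu q y) * al_mul_ca y k + al_mul_cb y k

theorem Inv_cb1 (y : E (q + 3)) (k : Fin (q + 3)) : cb q (I1 q y) k = cb q y k := by
  have e : I1 q y k = ca q y k / uu q y + cb q y k := rfl
  rw [cb, e]
  linear_combination (1 / uu q y) * be_mul_ca y k + be_mul_cb y k

theorem Inv_ca2 (y : E (q + 3)) (k : Fin (q + 3)) : ca q (I2 q y) k = ca q y k := by
  have e : I2 q y k = ca q y k + cb q y k / zz q y := rfl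
  rw [ca, e]
  linear_combination (1 / zz q y) * al_mul_cb y k + al_mul_ca y k

theorem Inv_cb2 (y : E (q + 3)) (k : Fin (q + 3)) : cb q (I2 q y) k = cb q y k / zz q y := by
  have e : I2 q y k = ca q y k + cb q y k / zz q y := rfl
  rw [cb, e]
  linear_combination (1 / zz q y) * be_mul_cb y k + be_mul_ca y k

theorem Inv_uu1 {y : E (q + 3)} (hy : 0 < uu q y) : uu q (I1 q y) = (uu q y)⁻¹ := by
  have e : uu q (I1 q y) = (∑ k, ca q y k ^ 2) / uu q y ^ 2 := by
    rw [uu, Finset.sum_div]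
    exact Finset.sum_congr rfl fun k _ => by rw [Inv_ca1, div_pow]
  rw [e, show ∑ k, ca q y k ^ 2 = uu q y from rfl]
  field_simp

theorem Inv_zz1 (y : E (q + 3)) : zz q (I1 q y) = zz q y := by
  simp only [zz, Inv_cb1]

theorem Inv_uu2 (y : E (q + 3)) : uu q (I2 q y) = uu q y := by
  simp only [uu, Inv_ca2]

theorem Inv_zz2 {y : E (q + 3)} (hy : 0 < zz q y) : zz q (I2 q y) = (zz q y)⁻¹ := by
  have e : zz q (I2 q y) = (∑ k, cb q y k ^ 2) / zz q y ^ 2 := by
    rw [zz, Finset.sum_div]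
    exact Finset.sum_congr rfl fun k _ => by rw [Inv_cb2, div_pow]
  rw [e, show ∑ k, cb q y k ^ 2 = zz q y from rfl]
  field_simp

theorem Inv_J1 {y : E (q + 3)} (hy : 0 < uu q y) (i k : Fin (q + 3)) :
    fderiv ℝ (I1 q) y (EuclideanSpace.single i 1) k
      = de k i * (al q k / uu q y + be q k) - 2 * ca q y k * ca q y i / uu q y ^ 2 := by
  rw [Inv_fderiv ((contDiffAt_I1 hy).differentiableAt (by simp))]
  have h := ((hp_ca i k y).mul (HP.comp (hasDerivAt_inv hy.ne') (hp_uu i y))).add (hp_cb i k y)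
  have e : (fun x => I1 q x k) = fun x => ca q x k * (uu q x)⁻¹ + cb q x k := by
    funext x
    rw [← div_eq_mul_inv]
    rfl
  rw [e]
  refine (h.congr ?_).2
  field_simp
  ring

theorem Inv_J2 {y : E (q + 3)} (hy : 0 < zz q y) (i k : Fin (q + 3)) :
    fderiv ℝ (I2 q) y (EuclideanSpace.single i 1) k
      = de k i * (al q k + be q k / zz q y) - 2 * cb q y k * cb q y i / zz q y ^ 2 := by
  rw [Inv_fderiv ((contDiffAt_I2 hy).differentiableAt (by simp))]
  have h := (hp_ca i k y).add ((hp_cb i k y).mul (HP.comp (hasDerivAt_inv hy.ne') (hp_zz i y)))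
  have e : (fun x => I2 q x k) = fun x => ca q x k + cb q x k * (zz q x)⁻¹ := by
    funext x
    rw [← div_eq_mul_inv]
    rfl
  rw [e]
  refine (h.congr ?_).2
  field_simp
  ring

/-- the quadratic form of a diagonal matrix on the columns of an inversion Jacobian -/
theorem Inv_diag {n : ℕ} (D e c : Fin n → ℝ) (d u : ℝ) (hu : u ≠ 0) (hc : ∑ k, c k ^ 2 = u)
    (hD : ∀ k, D k * c k = d * c k) (he : ∀ k, e k * c k = c k / u) (i j : Fin n) :
    ∑ k, D k * ((de k i * e k - 2 * c k * c i / u ^ 2) * (de k j * e k - 2 * c k * c j / u ^ 2))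
      = de i j * (D i * e i ^ 2) := by
  have h : ∀ k, D k * ((de k i * e k - 2 * c k * c i / u ^ 2) *
      (de k j * e k - 2 * c k * c j / u ^ 2))
      = de k i * (de k j * (D k * e k ^ 2) - 2 * d * c k * c j / u ^ 3)
        - de k j * (2 * d * c k * c i / u ^ 3) + 4 * d * c i * c j / u ^ 4 * c k ^ 2 := by
    intro k
    have h1 : D k * (e k * c k) = d * c k / u := by
      rw [he, ← mul_div_assoc, hD]
    have h2 : (1 : ℝ) / u ^ 3 = 1 / u ^ 2 * (1 / u) := by field_simp
    have h3 : (1 : ℝ) / u ^ 4 = 1 / u ^ 2 * (1 / u ^ 2) := by field_simp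
    linear_combination (-2 * de k i * c j / u ^ 2 - 2 * de k j * c i / u ^ 2) * h1
      + 4 * c k * c i * c j / u ^ 2 / u ^ 2 * hD k
      + (2 * d * de k i * c k * c j + 2 * d * de k j * c k * c i) * h2
      - 4 * d * c i * c j * c k ^ 2 * h3
  simp only [h]
  rw [Finset.sum_add_distrib, Finset.sum_sub_distrib, sum_de_right, sum_de_right,
    ← Finset.mul_sum, hc]
  field_simp
  ring

theorem inv_I1 (hA : ∀ u, 0 < u → A u⁻¹ = u ^ 2 * A u)
    (hP : ∀ u, 0 < u → A u⁻¹ + B u⁻¹ * u⁻¹ = u ^ 2 * (A u + B u * u))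
    (hC : ∀ u, 0 < u → C u⁻¹ = C u) {y : E (q + 3)} (hy : 0 < uu q y) :
    InvBy (Gm q A B C) (I1 q) y := by
  intro i j
  have hB : B (uu q y)⁻¹ = uu q y ^ 4 * B (uu q y) := by
    have h := hP _ hy
    rw [hA _ hy] at h
    have h2 : B (uu q y)⁻¹ = B (uu q y)⁻¹ * (uu q y)⁻¹ * uu q y := by field_simp
    rw [h2]
    linear_combination uu q y * h
  simp only [Gm, Matrix.of_apply, Inv_J1 hy]
  rw [Inv_sum]
  simp only [Inv_uu1 hy, Inv_zz1, Inv_ca1, hA _ hy, hB, hC _ hy]
  have h1 : ∀ m, ∑ k, ca q y k / uu q y *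
      (de k m * (al q k / uu q y + be q k) - 2 * ca q y k * ca q y m / uu q y ^ 2)
      = -ca q y m / uu q y ^ 2 := by
    intro m
    have h : ∀ k, ca q y k / uu q y *
        (de k m * (al q k / uu q y + be q k) - 2 * ca q y k * ca q y m / uu q y ^ 2)
        = de k m * (ca q y k / uu q y / uu q y)
          - 2 * ca q y m / uu q y ^ 2 / uu q y * ca q y k ^ 2 := by
      intro k
      linear_combination de k m / uu q y / uu q y * al_mul_ca y k + de k m / uu q y * be_mul_ca y k
    simp only [h]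
    rw [Finset.sum_sub_distrib, sum_de_right, ← Finset.mul_sum,
      show ∑ k, ca q y k ^ 2 = uu q y from rfl]
    field_simp
    ring
  rw [h1, h1, Inv_diag _ _ (ca q y) (uu q y ^ 2 * A (uu q y)) (uu q y) hy.ne' rfl]
  · rcases al_cases i with h | h <;> rw [h.1, h.2] <;> field_simp <;> ring
  · intro k
    linear_combination uu q y ^ 2 * A (uu q y) * al_mul_ca y k
      + C (uu q y) * lam (zz q y) * be_mul_ca y k
  · intro k
    linear_combination 1 / uu q y * al_mul_ca y k + be_mul_ca y k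

theorem inv_I2 {y : E (q + 3)} (hy : 0 < zz q y) : InvBy (Gm q A B C) (I2 q) y := by
  intro i j
  have hl : lam (zz q y)⁻¹ = zz q y ^ 2 * lam (zz q y) := by
    unfold lam
    field_simp
    ring
  simp only [Gm, Matrix.of_apply, Inv_J2 hy]
  rw [Inv_sum]
  simp only [Inv_uu2, Inv_zz2 hy, Inv_ca2, hl]
  have h1 : ∀ m, ∑ k, ca q y k *
      (de k m * (al q k + be q k / zz q y) - 2 * cb q y k * cb q y m / zz q y ^ 2)
      = ca q y m := by
    intro m
    rw [← sum_de_right m (ca q y)]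
    refine Finset.sum_congr rfl fun k _ => ?_
    linear_combination de k m * al_mul_ca y k + de k m / zz q y * be_mul_ca y k
      - 2 * cb q y m / zz q y ^ 2 * ca_mul_cb y k
  rw [h1, h1, Inv_diag _ _ (cb q y) (C (uu q y) * (zz q y ^ 2 * lam (zz q y))) (zz q y) hy.ne' rfl]
  · rcases al_cases i with h | h <;> rw [h.1, h.2] <;> field_simp <;> ring
  · intro k
    linear_combination A (uu q y) * al_mul_cb y k
      + C (uu q y) * (zz q y ^ 2 * lam (zz q y)) * be_mul_cb y k
  · intro k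
    linear_combination al_mul_cb y k + 1 / zz q y * be_mul_cb y k

end Vale.Agent.P244A
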