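import Vale.Agent.P244A.Psi

/-! Removing the drift.
Hints. `Ψ` from `exists_psi` for `ξ = S.ξ`; `φ (t, x) = ℓ t * dx Ψ (t, x)`, `h = S.h (t, Ψ)`, `F = S.F (t, Ψ)`.
For `u` differentiable at ` (t, Ψ (t, x))` and `u~ p = u (p.1, Ψ p)`: `L.D u~ (t, x) = S.Ds u (t, Ψ (t, x))` and
`dt u~ (t, x) = S.Dt u (t, Ψ (t, x))` (`hasDerivAt_curve`).  `L.X`, `L.Y` agree with ` (S.X)~`, ` (S.Y)~` on the open
set `Om T` (use `Filter.EventuallyEq.deriv_eq` for the second `D`), so `L.ρi p = S.ρi (t, Ψ p)` on `Om T`.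
`eqφ` from `IsPsi.var` and `eqℓ`; `pole` from `poleη` and `Ψ (t, 0) = 0`; parity of `dx Ψ` by differentiating
`odd`, `refl`. -/

open Set Filter Topology
open scoped ContDiff

noncomputable section

namespace Vale.Agent.P244A

open Vale.Agent.P244

variable {q : ℕ} {T : ℝ} {S : Pre} {Ψ : ℝ × ℝ → ℝ}

/-- the solution without drift -/
def lagOf (S : Pre) (Ψ : ℝ × ℝ → ℝ) : Lg :=
  ⟨fun p => S.ℓ p.1 * dx Ψ p, fun p => S.h (p.1, Ψ p), fun p => S.F (p.1, Ψ p)⟩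

theorem lag_nhds {t x : ℝ} (ht : t ∈ Ioo 0 T) : Ico 0 T ×ˢ (univ : Set ℝ) ∈ 𝓝 (t, x) :=
  prod_mem_nhds (Ico_mem_nhds ht.1 ht.2) univ_mem

theorem lag_nhds' {t x : ℝ} (ht : t ∈ Ioo 0 T) : Ioo 0 T ×ˢ (univ : Set ℝ) ∈ 𝓝 (t, x) :=
  prod_mem_nhds (Ioo_mem_nhds ht.1 ht.2) univ_mem

theorem lag_smℓ (hS : IsSol q T S) {t : ℝ} (ht : t ∈ Ioo 0 T) : ContDiffAt ℝ ∞ S.ℓ t :=
  hS.smℓ.contDiffAt (Ico_mem_nhds ht.1 ht.2)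

theorem lag_smℓ' (hS : IsSol q T S) {t x : ℝ} (ht : t ∈ Ioo 0 T) :
    ContDiffAt ℝ ∞ (fun p : ℝ × ℝ => S.ℓ p.1) (t, x) :=
  (lag_smℓ hS ht).comp (t, x) contDiffAt_fst

theorem lag_smF (hS : IsSol q T S) {t x : ℝ} (ht : t ∈ Ioo 0 T) : ContDiffAt ℝ ∞ S.F (t, x) :=
  hS.smF.contDiffAt (lag_nhds ht)

theorem lag_smh (hS : IsSol q T S) {t x : ℝ} (ht : t ∈ Ioo 0 T) : ContDiffAt ℝ ∞ S.h (t, x) :=
  ((lag_smℓ' hS ht).mul (Real.contDiff_sin.contDiffAt.comp (t, x) contDiffAt_snd)).mul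
    (hS.smη.contDiffAt (lag_nhds ht))

theorem lag_smξ (hS : IsSol q T S) {t x : ℝ} (ht : t ∈ Ioo 0 T) : ContDiffAt ℝ ∞ S.ξ (t, x) :=
  (Real.contDiff_sin.contDiffAt.comp (t, x) contDiffAt_snd).mul (hS.smw.contDiffAt (lag_nhds ht))

theorem lag_posh (hS : IsSol q T S) {t x : ℝ} (ht : t ∈ Ioo 0 T) (hx : x ∈ Ioo 0 Real.pi) :
    0 < S.h (t, x) :=
  mul_pos (mul_pos (hS.posℓ t (Ioo_subset_Ico_self ht)) (Real.sin_pos_of_pos_of_lt_pi hx.1 hx.2))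
    (hS.posη t (Ioo_subset_Ico_self ht) x)

/-- smooth on the open domain -/
def LagSm (T : ℝ) (u : ℝ × ℝ → ℝ) : Prop :=
  ∀ t ∈ Ioo 0 T, ∀ x ∈ Ioo 0 Real.pi, ContDiffAt ℝ ∞ u (t, x)

/-- `v` is `u` read through `Ψ` -/
def LagRel (T : ℝ) (Ψ u v : ℝ × ℝ → ℝ) : Prop :=
  ∀ t ∈ Ioo 0 T, ∀ x ∈ Ioo 0 Real.pi, v (t, x) = u (t, Ψ (t, x))

theorem lag_smG (hS : IsSol q T S) : LagSm T S.G := fun _ ht _ hx =>
  (lag_smh hS ht).log (lag_posh hS ht hx).ne'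

theorem LagSm.ds (hS : IsSol q T S) {u : ℝ × ℝ → ℝ} (hu : LagSm T u) : LagSm T (S.Ds u) :=
  fun t ht x hx => (contDiffAt_dx (hu t ht x hx)).div (lag_smℓ' hS ht)
    (hS.posℓ t (Ioo_subset_Ico_self ht)).ne'

theorem lag_dx {ξ : ℝ × ℝ → ℝ} (hΨ : IsPsi T ξ Ψ) {u : ℝ × ℝ → ℝ} {t x : ℝ} (ht : t ∈ Ioo 0 T)
    (hu : ContDiffAt ℝ ∞ u (t, Ψ (t, x))) :
    HasDerivAt (fun y => u (t, Ψ (t, y))) (dx u (t, Ψ (t, x)) * dx Ψ (t, x)) x := by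
  have h1 : DifferentiableAt ℝ (fun y => u (t, y)) (Ψ (t, x)) :=
    (hu.differentiableAt (by simp)).comp _ ((differentiableAt_const t).prodMk differentiableAt_id)
  exact h1.hasDerivAt.comp x (hasDerivAt_dx isOpen_Ioo hΨ.sm ht x)

theorem LagRel.ds (hS : IsSol q T S) (hΨ : IsPsi T S.ξ Ψ) {u v : ℝ × ℝ → ℝ}
    (h : LagRel T Ψ u v) (hu : LagSm T u) : LagRel T Ψ (S.Ds u) ((lagOf S Ψ).D v) := by
  intro t ht x hx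
  have h1 := lag_dx hΨ ht (hu t ht _ (hΨ.mem ht hx))
  have h2 : (fun y => v (t, y)) =ᶠ[𝓝 x] fun y => u (t, Ψ (t, y)) :=
    eventually_of_mem (Ioo_mem_nhds hx.1 hx.2) fun y hy => h t ht y hy
  have h3 : dx v (t, x) = _ := (h1.congr_of_eventuallyEq h2).deriv
  have h4 := (hΨ.pos t ht x).ne'
  simp only [Lg.D, Pre.Ds, lagOf, h3]
  exact mul_div_mul_right _ _ h4

theorem lag_rho (hS : IsSol q T S) (hΨ : IsPsi T S.ξ Ψ) :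
    LagRel T Ψ (S.ρ0 q) ((lagOf S Ψ).ρ0 q) ∧ LagRel T Ψ (S.ρ1 q) ((lagOf S Ψ).ρ1 q) ∧
      LagRel T Ψ (S.ρ2 q) ((lagOf S Ψ).ρ2 q) := by
  have sF : LagSm T S.F := fun _ ht _ _ => lag_smF hS ht
  have sG := lag_smG hS
  have rF : LagRel T Ψ S.F (lagOf S Ψ).F := fun _ _ _ _ => rfl
  have rh : LagRel T Ψ S.h (lagOf S Ψ).h := fun _ _ _ _ => rfl
  have rG : LagRel T Ψ S.G (lagOf S Ψ).G := fun _ _ _ _ => rfl
  have rX := rF.ds hS hΨ sF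
  have rY := rG.ds hS hΨ sG
  have rX2 := rX.ds hS hΨ (sF.ds hS)
  have rY2 := rY.ds hS hΨ (sG.ds hS)
  refine ⟨fun t ht x hx => ?_, fun t ht x hx => ?_, fun t ht x hx => ?_⟩
  · simp only [Lg.ρ0, Pre.ρ0, Lg.X, Lg.Y, Pre.X, Pre.Y, rX t ht x hx, rY t ht x hx,
      rX2 t ht x hx, rY2 t ht x hx]
  · simp only [Lg.ρ1, Pre.ρ1, Lg.lap, Pre.lap, Pre.H, Lg.X, Lg.Y, Pre.X, Pre.Y, rX t ht x hx,
      rY t ht x hx, rX2 t ht x hx, rF t ht x hx]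
  · simp only [Lg.ρ2, Pre.ρ2, Lg.lap, Pre.lap, Pre.H, Lg.X, Lg.Y, Pre.X, Pre.Y, rX t ht x hx,
      rY t ht x hx, rY2 t ht x hx, rh t ht x hx]

theorem lag_dt (hΨ : IsPsi T S.ξ Ψ) {u : ℝ × ℝ → ℝ} {t x : ℝ} (ht : t ∈ Ioo 0 T)
    (hu : ContDiffAt ℝ ∞ u (t, Ψ (t, x))) :
    dt (fun p => u (p.1, Ψ p)) (t, x) = S.Dt u (t, Ψ (t, x)) := by
  have h := hasDerivAt_curve (γ := fun s => Ψ (s, x)) (hu.differentiableAt (by simp))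
    (hΨ.ode t ht x)
  refine h.deriv.trans ?_
  simp only [Pre.Dt]
  ring

theorem lag_even {ξ : ℝ × ℝ → ℝ} (hΨ : IsPsi T ξ Ψ) {t : ℝ} (ht : t ∈ Ioo 0 T) (x : ℝ) :
    dx Ψ (t, -x) = dx Ψ (t, x) := by
  have h1 := (hasDerivAt_dx isOpen_Ioo hΨ.sm ht (-x)).comp x (hasDerivAt_neg x)
  have h2 := (hasDerivAt_dx isOpen_Ioo hΨ.sm ht x).neg
  have h3 := h1.unique (h2.congr_of_eventuallyEq (Eventually.of_forall fun y => hΨ.odd t ht y))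
  linarith

theorem lag_refl {ξ : ℝ × ℝ → ℝ} (hΨ : IsPsi T ξ Ψ) {t : ℝ} (ht : t ∈ Ioo 0 T) (x : ℝ) :
    dx Ψ (t, Real.pi - x) = dx Ψ (t, x) := by
  have h1 := (hasDerivAt_dx isOpen_Ioo hΨ.sm ht (Real.pi - x)).comp x
    ((hasDerivAt_id x).const_sub Real.pi)
  have h2 := (hasDerivAt_dx isOpen_Ioo hΨ.sm ht x).const_sub Real.pi
  have h3 := h1.unique (h2.congr_of_eventuallyEq (Eventually.of_forall fun y => hΨ.refl t ht y))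
  linarith

theorem lag_pole (hS : IsSol q T S) {t : ℝ} (ht : t ∈ Ioo 0 T) : dx S.h (t, 0) = S.ℓ t := by
  have h1 : HasDerivAt (fun x => S.η (t, x)) (dx S.η (t, 0)) 0 :=
    hasDerivAt_dx isOpen_Ioo (hS.smη.mono (prod_mono Ioo_subset_Ico_self subset_rfl)) ht 0
  have h2 := ((Real.hasDerivAt_sin 0).const_mul (S.ℓ t)).mul h1
  refine h2.deriv.trans ?_
  simp [hS.poleη t (Ioo_subset_Ico_self ht)]

theorem lag_isLag (hS : IsSol q T S) (hΨ : IsPsi T S.ξ Ψ) : IsLag q T (lagOf S Ψ) := by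
  have sm : ∀ t ∈ Ioo 0 T, ∀ x, ContDiffAt ℝ ∞ Ψ (t, x) := fun t ht x =>
    hΨ.sm.contDiffAt (lag_nhds' ht)
  obtain ⟨r0, r1, r2⟩ := lag_rho hS hΨ
  refine ⟨fun ⟨t, x⟩ hp => ?_, fun ⟨t, x⟩ hp => ?_, fun ⟨t, x⟩ hp => ?_, fun t ht x => ?_,
    fun ⟨t, x⟩ hp => ?_, fun t ht => ?_, fun t ht x => ?_, fun t ht x => ?_, fun t ht x => ?_,
    fun t ht x => ?_, fun t ht x => ?_, fun t ht x => ?_, fun ⟨t, x⟩ hp => ?_,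
    fun ⟨t, x⟩ hp => ?_, fun ⟨t, x⟩ hp => ?_⟩
  · exact ((lag_smℓ' hS hp.1).mul (contDiffAt_dx (sm t hp.1 x))).contDiffWithinAt
  · exact ((lag_smh hS hp.1).comp (t, x) (contDiffAt_fst.prodMk (sm t hp.1 x))).contDiffWithinAt
  · exact ((lag_smF hS hp.1).comp (t, x) (contDiffAt_fst.prodMk (sm t hp.1 x))).contDiffWithinAt
  · exact mul_pos (hS.posℓ t (Ioo_subset_Ico_self ht)) (hΨ.pos t ht x)
  · exact lag_posh hS hp.1 (hΨ.mem hp.1 hp.2)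
  · have h0 : Ψ (t, 0) = 0 := by
      have := hΨ.odd t ht 0
      rw [neg_zero] at this
      linarith
    refine (lag_dx hΨ ht (x := 0) (lag_smh hS ht)).deriv.trans ?_
    rw [h0, lag_pole hS ht]
    rfl
  · simp only [lagOf, lag_even hΨ ht]
  · simp only [lagOf, hΨ.odd t ht, Pre.h, Real.sin_neg, hS.evenη]
    ring
  · simp only [lagOf, hΨ.odd t ht, hS.evenF]
  · simp only [lagOf, lag_refl hΨ ht]
  · simp only [lagOf, hΨ.refl t ht, Pre.h, Real.sin_pi_sub, hS.reflη]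
  · simp only [lagOf, hΨ.refl t ht, hS.reflF]
  · have h1 := ((lag_smℓ hS hp.1).differentiableAt (by simp)).hasDerivAt.mul (hΨ.var t hp.1 x)
    refine h1.deriv.trans ?_
    have h2 := (hS.posℓ t (Ioo_subset_Ico_self hp.1)).ne'
    rw [r0 t hp.1 x hp.2, ← hS.eqℓ (t, Ψ (t, x)) ⟨hp.1, hΨ.mem hp.1 hp.2⟩]
    simp only [lagOf]
    field_simp
    ring
  · rw [r1 t hp.1 x hp.2, ← hS.eqF (t, Ψ (t, x)) ⟨hp.1, hΨ.mem hp.1 hp.2⟩]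
    exact lag_dt hΨ hp.1 (lag_smF hS hp.1)
  · rw [r2 t hp.1 x hp.2, ← hS.eqG (t, Ψ (t, x)) ⟨hp.1, hΨ.mem hp.1 hp.2⟩]
    exact lag_dt hΨ hp.1 (lag_smG hS t hp.1 _ (hΨ.mem hp.1 hp.2))

theorem exists_lag {q : ℕ} {T : ℝ} {S : Pre} (hT : 0 < T) (hS : IsSol q T S) :
    ∃ L : Lg, IsLag q T L ∧ ∀ t ∈ Ioo 0 T,
      (∀ x ∈ Ioo 0 Real.pi, ∃ x' ∈ Ioo 0 Real.pi, L.R q (t, x) = S.R q (t, x')) ∧
      ∀ x' ∈ Ioo 0 Real.pi, ∃ x ∈ Ioo 0 Real.pi, L.F (t, x) = S.F (t, x') := by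
  obtain ⟨Ψ, hΨ⟩ := exists_psi hT (ξ := S.ξ)
    (fun ⟨t, x⟩ hp => (lag_smξ hS hp.1).contDiffWithinAt)
    (fun t x => by simp [Pre.ξ, hS.evenw]) (fun t x => by simp [Pre.ξ, hS.reflw])
  obtain ⟨r0, r1, r2⟩ := lag_rho hS hΨ
  refine ⟨lagOf S Ψ, lag_isLag hS hΨ, fun t ht => ⟨fun x hx => ⟨_, hΨ.mem ht hx, ?_⟩,
    fun x' hx => ?_⟩⟩
  · simp only [Lg.R, Pre.R, r0 t ht x hx, r1 t ht x hx, r2 t ht x hx]
  · obtain ⟨x, h1, h2⟩ := hΨ.surj ht hx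
    exact ⟨x, h1, by rw [← h2]; rfl⟩

end Vale.Agent.P244A
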