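import Vale.Agent.P244A.RicX1

/-! The Ricci tensor of a connection of the shape `Gam`. -/

open Set Filter Topology
open scoped ContDiff

noncomputable section

namespace Vale.Agent.P244A

open Vale.Agent.P244

/-- the block data of a point -/
def blk (q : ℕ) (y : E (q + 3)) : Blk (q + 3) where
  α := al q
  β := be q
  a := ca q y
  b := cb q y
  N := q + 1
  u := uu q y
  z := zz q y
  hc i := by
    rcases al_cases i with h | h
    · exact Or.inl ⟨h.1, h.2, by simp [cb, h.2]⟩
    · exact Or.inr ⟨h.1, h.2, by simp [ca, h.1]⟩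
  hN := sum_al
  h2 := sum_be
  hu := rfl
  hz := rfl

theorem Gam_eq {q : ℕ} (p c s t r : ℝ → ℝ) (k i j : Fin (q + 3)) (y : E (q + 3)) :
    Gam q p c s t r k i j y = (blk q y).Γ (p (uu q y)) (c (uu q y)) (s (uu q y)) (t (uu q y))
      (r (uu q y) * lam (zz q y)) (mm (zz q y)) k i j := rfl

theorem hp_Gam {q : ℕ} {y : E (q + 3)} {p c s t r : ℝ → ℝ} {p' c' s' t' r' : ℝ}
    (hp : HasDerivAt p p' (uu q y)) (hc : HasDerivAt c c' (uu q y))
    (hs : HasDerivAt s s' (uu q y)) (ht : HasDerivAt t t' (uu q y))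
    (hr : HasDerivAt r r' (uu q y)) (e k i j : Fin (q + 3)) :
    HP e (Gam q p c s t r k i j) y ((blk q y).dΓ (p (uu q y)) (c (uu q y)) (s (uu q y))
      (t (uu q y)) (r (uu q y) * lam (zz q y)) (mm (zz q y)) p' c' s' t' (r' * lam (zz q y))
      (r (uu q y) * (mm (zz q y) * lam (zz q y))) (2 / (1 + zz q y) ^ 2) e k i j) := by
  have Hp := HP.comp hp (hp_uu e y)
  have Hc := HP.comp hc (hp_uu e y)
  have Hs := HP.comp hs (hp_uu e y)
  have Ht := HP.comp ht (hp_uu e y)
  have Hr := HP.comp hr (hp_uu e y)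
  have Hm := HP.comp (hasDerivAt_mm (zz_nonneg y)) (hp_zz e y)
  have Hl := HP.comp (hasDerivAt_lam (zz_nonneg y)) (hp_zz e y)
  have HX := fun l => (((Hp.mul_const (al q k)).add (Hc.mul_const (be q k))).mul
    (hp_ca e l y)).add ((Hm.mul_const (be q k)).mul (hp_cb e l y))
  have H := ((((HX i).const_mul (de j k)).add ((HX j).const_mul (de i k))).sub
    ((Hm.const_mul (de i j * be q i)).mul (hp_cb e k y))).add ((hp_ca e k y).mul
      (((Hs.mul (hp_ca e i y)).mul (hp_ca e j y)).add
        (((Ht.mul_const (al q i)).sub ((Hr.mul Hl).mul_const (be q i))).const_mul (de i j))))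
  refine HP.congr (f := Gam q p c s t r k i j) H ?_
  simp only [Blk.dΓ, Blk.dX, Blk.W, blk]
  ring

theorem ricci_Gam {q : ℕ} {G : Tensor (q + 3)} {y : E (q + 3)} {p c s t r : ℝ → ℝ}
    {p' c' s' t' r' u τ : ℝ} (hu : u = uu q y) (hp : HasDerivAt p p' u) (hc : HasDerivAt c c' u)
    (hs : HasDerivAt s s' u) (ht : HasDerivAt t t' u) (hr : HasDerivAt r r' u)
    (hτ : τ = (q + 2) * p u + 2 * c u + s u * u + t u)
    (hG : ∀ᶠ w in 𝓝 y, ∀ k i j, chris G k i j w = Gam q p c s t r k i j w) (i j : Fin (q + 3)) :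
    ricci G i j y = de i j *
        ((2 * p u + (q + 1) * t u + 2 * u * t' - τ + τ * u * t u - 2 * u * p u * t u) * al q i
          + (1 - ((q + 1) * r u + 2 * u * r' + τ * u * r u - 2 * u * c u * r u))
            * lam (zz q y) * be q i)
      + (-2 * q * p' - 4 * c' - 2 * t' + (q + 1) * s u + 2 * τ * p u + τ * u * s u
          - ((q + 4) * p u ^ 2 + 2 * c u ^ 2 + 2 * p u * (s u * u + t u) + 2 * u * p u * s u
            + (s u * u + t u) ^ 2)) * (ca q y i * ca q y j) := by
  subst hu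
  have hev : ∀ k i j, chris G k i j =ᶠ[𝓝 y] Gam q p c s t r k i j := fun k i j =>
    hG.mono fun w hw => hw k i j
  have hpd := fun e k i j => ((hp_Gam hp hc hs ht hr e k i j).of_ev (hev k i j)).2
  have hv := fun k i j => (hG.self_of_nhds k i j).trans (Gam_eq p c s t r k i j y)
  unfold ricci
  simp only [hpd, hv, Finset.sum_add_distrib, Finset.sum_sub_distrib, Blk.S1, Blk.S2, Blk.S3,
    Blk.S4]
  have h1 : (1 + zz q y) ≠ 0 := by
    have := zz_nonneg y
    positivity
  have hl : lam (zz q y) = -2 * (2 / (1 + zz q y) ^ 2 * zz q y + mm (zz q y)) := by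
    unfold lam mm
    field_simp
    ring
  subst hτ
  simp only [Blk.W, blk]
  linear_combination (-(de i j * be q i)) * hl

end Vale.Agent.P244A
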