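import Vale.Agent.P244A.Chris
import Vale.Agent.P244A.Ric

/-! Ricci and scalar curvature of `Gm` away from the pole.
Hints. On ` (0, ∞)`: `A = exp (2 g) / u`, `B = (P - A) / u`, `C = exp (2 f) / (q - 1)`.  Apply `ricci_Gam` with
`p = 2 g' - 1 / u`, `c = 2 f'`, `t = 1 / u - 2 g' exp (2 g) / (u P)`, `s = (P' / P - 2 p - t) / u`,
`r = 2 f' exp (2 f) / ((q - 1) P)` (the hypothesis `hG` from `chris_Gm` at all `w` with `0 < uu q w`), then
`Real.exp_neg`, `field_simp`, `ring` for the three coefficients.  `scal_Gm` from `inv_Gm`, `sum_al`, `sum_be`. -/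

open Set Filter Topology
open scoped ContDiff

noncomputable section

namespace Vale.Agent.P244A

open Vale.Agent.P244

variable {q : ℕ} {A B C P f g : ℝ → ℝ} {y : E (q + 3)}

theorem RicGm_d {K : ℝ → ℝ} (h : ContDiffOn ℝ ∞ K (Ioi 0)) {u : ℝ} (hu : 0 < u) :
    HasDerivAt K (deriv K u) u ∧ HasDerivAt (deriv K) (deriv (deriv K) u) u := by
  have h1 := (contDiffOn_infty_iff_deriv_of_isOpen isOpen_Ioi).1 h
  have h2 := (contDiffOn_infty_iff_deriv_of_isOpen isOpen_Ioi).1 h1.2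
  exact ⟨(h1.1.differentiableAt (Ioi_mem_nhds hu)).hasDerivAt,
    (h2.1.differentiableAt (Ioi_mem_nhds hu)).hasDerivAt⟩

theorem RicGm_exp {K : ℝ → ℝ} {d u : ℝ} (h : HasDerivAt K d u) :
    HasDerivAt (fun v => Real.exp (2 * K v)) (Real.exp (2 * K u) * (2 * d)) u :=
  (h.const_mul 2).exp

def RicGm_p (g : ℝ → ℝ) (v : ℝ) : ℝ := 2 * deriv g v - 1 / v
def RicGm_c (f : ℝ → ℝ) (v : ℝ) : ℝ := 2 * deriv f v
def RicGm_t (P g : ℝ → ℝ) (v : ℝ) : ℝ := 1 / v - 2 * deriv g v * Real.exp (2 * g v) / (v * P v)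
def RicGm_s (P g : ℝ → ℝ) (v : ℝ) : ℝ := (deriv P v / P v - 2 * RicGm_p g v - RicGm_t P g v) / v
def RicGm_r (q : ℕ) (P f : ℝ → ℝ) (v : ℝ) : ℝ :=
  2 * deriv f v * Real.exp (2 * f v) / ((q - 1) * P v)

theorem RicGm_q (hq : 2 ≤ q) : (0 : ℝ) < q - 1 := by
  have : (2 : ℝ) ≤ q := by exact_mod_cast hq
  linarith

theorem RicGm_A (hA : ∀ u, 0 < u → A u * u = Real.exp (2 * g u)) {u : ℝ} (hu : 0 < u) :
    A u = Real.exp (2 * g u) / u := by
  rw [← hA u hu, mul_div_cancel_right₀ _ hu.ne']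

theorem RicGm_B (hA : ∀ u, 0 < u → A u * u = Real.exp (2 * g u))
    (hB : ∀ u, 0 < u → A u + B u * u = P u) {u : ℝ} (hu : 0 < u) :
    B u = (P u - Real.exp (2 * g u) / u) / u := by
  rw [← RicGm_A hA hu, ← hB u hu, add_sub_cancel_left, mul_div_cancel_right₀ _ hu.ne']

theorem RicGm_chris (hq : 2 ≤ q) (sP : ContDiffOn ℝ ∞ P (Ioi 0)) (sf : ContDiffOn ℝ ∞ f (Ioi 0))
    (sg : ContDiffOn ℝ ∞ g (Ioi 0)) (hP : ∀ u, 0 < u → 0 < P u)
    (hA : ∀ u, 0 < u → A u * u = Real.exp (2 * g u)) (hB : ∀ u, 0 < u → A u + B u * u = P u)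
    (hC : ∀ u, 0 < u → C u = Real.exp (2 * f u) / (q - 1)) (hy : 0 < uu q y) (k i j : Fin (q + 3)) :
    chris (Gm q A B C) k i j y =
      Gam q (RicGm_p g) (RicGm_c f) (RicGm_s P g) (RicGm_t P g) (RicGm_r q P f) k i j y := by
  have hq' := RicGm_q hq
  have hP0 := hP _ hy
  have hev : ∀ᶠ v in 𝓝 (uu q y), 0 < v := Ioi_mem_nhds hy
  have dA0 := (RicGm_exp (RicGm_d sg hy).1).div (hasDerivAt_id' (uu q y)) hy.ne'
  have dA := dA0.congr_of_eventuallyEq (f₁ := A) (hev.mono fun v hv => RicGm_A hA hv)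
  have dB := (((RicGm_d sP hy).1.sub dA0).div (hasDerivAt_id' (uu q y)) hy.ne').congr_of_eventuallyEq
    (f₁ := B) (hev.mono fun v hv => RicGm_B hA hB hv)
  have dC := ((RicGm_exp (RicGm_d sf hy).1).div_const ((q : ℝ) - 1)).congr_of_eventuallyEq
    (f₁ := C) (hev.mono fun v hv => hC v hv)
  have eg := Real.exp_pos (2 * g (uu q y))
  have ef := Real.exp_pos (2 * f (uu q y))
  refine chris_Gm dA dB dC ?_ ?_ ?_ ?_ ?_ ?_ ?_ ?_ k i j
  · rw [RicGm_A hA hy]; positivity
  · rw [hB _ hy]; exact hP0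
  · rw [hC _ hy]; positivity
  · rw [RicGm_A hA hy, RicGm_p]
    field_simp
  · rw [hC _ hy, RicGm_c]
    field_simp
  · rw [hB _ hy, RicGm_B hA hB hy, RicGm_A hA hy, RicGm_s, RicGm_p, RicGm_t]
    simp only [Pi.sub_apply, Pi.div_apply]
    field_simp
    ring
  · rw [hB _ hy, RicGm_B hA hB hy, RicGm_t]
    field_simp
    ring
  · rw [hB _ hy, RicGm_r]
    field_simp

theorem ricci_Gm (hq : 2 ≤ q) (sP : ContDiffOn ℝ ∞ P (Ioi 0)) (sf : ContDiffOn ℝ ∞ f (Ioi 0))
    (sg : ContDiffOn ℝ ∞ g (Ioi 0)) (hP : ∀ u, 0 < u → 0 < P u)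
    (hA : ∀ u, 0 < u → A u * u = Real.exp (2 * g u)) (hB : ∀ u, 0 < u → A u + B u * u = P u)
    (hC : ∀ u, 0 < u → C u = Real.exp (2 * f u) / (q - 1)) (hy : 0 < uu q y) (i j : Fin (q + 3)) :
    ricci (Gm q A B C) i j y = de i j * (A (uu q y) * r2 q P f g (uu q y) * al q i
        + C (uu q y) * r1 q P f g (uu q y) * lam (zz q y) * be q i)
      + (P (uu q y) * r0 q P f g (uu q y) - A (uu q y) * r2 q P f g (uu q y)) / uu q y
        * (ca q y i * ca q y j) := by
  have hq' := RicGm_q hq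
  have hP0 := hP _ hy
  have dP := RicGm_d sP hy
  have df := RicGm_d sf hy
  have dg := RicGm_d sg hy
  have di : HasDerivAt (fun v : ℝ => 1 / v) (-1 / uu q y ^ 2) (uu q y) :=
    ((hasDerivAt_const _ (1 : ℝ)).div (hasDerivAt_id' (uu q y)) hy.ne').congr_deriv (by simp)
  have dp : HasDerivAt (RicGm_p g) _ (uu q y) := (dg.2.const_mul 2).sub di
  have dc : HasDerivAt (RicGm_c f) _ (uu q y) := df.2.const_mul 2
  have dt : HasDerivAt (RicGm_t P g) _ (uu q y) :=
    di.sub (((dg.2.const_mul 2).mul (RicGm_exp dg.1)).div ((hasDerivAt_id' (uu q y)).mul dP.1)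
      (mul_pos hy hP0).ne')
  have ds : HasDerivAt (RicGm_s P g) _ (uu q y) :=
    (((dP.2.div dP.1 hP0.ne').sub (dp.const_mul 2)).sub dt).div (hasDerivAt_id' (uu q y)) hy.ne'
  have dr : HasDerivAt (RicGm_r q P f) _ (uu q y) :=
    ((df.2.const_mul 2).mul (RicGm_exp df.1)).div (dP.1.const_mul ((q : ℝ) - 1))
      (mul_pos hq' hP0).ne'
  have hev : ∀ᶠ w in 𝓝 y, 0 < uu q w :=
    (isOpen_lt continuous_const contDiff_uu.continuous).mem_nhds hy
  rw [ricci_Gam rfl dp dc ds dt dr rfl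
    (hev.mono fun w hw => RicGm_chris hq sP sf sg hP hA hB hC hw) i j, RicGm_A hA hy, hC _ hy]
  have eg := Real.exp_pos (2 * g (uu q y))
  have ef := Real.exp_pos (2 * f (uu q y))
  simp only [RicGm_s, RicGm_p, RicGm_c, RicGm_t, RicGm_r, r0, r1, r2, dd, gr, neg_mul, Real.exp_neg,
    Pi.mul_apply]
  generalize Real.exp (2 * g (uu q y)) = a at eg
  generalize Real.exp (2 * f (uu q y)) = b at ef
  generalize deriv (deriv g) (uu q y) = g2
  generalize deriv (deriv f) (uu q y) = f2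
  generalize deriv g (uu q y) = g1
  generalize deriv f (uu q y) = f1
  generalize deriv P (uu q y) = P1
  generalize P (uu q y) = P0 at hP0
  generalize uu q y = u at hy
  congr 2
  · congr 2
    · field_simp
      ring
    · congr 1
      field_simp
      ring
  · field_simp
    ring

theorem scal_Gm (hq : 2 ≤ q) (sP : ContDiffOn ℝ ∞ P (Ioi 0)) (sf : ContDiffOn ℝ ∞ f (Ioi 0))
    (sg : ContDiffOn ℝ ∞ g (Ioi 0)) (hP : ∀ u, 0 < u → 0 < P u)
    (hA : ∀ u, 0 < u → A u * u = Real.exp (2 * g u)) (hB : ∀ u, 0 < u → A u + B u * u = P u)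
    (hC : ∀ u, 0 < u → C u = Real.exp (2 * f u) / (q - 1)) (hy : 0 < uu q y) :
    scal (Gm q A B C) y =
      r0 q P f g (uu q y) + 2 * r1 q P f g (uu q y) + q * r2 q P f g (uu q y) := by
  have hq' := RicGm_q hq
  have hP0 := hP _ hy
  have hA0 : 0 < A (uu q y) := by rw [RicGm_A hA hy]; positivity
  have hC0 : 0 < C (uu q y) := by rw [hC _ hy]; positivity
  have hl := lam_pos (zz_nonneg (q := q) y)
  have hPe := hB _ hy
  simp only [scal, inv_Gm hA0 (hPe ▸ hP0) hC0, ricci_Gm hq sP sf sg hP hA hB hC hy, hPe]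
  generalize r0 q P f g (uu q y) = R0
  generalize r1 q P f g (uu q y) = R1
  generalize r2 q P f g (uu q y) = R2
  generalize lam (zz q y) = l at hl
  generalize A (uu q y) = a at hA0 hPe
  generalize B (uu q y) = b at hPe
  generalize C (uu q y) = c at hC0
  generalize P (uu q y) = p at hP0 hPe
  have hu : ∑ j, ca q y j * ca q y j = uu q y := by simp only [uu, sq]
  have h1 : ∀ i, ∑ j, (de i j * (al q i / a + be q i / (c * l)) - b / (a * p) * (ca q y i * ca q y j)) *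
      (de i j * (a * R2 * al q i + c * R1 * l * be q i) +
        (p * R0 - a * R2) / uu q y * (ca q y i * ca q y j)) =
      R2 * al q i + R1 * be q i + ((p * R0 - a * R2) / uu q y / a - b / p * R2
        - b / (a * p) * (p * R0 - a * R2)) * (ca q y i * ca q y i) := by
    intro i
    have h2 : ∀ j, (de i j * (al q i / a + be q i / (c * l)) - b / (a * p) * (ca q y i * ca q y j)) *
        (de i j * (a * R2 * al q i + c * R1 * l * be q i) +
          (p * R0 - a * R2) / uu q y * (ca q y i * ca q y j)) =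
        de i j * (R2 * al q i + R1 * be q i + ((p * R0 - a * R2) / uu q y / a - b / p * R2)
          * (ca q y i * ca q y i)) - b / (a * p) * ((p * R0 - a * R2) / uu q y) *
            (ca q y i * ca q y i) * (ca q y j * ca q y j) := by
      intro j
      unfold de
      split_ifs with h
      · subst h
        unfold ca
        rcases al_cases i with h | h <;> rw [h.1, h.2] <;> field_simp <;> ring
      · ring
    simp only [h2, Finset.sum_sub_distrib, ← Finset.mul_sum, hu]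
    rw [← Finset.sum_mul]
    have h3 : ∑ j, de i j = 1 := by simpa using sum_de_left i fun _ => (1 : ℝ)
    rw [h3]
    field_simp
    ring
  simp only [h1, Finset.sum_add_distrib, ← Finset.mul_sum, hu, sum_al, sum_be]
  subst hPe
  field_simp
  ring

end Vale.Agent.P244A
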