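import Vale.Agent.P244A.Lag
import Vale.Agent.P244A.Coef
import Vale.Agent.P244A.Atlas
import Vale.Agent.P244A.Inv
import Vale.Agent.P244A.RicGm
import Vale.Agent.P244A.Cont

/-! Step A: from a solution of the reduced flow to a Ricci flow on a closed manifold. -/

open Set Filter Topology
open scoped ContDiff Manifold

noncomputable section

namespace Vale.Agent.P244A

open Vale.Agent.P244

/-- the metric at time `t` in each of the four charts -/
def Gt (q : ℕ) (A B C : ℝ × ℝ → ℝ) (t : ℝ) : Tensor (q + 3) :=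
  Gm q (fun u => A (t, u)) (fun u => B (t, u)) (fun u => C (t, u))

variable {q : ℕ} {T : ℝ} {L : Lg} {A B C : ℝ × ℝ → ℝ}

theorem q_pos (hq : 2 ≤ q) : (1 : ℝ) ≤ (q : ℝ) - 1 := by
  have : (2 : ℝ) ≤ q := by exact_mod_cast hq
  linarith

theorem Gt_smooth (hc : IsCo q T L A B C) (i j : Fin (q + 3)) :
    ContDiffOn ℝ ∞ (fun p : ℝ × E (q + 3) => Gt q A B C p.1 p.2 i j) (Ioo 0 T ×ˢ univ) := by
  have hm : ContDiff ℝ ∞ fun p : ℝ × E (q + 3) => (p.1, uu q p.2) :=
    contDiff_fst.prodMk (contDiff_uu.comp contDiff_snd)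
  have hmaps : MapsTo (fun p : ℝ × E (q + 3) => (p.1, uu q p.2)) (Ioo 0 T ×ˢ univ)
      (Ioo 0 T ×ˢ Ici 0) := fun p hp => ⟨hp.1, uu_nonneg _⟩
  have hA := hc.smA.comp hm.contDiffOn hmaps
  have hB := hc.smB.comp hm.contDiffOn hmaps
  have hC := hc.smC.comp hm.contDiffOn hmaps
  exact (contDiffOn_const.mul ((hA.mul contDiffOn_const).add
    ((hC.mul (contDiff_lam.comp contDiff_snd).contDiffOn).mul contDiffOn_const))).add
    (hB.mul (((contDiff_ca i).comp contDiff_snd).mul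
      ((contDiff_ca j).comp contDiff_snd)).contDiffOn)

theorem Gt_smooth' (hc : IsCo q T L A B C) {t : ℝ} (ht : t ∈ Ioo 0 T) (i j : Fin (q + 3)) :
    ContDiff ℝ ∞ fun y => Gt q A B C t y i j :=
  (Gt_smooth hc i j).comp_contDiff (contDiff_const.prodMk contDiff_id) fun _ => ⟨ht, trivial⟩

theorem posC (hq : 2 ≤ q) (hc : IsCo q T L A B C) {t : ℝ} (ht : t ∈ Ioo 0 T) {u : ℝ}
    (hu : 0 ≤ u) : 0 < C (t, u) := by
  rw [hc.eqC t ht u hu]
  exact div_pos (Real.exp_pos _) (by linarith [q_pos hq])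

theorem Gt_posDef (hq : 2 ≤ q) (hL : IsLag q T L) (hc : IsCo q T L A B C) {t : ℝ}
    (ht : t ∈ Ioo 0 T) (y : E (q + 3)) : (Gt q A B C t y).PosDef :=
  posDef_Gm (hc.posA t ht _ (uu_nonneg y))
    (by rw [hc.eqP t ht _ (uu_nonneg y)]; exact hL.posPu ht (uu_nonneg y))
    (posC hq hc ht (uu_nonneg y))

theorem eqA' (hL : IsLag q T L) (hc : IsCo q T L A B C) {t : ℝ} (ht : t ∈ Ioo 0 T) (u : ℝ)
    (hu : 0 < u) : A (t, u) * u = Real.exp (2 * L.gu t u) := by
  have h := hL.posh (t, xu u) ⟨ht, xu_mem hu⟩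
  rw [hc.eqA t ht u hu, Lg.gu, Lg.G, mul_comm, Real.exp_mul, Real.exp_log h]
  exact (Real.rpow_two _).symm

theorem Gt_inv1 (hL : IsLag q T L) (hc : IsCo q T L A B C) {t : ℝ} (ht : t ∈ Ioo 0 T)
    (y : E (q + 3)) (hy : 0 < uu q y) : InvBy (Gt q A B C t) (I1 q) y := by
  refine inv_I1 (fun u hu => ?_) (fun u hu => ?_) (fun u hu => ?_) hy
  · have h1 := hc.eqA t ht u hu
    have h2 := hc.eqA t ht u⁻¹ (inv_pos.2 hu)
    rw [xu_inv hu, hL.reflh t ht, ← h1] at h2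
    have h3 : A (t, u⁻¹) = A (t, u⁻¹) * u⁻¹ * u := by field_simp
    rw [h3, h2]; ring
  · rw [hc.eqP t ht u hu.le, hc.eqP t ht u⁻¹ (inv_pos.2 hu).le, Lg.Pu, Lg.Pu, xu_inv hu,
      hL.reflφ t ht]
    field_simp
    ring
  · rw [hc.eqC t ht u hu.le, hc.eqC t ht u⁻¹ (inv_pos.2 hu).le, Lg.fu, Lg.fu, xu_inv hu,
      hL.reflF t ht]

theorem Gt_flow0 (hq : 2 ≤ q) (hL : IsLag q T L) (hc : IsCo q T L A B C) {t : ℝ}
    (ht : t ∈ Ioo 0 T) {y : E (q + 3)} (hy : 0 < uu q y) (i j : Fin (q + 3)) :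
    HasDerivAt (fun s => Gt q A B C s y i j) (-2 * ricci (Gt q A B C t) i j y) t := by
  have hR := ricci_Gm hq (hL.smPu ht) (hL.smfu ht) (hL.smgu ht) (fun u hu => hL.posPu ht hu.le)
    (A := fun u => A (t, u)) (B := fun u => B (t, u)) (C := fun u => C (t, u))
    (eqA' hL hc ht) (fun u hu => hc.eqP t ht u hu.le) (fun u hu => hc.eqC t ht u hu.le) hy i j
  obtain ⟨b0, b1, b2⟩ := bridge hL ht hy
  rw [← b0, ← b1, ← b2] at hR
  set u := uu q y with hu
  have hp : (t, xu u) ∈ Om T := ⟨ht, xu_mem hy⟩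
  have hn : Ioo 0 T ∈ 𝓝 t := isOpen_Ioo.mem_nhds ht
  have dφ := hasDerivAt_dt isOpen_Ioo hL.smφ ht (xu u)
  have dF := hasDerivAt_dt isOpen_Ioo hL.smF ht (xu u)
  have dh := hasDerivAt_dt isOpen_Ioo hL.smh ht (xu u)
  have dG0 := dh.log (hL.posh _ hp).ne'
  have dG : HasDerivAt (fun s => L.gu s u) (dt L.G (t, xu u)) t :=
    dG0.differentiableAt.hasDerivAt
  rw [hL.eqφ _ hp] at dφ
  rw [hL.eqF _ hp] at dF
  rw [hL.eqG _ hp] at dG
  have dA : HasDerivAt (fun s => A (s, u)) (-2 * (A (t, u) * L.ρ2 q (t, xu u))) t := by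
    have h := ((dG.const_mul 2).exp).div_const u
    refine (h.congr_of_eventuallyEq ?_).congr_deriv ?_
    · filter_upwards [hn] with s hs
      rw [← eqA' hL hc hs u hy]
      field_simp
    · rw [← eqA' hL hc ht u hy]
      field_simp
  have dP : HasDerivAt (fun s => L.Pu s u) (-2 * (L.Pu t u * L.ρ0 q (t, xu u))) t := by
    have h := ((dφ.pow 2).const_mul 4).div_const ((1 + u) ^ 2)
    refine HasDerivAt.congr_deriv (f := fun s => L.Pu s u) h ?_
    simp only [Lg.Pu]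
    field_simp
    ring
  have dC : HasDerivAt (fun s => C (s, u)) (-2 * (C (t, u) * L.ρ1 q (t, xu u))) t := by
    have h := ((dF.const_mul 2).exp).div_const ((q : ℝ) - 1)
    refine (h.congr_of_eventuallyEq ?_).congr_deriv ?_
    · filter_upwards [hn] with s hs
      rw [hc.eqC s hs u hy.le]
      rfl
    · rw [hc.eqC t ht u hy.le, Lg.fu]
      ring
  have dB : HasDerivAt (fun s => B (s, u))
      (-2 * ((L.Pu t u * L.ρ0 q (t, xu u) - A (t, u) * L.ρ2 q (t, xu u)) / u)) t := by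
    have h := (dP.sub dA).div_const u
    refine (h.congr_of_eventuallyEq ?_).congr_deriv ?_
    · filter_upwards [hn] with s hs
      simp only [Pi.sub_apply]
      rw [← hc.eqP s hs u hy.le]
      field_simp
      ring
    · ring
  have h := (((dA.mul_const (al q i)).add ((dC.mul_const (lam (zz q y))).mul_const
    (be q i))).const_mul (de i j)).add (dB.mul_const (ca q y i * ca q y j))
  refine HasDerivAt.congr_deriv (f := fun s => Gt q A B C s y i j) h ?_
  rw [Gt, hR]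
  ring

theorem Gt_scal (hq : 2 ≤ q) (hL : IsLag q T L) (hc : IsCo q T L A B C) {t : ℝ}
    (ht : t ∈ Ioo 0 T) {y : E (q + 3)} (hy : 0 < uu q y) :
    scal (Gt q A B C t) y = L.R q (t, xu (uu q y)) := by
  obtain ⟨b0, b1, b2⟩ := bridge hL ht hy
  rw [Lg.R, b0, b1, b2]
  exact scal_Gm hq (hL.smPu ht) (hL.smfu ht) (hL.smgu ht) (fun u hu => hL.posPu ht hu.le)
    (eqA' hL hc ht) (fun u hu => hc.eqP t ht u hu.le) (fun u hu => hc.eqC t ht u hu.le) hy

/-- a point of the unit ball at which the last diagonal coefficient is `4 C` -/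
theorem exists_point (hL : IsLag q T L) (hc : IsCo q T L A B C) {t x : ℝ} (ht : t ∈ Ioo 0 T)
    (hx : x ∈ Ioo 0 Real.pi) : ∃ y ∈ Metric.closedBall (0 : E (q + 3)) 1,
      Gt q A B C t y (Fin.last _) (Fin.last _) = 4 * (Real.exp (2 * L.F (t, x)) / (q - 1)) := by
  obtain ⟨u, h0, h1, h2⟩ : ∃ u, 0 < u ∧ u ≤ 1 ∧ L.F (t, xu u) = L.F (t, x) := by
    rcases le_total x (Real.pi / 2) with h | h
    · obtain ⟨u, a, b, c⟩ := xu_surj hx.1 h
      exact ⟨u, a, b, by rw [c]⟩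
    · obtain ⟨u, a, b, c⟩ := xu_surj (x := Real.pi - x) (by linarith [hx.2]) (by linarith)
      exact ⟨u, a, b, by rw [c, hL.reflF t ht]⟩
  have a0 : al q 0 = 1 := by simp [al]
  have b0 : be q 0 = 0 := by simp [be, a0]
  have al : al q (Fin.last _) = 0 := by simp [al]
  have bl : be q (Fin.last _) = 1 := by simp [be, al]
  refine ⟨EuclideanSpace.single 0 √u, ?_, ?_⟩
  · rw [mem_closedBall_zero_iff, PiLp.norm_single, Real.norm_eq_abs,
      abs_of_nonneg (Real.sqrt_nonneg u)]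
    exact Real.sqrt_le_one.2 h1
  · have e1 : uu q (EuclideanSpace.single 0 √u) = u := by
      rw [uu, Finset.sum_eq_single 0]
      · simp [ca, a0, Real.sq_sqrt h0.le]
      · intro b _ hb
        simp [ca, hb]
      · simp
    have e2 : zz q (EuclideanSpace.single 0 √u) = 0 := by
      refine Finset.sum_eq_zero fun i _ => ?_
      by_cases hi : i = 0
      · simp [cb, hi, b0]
      · simp [cb, hi]
    simp only [Gt, Gm, Matrix.of_apply, e1, e2, de_self, ca, al, bl, lam]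
    rw [hc.eqC t ht u h0.le, Lg.fu, h2]
    ring

theorem stepA : StepA := by
  intro q T S hq hT hS ⟨C0, hC0⟩ hcol
  obtain ⟨L, hL, hLS⟩ := exists_lag hT hS
  obtain ⟨A, B, C, hc⟩ := exists_coef hL
  obtain ⟨M, i1, i2, i3, i4, i5, htar, htr⟩ := exists_atlas q
  have i6 : IsManifold (𝓡 (q + 3)) ∞ M :=
    isManifold_of_trans fun e he e' he' y _ hy => (htr e he e' he' y hy).contDiffAt
  have hg : ∀ t : ℝ, ∃ g : Form (q + 3) M, t ∈ Ico 0 (T / 2) →
      ∀ e ∈ atlas (E (q + 3)) M, coeff g e = Gt q A B C (t + T / 2) := by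
    intro t
    by_cases ht : t ∈ Ico 0 (T / 2)
    · have ht' : t + T / 2 ∈ Ioo 0 T := ⟨by linarith [ht.1], by linarith [ht.2]⟩
      obtain ⟨g, h⟩ := exists_form (M := M) (Gt q A B C (t + T / 2))
        fun e he e' he' y _ hy => (htr e he e' he' y hy).invBy (Gt_inv1 hL hc ht')
          fun y hy => inv_I2 hy
      exact ⟨g, fun _ e he => funext fun y => h e he y (by rw [htar e he]; trivial)⟩
    · exact ⟨fun _ => 0, fun h => absurd h ht⟩
  choose g hg using hg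
  have sh : ∀ t ∈ Ico 0 (T / 2), t + T / 2 ∈ Ioo 0 T := fun t ht =>
    ⟨by linarith [ht.1], by linarith [ht.2]⟩
  have hflow := flow_of_dense isOpen_Ioo (Gt_smooth hc) (fun t ht => Gt_posDef hq hL hc ht)
    (dense_uu q) fun t ht y hy => Gt_flow0 hq hL hc ht hy
  refine ⟨M, i1, i2, i3, i4, i5, i6, T / 2, g, by linarith, fun e he => ⟨fun i j => ?_,
    fun t ht y _ => ?_⟩, ⟨C0, fun t ht e he y _ => ?_⟩, ?_⟩
  · have hm : ContDiff ℝ ∞ fun p : ℝ × E (q + 3) => (p.1 + T / 2, p.2) :=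
      (contDiff_fst.add contDiff_const).prodMk contDiff_snd
    refine ((Gt_smooth hc i j).comp hm.contDiffOn fun p hp => ⟨sh _ hp.1, trivial⟩).congr
      fun p hp => ?_
    rw [hg _ hp.1 e he]
    rfl
  · rw [hg t ht e he]
    refine ⟨Gt_posDef hq hL hc (sh t ht) y, fun i j => ?_⟩
    refine ((hflow _ (sh t ht) y i j).comp_add_const t (T / 2)).hasDerivWithinAt.congr
      (fun s hs => ?_) ?_
    · rw [hg s hs e he]
    · rw [hg t ht e he]
  · rw [hg t ht e he]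
    refine scal_of_dense (Gt_smooth' hc (sh t ht)) (Gt_posDef hq hL hc (sh t ht)) (dense_uu q)
      (fun y hy => ?_) y
    obtain ⟨x', hx', h⟩ := (hLS _ (sh t ht)).1 _ (xu_mem hy)
    rw [Gt_scal hq hL hc (sh t ht) hy, h]
    exact hC0 _ ⟨sh t ht, hx'⟩
  · rintro ⟨ε, hε, g', hg', heq⟩
    obtain ⟨x0⟩ : Nonempty M := inferInstance
    have he := chart_mem_atlas (E (q + 3)) x0
    set e := chartAt (E (q + 3)) x0
    obtain ⟨hs, hp⟩ := hg' e he
    have hK : IsCompact (Icc 0 (T / 2) ×ˢ Metric.closedBall (0 : E (q + 3)) 1) :=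
      isCompact_Icc.prod (isCompact_closedBall _ _)
    have hsub : Icc 0 (T / 2) ×ˢ Metric.closedBall (0 : E (q + 3)) 1 ⊆
        Ico 0 (T / 2 + ε) ×ˢ e.target := fun p hp =>
      ⟨⟨hp.1.1, by linarith [hp.1.2]⟩, by rw [htar e he]; trivial⟩
    obtain ⟨p0, hp0, hmin⟩ := hK.exists_isMinOn
      ⟨(0, 0), ⟨le_rfl, by linarith⟩, Metric.mem_closedBall_self zero_le_one⟩
      ((hs (Fin.last _) (Fin.last _)).continuousOn.mono hsub)
    have hm : 0 < coeff (g' p0.1) e p0.2 (Fin.last _) (Fin.last _) :=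
      (hp _ (hsub hp0).1 _ (hsub hp0).2).1.diag_pos
    set m := coeff (g' p0.1) e p0.2 (Fin.last _) (Fin.last _) with hmdef
    obtain ⟨p, hpO, hp1, hp2⟩ := hcol (min 1 (m / 4)) (lt_min one_pos (by linarith)) (T / 2)
      (by linarith)
    obtain ⟨x, hx, hF⟩ := (hLS _ hpO.1).2 _ hpO.2
    obtain ⟨y, hy, hval⟩ := exists_point hL hc hpO.1 hx
    have ht : p.1 - T / 2 ∈ Ico 0 (T / 2) := ⟨by linarith, by linarith [hpO.1.2]⟩
    have h1 : m ≤ coeff (g' (p.1 - T / 2)) e y (Fin.last _) (Fin.last _) :=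
      hmin (show (p.1 - T / 2, y) ∈ _ from ⟨⟨ht.1, ht.2.le⟩, hy⟩)
    rw [heq _ ht, hg _ ht e he, sub_add_cancel, hval, hF] at h1
    have h2 : Real.exp (2 * S.F (p.1, p.2)) = Real.exp (S.F p) * Real.exp (S.F p) := by
      rw [← Real.exp_add, two_mul]
    have h3 := Real.exp_pos (S.F p)
    have h4 := hp2.trans_le (min_le_left _ _)
    have h5 := hp2.trans_le (min_le_right _ _)
    have h6 : Real.exp (2 * S.F (p.1, p.2)) / (q - 1) ≤ Real.exp (2 * S.F (p.1, p.2)) :=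
      div_le_self (Real.exp_pos _).le (q_pos hq)
    nlinarith

end Vale.Agent.P244A
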