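import Vale.Agent.P244A.Defs
import Vale.Agent.P244A.Flow

/-! The diffeomorphisms which remove the drift.
Hints. `exists_psi`: `exists_flow1` with `v = -ξ`, `t₀ = T / 2` (`ξ` has period `2 π` by the two symmetries);
`odd`, `refl` by `flow_unique`; `var` by symmetry of second derivatives (`ContDiffAt.isSymmSndFDerivAt`,
compare `had_symm` in `P264/Had.lean`); `pos`: `y = dx Ψ (·, x)` solves `y' = -k y` with `k` continuous on
` (0, T)`, `y t₀ = 1`, so `y t * exp (∫_(t₀)^t k)` is constant. -/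

open Set Filter Topology
open scoped ContDiff

noncomputable section

namespace Vale.Agent.P244A

open Vale.Agent.P244

theorem psi_l1 (t x : ℝ) : HasDerivAt (fun r : ℝ => (r, x)) (1, 0) t :=
  (hasDerivAt_id t).prodMk (hasDerivAt_const t x)

theorem psi_l2 (t x : ℝ) : HasDerivAt (fun y : ℝ => (t, y)) (0, 1) x :=
  (hasDerivAt_const x t).prodMk (hasDerivAt_id x)

theorem psi_dx {u : ℝ × ℝ → ℝ} {p : ℝ × ℝ} (hu : DifferentiableAt ℝ u p) :
    HasDerivAt (fun x => u (p.1, x)) (fderiv ℝ u p (0, 1)) p.2 :=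
  HasFDerivAt.comp_hasDerivAt (f := fun y : ℝ => (p.1, y)) p.2 hu.hasFDerivAt (psi_l2 _ _)

theorem psi_dt {u : ℝ × ℝ → ℝ} {p : ℝ × ℝ} (hu : DifferentiableAt ℝ u p) :
    HasDerivAt (fun s => u (s, p.2)) (fderiv ℝ u p (1, 0)) p.1 :=
  HasFDerivAt.comp_hasDerivAt (f := fun r : ℝ => (r, p.2)) p.1 hu.hasFDerivAt (psi_l1 _ _)

theorem psi_at {J : Set ℝ} (hJ : IsOpen J) {u : ℝ × ℝ → ℝ}
    (hu : ContDiffOn ℝ ∞ u (J ×ˢ univ)) {t : ℝ} (ht : t ∈ J) (x : ℝ) : ContDiffAt ℝ ∞ u (t, x) :=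
  hu.contDiffAt ((hJ.prod isOpen_univ).mem_nhds ⟨ht, mem_univ _⟩)

theorem psi_ev {u : ℝ × ℝ → ℝ} {p : ℝ × ℝ} (hu : ContDiffAt ℝ ∞ u p) :
    ∀ᶠ q in 𝓝 p, DifferentiableAt ℝ u q :=
  ((hu.of_le (m := 1) (by simp)).eventually (by simp)).mono fun _ h =>
    h.differentiableAt (by simp)

/-- calculus on the open strip -/
theorem hasDerivAt_dx {J : Set ℝ} (hJ : IsOpen J) {u : ℝ × ℝ → ℝ}
    (hu : ContDiffOn ℝ ∞ u (J ×ˢ univ)) {t : ℝ} (ht : t ∈ J) (x : ℝ) :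
    HasDerivAt (fun x => u (t, x)) (dx u (t, x)) x :=
  (psi_dx ((psi_at hJ hu ht x).differentiableAt (by simp))).differentiableAt.hasDerivAt

theorem hasDerivAt_dt {J : Set ℝ} (hJ : IsOpen J) {u : ℝ × ℝ → ℝ}
    (hu : ContDiffOn ℝ ∞ u (J ×ˢ univ)) {t : ℝ} (ht : t ∈ J) (x : ℝ) :
    HasDerivAt (fun s => u (s, x)) (dt u (t, x)) t :=
  (psi_dt ((psi_at hJ hu ht x).differentiableAt (by simp))).differentiableAt.hasDerivAt

theorem contDiffAt_dx {u : ℝ × ℝ → ℝ} {p : ℝ × ℝ} (hu : ContDiffAt ℝ ∞ u p) :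
    ContDiffAt ℝ ∞ (dx u) p := by
  refine ((hu.fderiv_right (m := ∞) le_rfl).clm_apply
    (contDiffAt_const (c := ((0, 1) : ℝ × ℝ)))).congr_of_eventuallyEq ?_
  exact (psi_ev hu).mono fun q h => (psi_dx h).deriv

/-- chain rule along a curve in space-time -/
theorem hasDerivAt_curve {u : ℝ × ℝ → ℝ} {γ : ℝ → ℝ} {t d : ℝ}
    (hu : DifferentiableAt ℝ u (t, γ t)) (hγ : HasDerivAt γ d t) :
    HasDerivAt (fun s => u (s, γ s)) (dt u (t, γ t) + d * dx u (t, γ t)) t := by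
  have h1 := HasFDerivAt.comp_hasDerivAt (f := fun s : ℝ => (s, γ s)) t hu.hasFDerivAt
    ((hasDerivAt_id t).prodMk hγ)
  refine h1.congr_deriv ?_
  have e1 : dt u (t, γ t) = fderiv ℝ u (t, γ t) (1, 0) := (psi_dt hu).deriv
  have e2 : dx u (t, γ t) = fderiv ℝ u (t, γ t) (0, 1) := (psi_dx hu).deriv
  rw [e1, e2, ← smul_eq_mul, ← map_smul, ← map_add]
  simp

theorem psi_symm {u : ℝ × ℝ → ℝ} {t x : ℝ} (hu : ContDiffAt ℝ ∞ u (t, x)) : ∃ c : ℝ,
    HasDerivAt (fun s => dx u (s, x)) c t ∧ HasDerivAt (fun y => dt u (t, y)) c x := by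
  have h2 : HasFDerivAt (fderiv ℝ u) (fderiv ℝ (fderiv ℝ u) (t, x)) (t, x) :=
    ((hu.fderiv_right (m := ∞) le_rfl).differentiableAt (by simp)).hasFDerivAt
  have h3 := (HasFDerivAt.comp_hasDerivAt (f := fun r : ℝ => (r, x)) t h2 (psi_l1 t x)).clm_apply
    (hasDerivAt_const t ((0, 1) : ℝ × ℝ))
  have h4 := (HasFDerivAt.comp_hasDerivAt (f := fun y : ℝ => (t, y)) x h2 (psi_l2 t x)).clm_apply
    (hasDerivAt_const x ((1, 0) : ℝ × ℝ))
  rw [map_zero, add_zero] at h3 h4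
  have hs := ((hu.of_le (m := 2) (WithTop.coe_le_coe.2 (le_top (a := (2 : ℕ∞))))).isSymmSndFDerivAt (by simp)).eq (0, 1) (1, 0)
  rw [hs] at h4
  refine ⟨_, h3.congr_of_eventuallyEq ?_, h4.congr_of_eventuallyEq ?_⟩
  · exact ((psi_l1 t x).continuousAt.eventually (psi_ev hu)).mono fun q h => (psi_dx h).deriv
  · exact ((psi_l2 t x).continuousAt.eventually (psi_ev hu)).mono fun q h => (psi_dt h).deriv

theorem psi_pos {a b t₀ : ℝ} (ht₀ : t₀ ∈ Ioo a b) {y k : ℝ → ℝ} (hk : ContinuousOn k (Ioo a b))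
    (hy : ∀ t ∈ Ioo a b, HasDerivAt y (-k t * y t) t) (h0 : y t₀ = 1) :
    ∀ t ∈ Ioo a b, 0 < y t := by
  have hK : ∀ t ∈ Ioo a b, HasDerivAt (fun s => ∫ r in t₀..s, k r) (k t) t := fun t ht =>
    intervalIntegral.integral_hasDerivAt_right
      ((hk.mono (ordConnected_Ioo.uIcc_subset ht₀ ht)).intervalIntegrable)
      (hk.stronglyMeasurableAtFilter isOpen_Ioo t ht) (hk.continuousAt (isOpen_Ioo.mem_nhds ht))
  have hz : ∀ t ∈ Ioo a b, HasDerivAt (fun s => y s * Real.exp (∫ r in t₀..s, k r)) 0 t :=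
    fun t ht => ((hy t ht).mul (hK t ht).exp).congr_deriv (by ring)
  intro t ht
  have e := isOpen_Ioo.is_const_of_deriv_eq_zero isPreconnected_Ioo
    (fun s hs => (hz s hs).differentiableAt.differentiableWithinAt)
    (fun s hs => (hz s hs).deriv) ht ht₀
  simp only [h0, intervalIntegral.integral_same, Real.exp_zero, mul_one] at e
  exact (mul_pos_iff_of_pos_right (Real.exp_pos _)).1 (e ▸ one_pos)

theorem exists_psi {T : ℝ} (hT : 0 < T) {ξ : ℝ × ℝ → ℝ}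
    (hξ : ContDiffOn ℝ ∞ ξ (Ioo 0 T ×ˢ univ)) (hodd : ∀ t x, ξ (t, -x) = -ξ (t, x))
    (hrefl : ∀ t x, ξ (t, Real.pi - x) = -ξ (t, x)) : ∃ Ψ, IsPsi T ξ Ψ := by
  have hper : ∀ t x, -ξ (t, x + 2 * Real.pi) = -ξ (t, x) := fun t x => by
    have e1 := hrefl t (-(x + Real.pi))
    have e2 := hrefl t (-x)
    rw [hodd, neg_neg, show Real.pi - -(x + Real.pi) = x + 2 * Real.pi by ring] at e1
    rw [hodd, neg_neg, show Real.pi - -x = x + Real.pi by ring] at e2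
    rw [e1, e2]
  have ht₀ : T / 2 ∈ Ioo 0 T := ⟨by linarith, by linarith⟩
  obtain ⟨Ψ, hs, h0, hode⟩ := exists_flow1 ht₀ (v := fun p => -ξ p) hξ.neg hper
  have hvar : ∀ t ∈ Ioo 0 T, ∀ x,
      HasDerivAt (fun s => dx Ψ (s, x)) (-dx ξ (t, Ψ (t, x)) * dx Ψ (t, x)) t := by
    intro t ht x
    obtain ⟨c, h1, h2⟩ := psi_symm (psi_at isOpen_Ioo hs ht x)
    have e : (fun y => dt Ψ (t, y)) = fun y => -ξ (t, Ψ (t, y)) :=
      funext fun y => (hode t ht y).deriv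
    rw [e] at h2
    have h3 := (HasDerivAt.comp x (hasDerivAt_dx isOpen_Ioo hξ ht (Ψ (t, x)))
      (hasDerivAt_dx isOpen_Ioo hs ht x)).neg
    exact h1.congr_deriv ((h2.unique h3).trans (by ring))
  refine ⟨Ψ, hs, hode, fun t ht x => ?_, fun t ht x => ?_, fun t ht x => ?_, hvar⟩
  · refine flow_unique (v := fun p => -ξ p) hξ.neg hper (γ₁ := fun s => Ψ (s, -x))
      (γ₂ := fun s => -Ψ (s, x)) (fun s hs => hode s hs _) (fun s hs => ?_) ht₀
      (by simp only [h0]) t ht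
    exact (hode s hs x).neg.congr_deriv (by simp only [hodd])
  · refine flow_unique (v := fun p => -ξ p) hξ.neg hper (γ₁ := fun s => Ψ (s, Real.pi - x))
      (γ₂ := fun s => Real.pi - Ψ (s, x)) (fun s hs => hode s hs _) (fun s hs => ?_) ht₀
      (by simp only [h0]) t ht
    exact ((hode s hs x).const_sub _).congr_deriv (by simp only [hrefl])
  · refine psi_pos ht₀ (y := fun s => dx Ψ (s, x)) (k := fun s => dx ξ (s, Ψ (s, x)))
      (fun s hs' => ?_) (fun s hs' => hvar s hs' x) ?_ t ht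
    · refine ContinuousAt.continuousWithinAt ?_
      exact ContinuousAt.comp (f := fun s => (s, Ψ (s, x)))
        (contDiffAt_dx (psi_at isOpen_Ioo hξ hs' _)).continuousAt
        (continuousAt_id.prodMk (hode s hs' x).continuousAt)
    · simp only [dx, h0]
      exact deriv_id x

theorem psi_mono {T : ℝ} {ξ Ψ : ℝ × ℝ → ℝ} (h : IsPsi T ξ Ψ) {t : ℝ} (ht : t ∈ Ioo 0 T) :
    StrictMono (fun x => Ψ (t, x)) ∧ Ψ (t, 0) = 0 ∧ Ψ (t, Real.pi) = Real.pi := by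
  have h0 : Ψ (t, 0) = 0 := by
    have := h.odd t ht 0
    rw [neg_zero] at this
    linarith
  refine ⟨strictMono_of_deriv_pos fun x => h.pos t ht x, h0, ?_⟩
  have := h.refl t ht 0
  rwa [h0, sub_zero] at this

theorem IsPsi.mem {T : ℝ} {ξ Ψ : ℝ × ℝ → ℝ} (h : IsPsi T ξ Ψ) {t x : ℝ} (ht : t ∈ Ioo 0 T)
    (hx : x ∈ Ioo 0 Real.pi) : Ψ (t, x) ∈ Ioo 0 Real.pi := by
  obtain ⟨h1, h2, h3⟩ := psi_mono h ht
  exact ⟨h2 ▸ h1 hx.1, h3 ▸ h1 hx.2⟩

theorem IsPsi.surj {T : ℝ} {ξ Ψ : ℝ × ℝ → ℝ} (h : IsPsi T ξ Ψ) {t x' : ℝ} (ht : t ∈ Ioo 0 T)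
    (hx : x' ∈ Ioo 0 Real.pi) : ∃ x ∈ Ioo 0 Real.pi, Ψ (t, x) = x' := by
  obtain ⟨-, h2, h3⟩ := psi_mono h ht
  have := intermediate_value_Ioo Real.pi_pos.le (f := fun x => Ψ (t, x))
    fun x _ => (hasDerivAt_dx isOpen_Ioo h.sm ht x).continuousAt.continuousWithinAt
  simp only [h2, h3] at this
  exact this hx

end Vale.Agent.P244A
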