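import Vale.Agent.P244A.Basic

/-! Index algebra for the Ricci tensor of a connection of the shape `Gam`. -/

noncomputable section

namespace Vale.Agent.P244A

/-- block data at a point -/
structure Blk (n : ℕ) where
  α : Fin n → ℝ
  β : Fin n → ℝ
  a : Fin n → ℝ
  b : Fin n → ℝ
  N : ℝ
  u : ℝ
  z : ℝ
  hc : ∀ i, (α i = 1 ∧ β i = 0 ∧ b i = 0) ∨ (α i = 0 ∧ β i = 1 ∧ a i = 0)
  hN : ∑ i, α i = N
  h2 : ∑ i, β i = 2
  hu : ∑ i, a i ^ 2 = u
  hz : ∑ i, b i ^ 2 = z

namespace Blk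

variable {n : ℕ} (D : Blk n)

theorem master (i j : Fin n) (f X Y : Fin n → ℝ) (c1 c2 c3 c4 : ℝ)
    (h : ∀ k, f k = de j k * X k + de i k * Y k +
      (c1 * D.α k + c2 * D.β k + c3 * D.a k ^ 2 + c4 * D.b k ^ 2)) :
    ∑ k, f k = X j + Y i + (c1 * D.N + c2 * 2 + c3 * D.u + c4 * D.z) := by
  simp only [h, Finset.sum_add_distrib, sum_de_left, ← Finset.mul_sum, D.hN, D.h2, D.hu, D.hz]

variable (p c s t R m : ℝ)

def X (k i : Fin n) : ℝ := (p * D.α k + c * D.β k) * D.a i + m * D.β k * D.b i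
def W (i : Fin n) : ℝ := t * D.α i - R * D.β i
def Γ (k i j : Fin n) : ℝ :=
  de j k * D.X p c m k i + de i k * D.X p c m k j - de i j * D.β i * m * D.b k
    + D.a k * (s * D.a i * D.a j + de i j * D.W t R i)

theorem tr (l : Fin n) : ∑ k, D.Γ p c s t R m k k l =
    ((D.N + 1) * p + 2 * c + s * D.u + t) * D.a l + 2 * m * D.b l := by
  rw [D.master l l _ (fun k => D.X p c m k k - D.β k * m * D.b k + D.a k * D.W t R k) (fun _ => 0)
    (p * D.a l) (c * D.a l + m * D.b l) (s * D.a l) 0 fun k => by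
      simp only [Γ, X, de_self, de_comm k l]; ring]
  rcases D.hc l with ⟨h1, h2, h3⟩ | ⟨h1, h2, h3⟩ <;> simp only [X, W, h1, h2, h3] <;> ring

theorem sa (i j : Fin n) : ∑ l, D.a l * D.Γ p c s t R m l i j =
    2 * p * D.a i * D.a j + D.u * (s * D.a i * D.a j + de i j * D.W t R i) := by
  rw [D.master i j _ (fun l => p * D.a i * D.a l) (fun l => p * D.a j * D.a l) 0 0
    (s * D.a i * D.a j + de i j * D.W t R i) 0 fun k => by
      rcases D.hc k with ⟨h1, h2, h3⟩ | ⟨h1, h2, h3⟩ <;> simp only [Γ, X, h1, h2, h3] <;> ring]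
  ring

theorem sb (i j : Fin n) : ∑ l, D.b l * D.Γ p c s t R m l i j =
    D.b j * (c * D.a i + m * D.b i) + D.b i * (c * D.a j + m * D.b j)
      - de i j * D.β i * m * D.z := by
  rw [D.master i j _ (fun l => D.b l * (c * D.a i + m * D.b i))
    (fun l => D.b l * (c * D.a j + m * D.b j)) 0 0 0 (-(de i j * D.β i * m)) fun k => by
      rcases D.hc k with ⟨h1, h2, h3⟩ | ⟨h1, h2, h3⟩ <;> simp only [Γ, X, h1, h2, h3] <;> ring]
  ring

theorem contr (k j : Fin n) (V : Fin n → ℝ) : ∑ l, D.Γ p c s t R m k j l * V l =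
    D.X p c m k j * V k + (D.a k * D.W t R j - D.β j * m * D.b k) * V j
      + (de j k * (p * D.α k + c * D.β k) + s * D.a k * D.a j) * (∑ l, D.a l * V l)
      + de j k * m * D.β k * ∑ l, D.b l * V l := by
  rw [← sum_de_left k fun l => D.X p c m k j * V l,
    ← sum_de_left j fun l => (D.a k * D.W t R j - D.β j * m * D.b k) * V l, Finset.mul_sum,
    Finset.mul_sum, ← Finset.sum_add_distrib, ← Finset.sum_add_distrib, ← Finset.sum_add_distrib]
  refine Finset.sum_congr rfl fun l _ => ?_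
  simp only [Γ, X, de_comm l k]
  ring

theorem S3 (i j : Fin n) : ∑ k, ∑ l, D.Γ p c s t R m k k l * D.Γ p c s t R m l i j =
    ((D.N + 1) * p + 2 * c + s * D.u + t) *
      (2 * p * D.a i * D.a j + D.u * (s * D.a i * D.a j + de i j * D.W t R i))
    + 2 * m * (D.b j * (c * D.a i + m * D.b i) + D.b i * (c * D.a j + m * D.b j)
      - de i j * D.β i * m * D.z) := by
  rw [Finset.sum_comm, ← D.sa, ← D.sb, Finset.mul_sum, Finset.mul_sum, ← Finset.sum_add_distrib]
  refine Finset.sum_congr rfl fun l _ => ?_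
  rw [← Finset.sum_mul, D.tr]
  ring

theorem S4 (i j : Fin n) : ∑ k, ∑ l, D.Γ p c s t R m k j l * D.Γ p c s t R m l i k =
    ((D.N + 3) * p ^ 2 + 2 * c ^ 2 + 2 * p * (s * D.u + t) + 2 * D.u * p * s + (s * D.u + t) ^ 2)
        * (D.a i * D.a j) + 2 * c * m * (D.a i * D.b j + D.a j * D.b i)
      + 4 * m ^ 2 * (D.b i * D.b j)
      + de i j * (2 * D.u * p * t * D.α i - (2 * m ^ 2 * D.z + 2 * D.u * c * R) * D.β i) := by
  simp only [D.contr, D.sa, D.sb]
  rw [D.master i j _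
    (fun k => (D.a k * D.W t R j - D.β j * m * D.b k) * D.X p c m j i
      + (p * D.α k + c * D.β k) *
        (2 * p * D.a i * D.a k + D.u * (s * D.a i * D.a k + de i k * D.W t R i))
      + m * D.β k * (D.b k * (c * D.a i + m * D.b i) + D.b i * (c * D.a k + m * D.b k)
        - de i k * D.β i * m * D.z))
    (fun k => D.X p c m k j * (D.X p c m k k - D.β i * m * D.b k + D.a k * D.W t R i)
      + (D.a k * D.W t R j - D.β j * m * D.b k) * (D.a j * D.W t R i - D.β i * m * D.b j)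
      + s * D.a k * D.a j * D.u * D.W t R i)
    (p ^ 2 * D.a i * D.a j) ((c * D.a j + m * D.b j) * (c * D.a i + m * D.b i))
    (p * s * D.a i * D.a j + D.W t R j * (de i j * (p * D.α j + c * D.β j) + s * D.a j * D.a i)
      + s * D.a j * (2 * p * D.a i + D.u * s * D.a i))
    (-(de i j * D.β j * m * m * D.β j)) fun k => by
      rcases D.hc k with ⟨h1, h2, h3⟩ | ⟨h1, h2, h3⟩ <;>
        simp only [Γ, X, de_self, de_comm k j, h1, h2, h3] <;> ring]
  by_cases h : i = j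
  · subst h
    rcases D.hc i with ⟨h1, h2, h3⟩ | ⟨h1, h2, h3⟩ <;>
      simp only [X, W, de_self, h1, h2, h3] <;> ring
  · have h0 : de i j = 0 := if_neg h
    rcases D.hc i with ⟨h1, h2, h3⟩ | ⟨h1, h2, h3⟩ <;>
      rcases D.hc j with ⟨h4, h5, h6⟩ | ⟨h4, h5, h6⟩ <;>
      simp only [X, W, h0, h1, h2, h3, h4, h5, h6] <;> ring

variable (p' c' s' t' Ru Rz m' : ℝ)

/-- derivative of `X k i` in direction `e` -/
def dX (e k i : Fin n) : ℝ :=
  (p' * D.α k + c' * D.β k) * (2 * D.a e) * D.a i + (p * D.α k + c * D.β k) * (D.α i * de i e)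
    + m' * (2 * D.b e) * D.β k * D.b i + m * D.β k * (D.β i * de i e)

/-- derivative of `Γ k i j` in direction `e` -/
def dΓ (e k i j : Fin n) : ℝ :=
  de j k * D.dX p c m p' c' m' e k i + de i k * D.dX p c m p' c' m' e k j
    - de i j * D.β i * (m' * (2 * D.b e) * D.b k + m * (D.β k * de k e))
    + D.α k * de k e * (s * D.a i * D.a j + de i j * D.W t R i)
    + D.a k * (s' * (2 * D.a e) * D.a i * D.a j + s * (D.α i * de i e) * D.a j
      + s * D.a i * (D.α j * de j e)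
      + de i j * (t' * (2 * D.a e) * D.α i - (Ru * (2 * D.a e) + Rz * (2 * D.b e)) * D.β i))

theorem S1 (i j : Fin n) : ∑ k, D.dΓ p c s t R m p' c' s' t' Ru Rz m' k k i j =
    (4 * p' + (D.N + 2) * s + 2 * D.u * s') * (D.a i * D.a j) + 4 * m' * (D.b i * D.b j)
      + de i j * ((2 * p + D.N * t + 2 * D.u * t') * D.α i
        - (2 * m' * D.z + D.N * R + 2 * D.u * Ru) * D.β i) := by
  rw [D.master i j _
    (fun k => D.dX p c m p' c' m' k k i + D.a k * s * D.a i * D.α j)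
    (fun k => D.dX p c m p' c' m' k k j + D.a k * s * D.α i * D.a j)
    (s * D.a i * D.a j + de i j * D.W t R i) (-(de i j * D.β i * m))
    (2 * s' * D.a i * D.a j + de i j * (2 * t' * D.α i - 2 * Ru * D.β i))
    (-(de i j * D.β i * m' * 2)) fun k => by
      rcases D.hc k with ⟨h1, h2, h3⟩ | ⟨h1, h2, h3⟩ <;>
        simp only [dΓ, de_self, h1, h2, h3] <;> ring]
  by_cases h : i = j
  · subst h
    rcases D.hc i with ⟨h1, h2, h3⟩ | ⟨h1, h2, h3⟩ <;>
      simp only [dX, W, de_self, h1, h2, h3] <;> ring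
  · have h0 : de i j = 0 := if_neg h
    have h0' : de j i = 0 := if_neg (Ne.symm h)
    rcases D.hc i with ⟨h1, h2, h3⟩ | ⟨h1, h2, h3⟩ <;>
      rcases D.hc j with ⟨h4, h5, h6⟩ | ⟨h4, h5, h6⟩ <;>
      simp only [dX, W, h0, h0', h1, h2, h3, h4, h5, h6] <;> ring

theorem S2 (i j : Fin n) : ∑ k, D.dΓ p c s t R m p' c' s' t' Ru Rz m' j k i k =
    2 * ((D.N + 1) * p' + 2 * c' + s' * D.u + s + t') * (D.a i * D.a j) + 4 * m' * (D.b i * D.b j)
      + de i j * (((D.N + 1) * p + 2 * c + s * D.u + t) * D.α i + 2 * m * D.β i) := by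
  rw [D.master i j _
    (fun k => 2 * s * D.α k * D.a k * D.a i)
    (fun k => D.dX p c m p' c' m' j k k - D.β i * (m' * (2 * D.b j) * D.b k + m * (D.β k * de j k))
      + D.α k * de j k * D.W t R i
      + D.a k * (t' * (2 * D.a j) * D.α i - (Ru * (2 * D.a j) + Rz * (2 * D.b j)) * D.β i))
    (p' * (2 * D.a j) * D.a i + p * (D.α i * de i j))
    (c' * (2 * D.a j) * D.a i + c * (D.α i * de i j) + m' * (2 * D.b j) * D.b i
      + m * (D.β i * de i j))
    (s' * (2 * D.a j) * D.a i + s * (D.α i * de i j)) 0 fun k => by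
      rcases D.hc k with ⟨h1, h2, h3⟩ | ⟨h1, h2, h3⟩ <;>
        simp only [dΓ, dX, de_self, de_comm k j, h1, h2, h3] <;> ring]
  by_cases h : i = j
  · subst h
    rcases D.hc i with ⟨h1, h2, h3⟩ | ⟨h1, h2, h3⟩ <;>
      simp only [dX, W, de_self, h1, h2, h3] <;> ring
  · have h0 : de i j = 0 := if_neg h
    have h0' : de j i = 0 := if_neg (Ne.symm h)
    rcases D.hc i with ⟨h1, h2, h3⟩ | ⟨h1, h2, h3⟩ <;>
      rcases D.hc j with ⟨h4, h5, h6⟩ | ⟨h4, h5, h6⟩ <;>
      simp only [dX, W, h0, h0', h1, h2, h3, h4, h6] <;> ring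

end Blk

end Vale.Agent.P244A
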