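import Vale.Agent.P244.Sol
import Vale.Agent.P264.Had

/-! Division by the sine and the Whitney lemma for even periodic functions.
Hints. `div_sin`: put `v = u / sin` off the zeros of the sine and `v = u_x / cos` on them; near
`x = n π` use Hadamard `u (z, x) = (x - n π) ∫_0^1 u_x (z, n π + r (x - n π)) dr`
(`Vale.Agent.P264.had_integral`, compare `hadamard`, `div_sin` in `P264/Had.lean`), also for the sine.
`whitney_cos`: `contDiffOn_infty`, induction on the order for all `u` at once,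
`contDiffOn_succ_iff_fderiv_apply`; the derivative in direction ` (a, b)` is
`fderiv u (z, x) (a, 0) - b * v (z, x)` at `x = arccos y`, `u_x = sin x * v`, both terms are again smooth,
even and periodic (`sin_cancel`); at `y = ± 1` use `hasFDerivWithinAt_closure_of_tendsto_fderiv` on
`ball z r ×ˢ Ioo (-1) 1`. -/

open Set Filter Topology
open scoped ContDiff

noncomputable section

namespace Vale.Agent.P244A

open Vale.Agent.P244

variable {Z : Type} [NormedAddCommGroup Z] [NormedSpace ℝ Z] [FiniteDimensional ℝ Z]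

theorem sin_cancel {f : ℝ → ℝ} (hf : Continuous f) (h : ∀ x, Real.sin x * f x = 0) (x : ℝ) :
    f x = 0 := by
  have hc : ({x : ℝ | Real.sin x = 0}).Countable := by
    refine (countable_range fun n : ℤ => (n : ℝ) * Real.pi).mono fun x hx => ?_
    obtain ⟨n, hn⟩ := Real.sin_eq_zero_iff.1 hx
    exact ⟨n, hn⟩
  exact congrFun (hf.ext_on (hc.dense_compl ℝ) continuous_const fun x hx =>
    (mul_eq_zero.1 (h x)).resolve_left hx) x

section Aux

omit [FiniteDimensional ℝ Z]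

variable {U : Set Z} {u : Z × ℝ → ℝ}

theorem whit_at (hU : IsOpen U) (hu : ContDiffOn ℝ ∞ u (U ×ˢ univ)) {p : Z × ℝ}
    (hp : p.1 ∈ U) : ContDiffAt ℝ ∞ u p :=
  hu.contDiffAt ((hU.prod isOpen_univ).mem_nhds ⟨hp, trivial⟩)

theorem whit_has (hU : IsOpen U) (hu : ContDiffOn ℝ ∞ u (U ×ˢ univ)) {p : Z × ℝ}
    (hp : p.1 ∈ U) : HasFDerivAt u (fderiv ℝ u p) p :=
  ((whit_at hU hu hp).differentiableAt (by simp)).hasFDerivAt

theorem whit_dir (hU : IsOpen U) (hu : ContDiffOn ℝ ∞ u (U ×ˢ univ)) (w : Z × ℝ) :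
    ContDiffOn ℝ ∞ (fun p => fderiv ℝ u p w) (U ×ˢ univ) := fun _ hp =>
  (((whit_at hU hu hp.1).fderiv_right (m := ∞) le_rfl).clm_apply
    contDiffAt_const).contDiffWithinAt

theorem whit_snd (hU : IsOpen U) (hu : ContDiffOn ℝ ∞ u (U ×ˢ univ)) {z : Z} (hz : z ∈ U)
    (x : ℝ) : HasDerivAt (fun y => u (z, y)) (fderiv ℝ u (z, x) (0, 1)) x :=
  (whit_has hU hu (p := (z, x)) hz).comp_hasDerivAt x
    ((hasDerivAt_const x z).prodMk (hasDerivAt_id x))

theorem whit_line (hU : IsOpen U) (hu : ContDiffOn ℝ ∞ u (U ×ˢ univ)) {z : Z} (hz : z ∈ U) :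
    Continuous fun y => u (z, y) :=
  continuous_iff_continuousAt.2 fun x => (whit_snd hU hu hz x).continuousAt

theorem whit_fst (hU : IsOpen U) (hu : ContDiffOn ℝ ∞ u (U ×ˢ univ)) {x x' : ℝ}
    (h : ∀ z ∈ U, u (z, x') = u (z, x)) {z : Z} (hz : z ∈ U) (a : Z) :
    fderiv ℝ u (z, x') (a, 0) = fderiv ℝ u (z, x) (a, 0) := by
  have h1 : ∀ y : ℝ, HasFDerivAt (fun w => u (w, y))
      ((fderiv ℝ u (z, y)).comp (ContinuousLinearMap.inl ℝ Z ℝ)) z := fun y =>
    (whit_has hU hu (p := (z, y)) hz).comp z (hasFDerivAt_prodMk_left z y)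
  have h2 : (fun w => u (w, x')) =ᶠ[𝓝 z] fun w => u (w, x) := by
    filter_upwards [hU.mem_nhds hz] with w hw using h w hw
  have h3 := (h1 x').unique ((h1 x).congr_of_eventuallyEq h2)
  simpa using congrArg (fun L : Z →L[ℝ] ℝ => L a) h3

theorem whit_had (hU : IsOpen U) (hu : ContDiffOn ℝ ∞ u (U ×ˢ univ)) (a : ℝ)
    (h0 : ∀ z ∈ U, u (z, a) = 0) : ∃ H : Z × ℝ → ℝ, ContDiffOn ℝ ∞ H (U ×ˢ univ) ∧
      ∀ z ∈ U, ∀ x, u (z, x) = (x - a) * H (z, x) := by
  refine ⟨fun p => ∫ r in (0 : ℝ)..1, fderiv ℝ u (p.1, a + r * (p.2 - a)) (0, 1),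
    fun p hp => (Vale.Agent.P264.had_integral
      (f := fun q : (Z × ℝ) × ℝ => fderiv ℝ u (q.1.1, a + q.2 * (q.1.2 - a)) (0, 1)) zero_le_one
      fun t _ => ?_).contDiffWithinAt, fun s hs θ => ?_⟩
  · exact ContDiffAt.comp (g := fun p => fderiv ℝ u p (0, 1))
      (f := fun q : (Z × ℝ) × ℝ => (q.1.1, a + q.2 * (q.1.2 - a))) (p, t)
      (whit_at hU (whit_dir hU hu (0, 1)) hp.1) (by fun_prop)
  have h1 : ∀ r : ℝ, HasDerivAt (fun r => u (s, a + r * (θ - a)))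
      ((θ - a) * fderiv ℝ u (s, a + r * (θ - a)) (0, 1)) r := fun r => by
    have h2 := (whit_snd hU hu hs (a + r * (θ - a))).comp r
      (((hasDerivAt_id r).mul_const (θ - a)).const_add a)
    refine h2.congr_deriv ?_
    ring
  have h3 : Continuous fun r : ℝ => (θ - a) * fderiv ℝ u (s, a + r * (θ - a)) (0, 1) :=
    continuous_const.mul ((whit_line hU (whit_dir hU hu (0, 1)) hs).comp (by fun_prop))
  have h4 := intervalIntegral.integral_eq_sub_of_hasDerivAt (a := 0) (b := 1) (fun r _ => h1 r)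
    (h3.intervalIntegrable _ _)
  rw [intervalIntegral.integral_const_mul] at h4
  simp only [one_mul, zero_mul, add_zero, add_sub_cancel, h0 s hs, sub_zero] at h4
  exact h4.symm

theorem whit_val {H : Z × ℝ → ℝ} (hU : IsOpen U) (hH : ContDiffOn ℝ ∞ H (U ×ˢ univ)) {a : ℝ}
    {z : Z} (hz : z ∈ U) (h : ∀ x, u (z, x) = (x - a) * H (z, x)) :
    HasDerivAt (fun x => u (z, x)) (H (z, a)) a := by
  have h1 := ((hasDerivAt_id a).sub_const a).mul (whit_snd hU hH hz a)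
  simp only [h]
  refine h1.congr_deriv ?_
  simp

theorem whit_div (hU : IsOpen U) (hu : ContDiffOn ℝ ∞ u (U ×ˢ univ))
    (h0 : ∀ z ∈ U, ∀ x, Real.sin x = 0 → u (z, x) = 0) :
    ∃ v : Z × ℝ → ℝ, ContDiffOn ℝ ∞ v (U ×ˢ univ) ∧
      ∀ z ∈ U, ∀ x, u (z, x) = Real.sin x * v (z, x) := by
  classical
  refine ⟨fun p => if Real.sin p.2 = 0 then fderiv ℝ u p (0, 1) / Real.cos p.2
    else u p / Real.sin p.2, fun p hp => ContDiffAt.contDiffWithinAt ?_, fun s hs θ => ?_⟩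
  · obtain ⟨s, a⟩ := p
    have hsU : s ∈ U := hp.1
    have hs : ContDiff ℝ ∞ fun p : Z × ℝ => Real.sin p.2 := by fun_prop
    by_cases ha : Real.sin a = 0
    · obtain ⟨H, hH, h1⟩ := whit_had hU hu a fun r hr => h0 r hr a ha
      obtain ⟨K, hK, h2⟩ := whit_had hU hs.contDiffOn a fun _ _ => ha
      have hKa : ∀ r ∈ U, K (r, a) = Real.cos a := fun r hr =>
        (whit_val (u := fun p : Z × ℝ => Real.sin p.2) hU hK hr (h2 r hr)).unique
          (Real.hasDerivAt_sin a)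
      have hc : Real.cos a ≠ 0 := fun h => by
        have h3 := Real.sin_sq_add_cos_sq a
        rw [ha, h] at h3
        norm_num at h3
      have hK0 : K (s, a) ≠ 0 := by
        rw [hKa s hsU]
        exact hc
      have hKs := whit_at hU hK (p := (s, a)) hsU
      refine ((whit_at hU hH (p := (s, a)) hsU).div hKs hK0).congr_of_eventuallyEq ?_
      filter_upwards [hKs.continuousAt.eventually_ne hK0,
        (hU.prod isOpen_univ).mem_nhds hp] with q hq hq'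
      obtain ⟨r, x⟩ := q
      have hr : r ∈ U := hq'.1
      by_cases hx : x = a
      · rw [hx]
        simp only [ha, if_true, Pi.div_apply]
        rw [hKa r hr, (whit_snd hU hu hr a).unique (whit_val hU hH hr (h1 r hr))]
      · have h5 : Real.sin x = (x - a) * K (r, x) := h2 r hr x
        have h6 : x - a ≠ 0 := sub_ne_zero.2 hx
        have h7 : Real.sin x ≠ 0 := h5 ▸ mul_ne_zero h6 hq
        simp only [h7, if_false, Pi.div_apply]
        rw [h1 r hr, h5, mul_div_mul_left _ _ h6]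
    · have h9 : ContDiffAt ℝ ∞ (fun q : Z × ℝ => u q / Real.sin q.2) (s, a) :=
        ContDiffAt.div (g := fun q : Z × ℝ => Real.sin q.2) (whit_at hU hu (p := (s, a)) hsU)
          hs.contDiffAt ha
      refine h9.congr_of_eventuallyEq ?_
      have h8 : ∀ᶠ q : Z × ℝ in 𝓝 (s, a), Real.sin q.2 ≠ 0 :=
        ContinuousAt.eventually_ne (g := fun q : Z × ℝ => Real.sin q.2)
          hs.continuous.continuousAt ha
      filter_upwards [h8] with q hq
      simp only [hq, if_false]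
  · by_cases ha : Real.sin θ = 0
    · rw [h0 s hs θ ha, ha, zero_mul]
    · simp only [ha, if_false]
      field_simp

/-- The derivative in the angle of an even periodic function is the sine times an even periodic
function. -/
theorem whit_quot (hU : IsOpen U) (hu : ContDiffOn ℝ ∞ u (U ×ˢ univ))
    (he : ∀ z ∈ U, ∀ x, u (z, -x) = u (z, x))
    (hp : ∀ z ∈ U, ∀ x, u (z, x + 2 * Real.pi) = u (z, x)) :
    ∃ v : Z × ℝ → ℝ, ContDiffOn ℝ ∞ v (U ×ˢ univ) ∧ (∀ z ∈ U, ∀ x, v (z, -x) = v (z, x)) ∧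
      (∀ z ∈ U, ∀ x, v (z, x + 2 * Real.pi) = v (z, x)) ∧
      ∀ z ∈ U, ∀ x, fderiv ℝ u (z, x) (0, 1) = Real.sin x * v (z, x) := by
  have o1 : ∀ z ∈ U, ∀ x, fderiv ℝ u (z, -x) (0, 1) = -fderiv ℝ u (z, x) (0, 1) := by
    intro z hz x
    have h1 := (whit_snd hU hu hz (-x)).comp x (hasDerivAt_neg x)
    have h2 : ((fun y => u (z, y)) ∘ Neg.neg) = fun y => u (z, y) := funext fun y => he z hz y
    rw [h2] at h1
    rw [← h1.unique (whit_snd hU hu hz x)]
    ring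
  have o2 : ∀ z ∈ U, Function.Periodic (fun x => fderiv ℝ u (z, x) (0, 1)) (2 * Real.pi) := by
    intro z hz x
    have h1 := (whit_snd hU hu hz (x + 2 * Real.pi)).comp x
      ((hasDerivAt_id x).add_const (2 * Real.pi))
    have h2 : ((fun y => u (z, y)) ∘ fun y => id y + 2 * Real.pi) = fun y => u (z, y) :=
      funext fun y => hp z hz y
    rw [h2] at h1
    have h3 := h1.unique (whit_snd hU hu hz x)
    simpa using h3
  obtain ⟨v, hv, h1⟩ := whit_div hU (whit_dir hU hu (0, 1)) fun z hz x hx => by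
    obtain ⟨n, hn⟩ := Real.sin_eq_zero_iff.1 hx
    have h2 := (o2 z hz).int_mul n (-x)
    have h3 : -x + n * (2 * Real.pi) = x := by linarith
    simp only [h3] at h2
    have h4 := o1 z hz x
    linarith
  refine ⟨v, hv, fun z hz x => ?_, fun z hz x => ?_, h1⟩
  · refine sub_eq_zero.1 (sin_cancel (f := fun x => v (z, -x) - v (z, x))
      (((whit_line hU hv hz).comp continuous_neg).sub (whit_line hU hv hz)) (fun y => ?_) x)
    have h2 := o1 z hz y
    rw [h1 z hz, h1 z hz, Real.sin_neg] at h2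
    linarith
  · refine sub_eq_zero.1 (sin_cancel (f := fun x => v (z, x + 2 * Real.pi) - v (z, x))
      (((whit_line hU hv hz).comp (by fun_prop)).sub (whit_line hU hv hz)) (fun y => ?_) x)
    have h2 : fderiv ℝ u (z, y + 2 * Real.pi) (0, 1) = fderiv ℝ u (z, y) (0, 1) := o2 z hz y
    rw [h1 z hz, h1 z hz, Real.sin_add_two_pi] at h2
    linarith

theorem whit_cont (hu : ContDiffOn ℝ ∞ u (U ×ˢ univ)) :
    ContinuousOn (fun p : Z × ℝ => u (p.1, Real.arccos p.2)) (U ×ˢ Icc (-1) 1) :=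
  hu.continuousOn.comp (f := fun p : Z × ℝ => (p.1, Real.arccos p.2))
    (continuous_fst.prodMk (Real.continuous_arccos.comp continuous_snd)).continuousOn
    fun _ hq => ⟨hq.1, trivial⟩

/-- the derivative of the function in the variable `cos x` -/
def whitD (u v : Z × ℝ → ℝ) (p : Z × ℝ) : Z × ℝ →L[ℝ] ℝ :=
  (fderiv ℝ u (p.1, Real.arccos p.2)).comp
      ((ContinuousLinearMap.inl ℝ Z ℝ).comp (ContinuousLinearMap.fst ℝ Z ℝ)) -
    v (p.1, Real.arccos p.2) • ContinuousLinearMap.snd ℝ Z ℝ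

theorem whitD_apply (u v : Z × ℝ → ℝ) (p w : Z × ℝ) : whitD u v p w =
    fderiv ℝ u (p.1, Real.arccos p.2) (w.1, 0) - v (p.1, Real.arccos p.2) * w.2 := by
  simp [whitD]

theorem whit_int {v : Z × ℝ → ℝ} (hU : IsOpen U) (hu : ContDiffOn ℝ ∞ u (U ×ˢ univ))
    (hv : ∀ z ∈ U, ∀ x, fderiv ℝ u (z, x) (0, 1) = Real.sin x * v (z, x)) {p : Z × ℝ}
    (h1 : p.1 ∈ U) (h2 : p.2 ∈ Ioo (-1 : ℝ) 1) :
    HasFDerivAt (fun p : Z × ℝ => u (p.1, Real.arccos p.2)) (whitD u v p) p := by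
  have a1 : HasFDerivAt (fun p : Z × ℝ => Real.arccos p.2)
      ((-(1 / √(1 - p.2 ^ 2))) • ContinuousLinearMap.snd ℝ Z ℝ) p :=
    (Real.hasDerivAt_arccos h2.1.ne' h2.2.ne).comp_hasFDerivAt p hasFDerivAt_snd
  have a2 := (whit_has hU hu (p := (p.1, Real.arccos p.2)) h1).comp p
    ((hasFDerivAt_fst (𝕜 := ℝ) (p := p)).prodMk a1)
  refine a2.congr_fderiv (ContinuousLinearMap.ext fun w => ?_)
  have a3 : 0 < √(1 - p.2 ^ 2) := Real.sqrt_pos.2 (by nlinarith [h2.1, h2.2])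
  have a4 : ((w.1, -(1 / √(1 - p.2 ^ 2)) * w.2) : Z × ℝ) =
      (w.1, 0) + (-(1 / √(1 - p.2 ^ 2)) * w.2) • ((0, 1) : Z × ℝ) := by
    ext <;> simp
  rw [whitD_apply]
  change fderiv ℝ u (p.1, Real.arccos p.2) (w.1, -(1 / √(1 - p.2 ^ 2)) * w.2) = _
  rw [a4, map_add, map_smul, hv _ h1, Real.sin_arccos, smul_eq_mul]
  field_simp
  ring

theorem whit_within {v : Z × ℝ → ℝ} (hU : IsOpen U) (hu : ContDiffOn ℝ ∞ u (U ×ˢ univ))
    (hv : ∀ z ∈ U, ∀ x, fderiv ℝ u (z, x) (0, 1) = Real.sin x * v (z, x))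
    (hD : ContinuousOn (whitD u v) (U ×ˢ Icc (-1) 1)) {p : Z × ℝ}
    (hp : p ∈ U ×ˢ Icc (-1 : ℝ) 1) :
    HasFDerivWithinAt (fun p : Z × ℝ => u (p.1, Real.arccos p.2)) (whitD u v p)
      (U ×ˢ Icc (-1) 1) p := by
  obtain ⟨r, hr, hb⟩ := Metric.nhds_basis_closedBall.mem_iff.1 (hU.mem_nhds hp.1)
  have hs : Metric.ball p.1 r ×ˢ Ioo (-1 : ℝ) 1 ⊆ U ×ˢ Icc (-1) 1 :=
    prod_mono (Metric.ball_subset_closedBall.trans hb) Ioo_subset_Icc_self
  have hc : closure (Metric.ball p.1 r ×ˢ Ioo (-1 : ℝ) 1) =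
      closure (Metric.ball p.1 r) ×ˢ Icc (-1) 1 := by
    rw [closure_prod_eq, closure_Ioo (by norm_num)]
  have hi : ∀ y ∈ Metric.ball p.1 r ×ˢ Ioo (-1 : ℝ) 1,
      HasFDerivAt (fun p : Z × ℝ => u (p.1, Real.arccos p.2)) (whitD u v y) y := fun y hy =>
    whit_int hU hu hv (hs hy).1 hy.2
  have key := hasFDerivWithinAt_closure_of_tendsto_fderiv
    (f := fun p : Z × ℝ => u (p.1, Real.arccos p.2)) (s := Metric.ball p.1 r ×ˢ Ioo (-1 : ℝ) 1)
    (x := p) (f' := whitD u v p)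
    (fun y hy => (hi y hy).differentiableAt.differentiableWithinAt)
    ((convex_ball _ _).prod (convex_Ioo _ _)) (Metric.isOpen_ball.prod isOpen_Ioo)
    (fun y hy => by
      rw [hc] at hy
      exact (whit_cont hu y ⟨hb (Metric.closure_ball_subset_closedBall hy.1), hy.2⟩).mono hs)
    (((hD p hp).mono hs).tendsto.congr' (by
      filter_upwards [self_mem_nhdsWithin] with y hy using (hi y hy).fderiv.symm))
  refine key.mono_of_mem_nhdsWithin ?_
  rw [hc]
  refine mem_nhdsWithin.2 ⟨Metric.ball p.1 r ×ˢ univ, Metric.isOpen_ball.prod isOpen_univ,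
    ⟨Metric.mem_ball_self hr, trivial⟩, fun y hy => ⟨subset_closure hy.1.1, hy.2.2⟩⟩

end Aux

theorem div_sin {U : Set Z} (hU : IsOpen U) {u : Z × ℝ → ℝ}
    (hu : ContDiffOn ℝ ∞ u (U ×ˢ univ)) (h0 : ∀ z ∈ U, ∀ x, Real.sin x = 0 → u (z, x) = 0) :
    ∃ v : Z × ℝ → ℝ, ContDiffOn ℝ ∞ v (U ×ˢ univ) ∧
      ∀ z ∈ U, ∀ x, u (z, x) = Real.sin x * v (z, x) := whit_div hU hu h0

theorem whit_ind {U : Set Z} (hU : IsOpen U) (n : ℕ) : ∀ {u : Z × ℝ → ℝ},
    ContDiffOn ℝ ∞ u (U ×ˢ univ) → (∀ z ∈ U, ∀ x, u (z, -x) = u (z, x)) →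
    (∀ z ∈ U, ∀ x, u (z, x + 2 * Real.pi) = u (z, x)) →
    ContDiffOn ℝ n (fun p : Z × ℝ => u (p.1, Real.arccos p.2)) (U ×ˢ Icc (-1) 1) := by
  induction n with
  | zero =>
    intro u hu _ _
    exact contDiffOn_zero.2 (whit_cont hu)
  | succ n ih =>
    intro u hu he hp
    obtain ⟨v, hv, v1, v2, v3⟩ := whit_quot hU hu he hp
    have hD : ContDiffOn ℝ n (whitD u v) (U ×ˢ Icc (-1) 1) := by
      refine contDiffOn_clm_apply.2 fun w => ?_
      simp only [whitD_apply]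
      exact (ih (whit_dir hU hu (w.1, 0))
        (fun z hz x => whit_fst hU hu (fun y hy => he y hy x) hz _)
        (fun z hz x => whit_fst hU hu (fun y hy => hp y hy x) hz _)).sub
        ((ih hv v1 v2).mul contDiffOn_const)
    rw [Nat.cast_succ, contDiffOn_succ_iff_hasFDerivWithinAt_of_uniqueDiffOn
      (hU.uniqueDiffOn.prod (uniqueDiffOn_Icc (by norm_num)))]
    exact ⟨fun h => absurd h (by simp), whitD u v, hD,
      fun p hp' => whit_within hU hu v3 hD.continuousOn hp'⟩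

theorem whitney_cos {U : Set Z} (hU : IsOpen U) {u : Z × ℝ → ℝ}
    (hu : ContDiffOn ℝ ∞ u (U ×ˢ univ)) (he : ∀ z ∈ U, ∀ x, u (z, -x) = u (z, x))
    (hp : ∀ z ∈ U, ∀ x, u (z, x + 2 * Real.pi) = u (z, x)) :
    ContDiffOn ℝ ∞ (fun p : Z × ℝ => u (p.1, Real.arccos p.2)) (U ×ˢ Icc (-1) 1) :=
  contDiffOn_infty.2 fun n => whit_ind hU n hu he hp

end Vale.Agent.P244A
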